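/-
S0351 package CHARP/SETUP: the laws `H(τ)` on the height-`h` stratum with parameters `τ`, in characteristic `p`.
`v_i = 0` for `i < h`, `v_{h+j} = τ_j` (`0 ≤ j < m = n-h`), `v_n = 1`, `v_i = 0` for `i > n`.
See BLUEPRINT.md §CP0.
-/
import Crest.Agent.LT.E0
import Crest.Agent.LT.Eval
import Crest.Agent.LT.Weierstrass
import Crest.Agent.LT.Taylor

set_option autoImplicit false

open Crest.LubinTate

namespace Crest.Agent.LT

noncomputable section

namespace SetupAux

section
open MvPowerSeries

variable {R : Type*} [CommRing R]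

section Chain

variable {σ τ : Type*} [Fintype σ] [Finite τ]

omit [Finite τ] in
/-- Chain rule for polynomials. -/
theorem pderiv_aeval (a : σ → MvPowerSeries τ R) (i : τ) (P : MvPolynomial σ R) :
    pderiv R i (MvPolynomial.aeval a P) =
      ∑ s, MvPolynomial.aeval a (MvPolynomial.pderiv s P) * pderiv R i (a s) := by
  classical
  induction P using MvPolynomial.induction_on with
  | C r =>
    simp [MvPolynomial.algHom_C]
  | add p q hp hq =>
    simp only [map_add, hp, hq, add_mul, Finset.sum_add_distrib]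
  | mul_X p j hp =>
    rw [map_mul, MvPolynomial.aeval_X, Derivation.leibniz, hp, smul_eq_mul, smul_eq_mul,
      Finset.mul_sum]
    have h : ∀ s, MvPolynomial.aeval a (MvPolynomial.pderiv s (p * MvPolynomial.X j)) *
        pderiv R i (a s) =
        a j * (MvPolynomial.aeval a (MvPolynomial.pderiv s p) * pderiv R i (a s)) +
          (if s = j then MvPolynomial.aeval a p * pderiv R i (a j) else 0) := by
      intro s
      rw [Derivation.leibniz, smul_eq_mul, smul_eq_mul, map_add, map_mul, map_mul,
        MvPolynomial.aeval_X]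
      by_cases hs : s = j
      · subst hs
        simp only [MvPolynomial.pderiv_X_self, map_one, mul_one, if_true]
        ring
      · rw [MvPolynomial.pderiv_X_of_ne (Ne.symm hs), if_neg hs]
        simp only [map_zero, mul_zero, zero_add, add_zero]
        ring
    simp_rw [h]
    rw [Finset.sum_add_distrib, Finset.sum_ite_eq' Finset.univ j]
    simp only [Finset.mem_univ, if_true]
    rw [add_comm]

variable {a : σ → MvPowerSeries τ R}

/-- Coefficients of low degree of `f(a)` only depend on coefficients of low degree of `f`. -/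
theorem coeff_subst_congr (ha : ∀ s, (a s).constantCoeff = 0) (k : ℕ) {f g : MvPowerSeries σ R}
    (hfg : ∀ d : σ →₀ ℕ, d.degree < k → coeff d f = coeff d g) (e : τ →₀ ℕ) (he : e.degree < k) :
    coeff e (f.subst a) = coeff e (g.subst a) := by
  have h1 := truncTotal_subst_eq_truncTotal_truncTotal_subst (f := f) (k := k) ha
  have h2 := truncTotal_subst_eq_truncTotal_truncTotal_subst (f := g) (k := k) ha
  have h3 : f.truncTotal k = g.truncTotal k := by
    ext d
    by_cases hd : d.degree < k
    · rw [coeff_truncTotal _ hd, coeff_truncTotal _ hd, hfg d hd]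
    · rw [coeff_truncTotal_eq_zero _ (not_lt.mp hd), coeff_truncTotal_eq_zero _ (not_lt.mp hd)]
  rw [h3, ← h2] at h1
  have := congrArg (MvPolynomial.coeff e) h1
  rwa [coeff_truncTotal _ he, coeff_truncTotal _ he] at this

/-- Chain rule for substitutions with vanishing constant terms. -/
theorem pderiv_subst (ha : ∀ s, (a s).constantCoeff = 0) (i : τ) (K : MvPowerSeries σ R) :
    pderiv R i (K.subst a) = ∑ s, (pderiv R s K).subst a * pderiv R i (a s) := by
  classical
  have hs : HasSubst a := hasSubst_of_constantCoeff_zero ha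
  ext e
  set k := e.degree + 2 with hk
  -- the polynomial approximation
  set P : MvPolynomial σ R := K.truncTotal k with hP
  have hP1 : ∀ d : σ →₀ ℕ, d.degree < k → coeff d K = coeff d (P : MvPowerSeries σ R) := by
    intro d hd
    rw [MvPolynomial.coeff_coe, hP, coeff_truncTotal _ hd]
  have hdeg : ((Finsupp.single i 1 : τ →₀ ℕ)).degree = 1 := by simp
  have hL : coeff e (pderiv R i (K.subst a)) =
      coeff e (pderiv R i ((P : MvPowerSeries σ R).subst a)) := by
    rw [coeff_pderiv, coeff_pderiv,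
      coeff_subst_congr ha k hP1 (e + Finsupp.single i 1) (by rw [map_add, hdeg]; omega)]
  have hcoe : ∀ Q : MvPolynomial σ R, (Q : MvPowerSeries σ R).subst a = MvPolynomial.aeval a Q :=
    fun Q => subst_coe Q
  rw [hL, hcoe, pderiv_aeval, map_sum, map_sum]
  refine Finset.sum_congr rfl fun s _ => ?_
  rw [coeff_mul, coeff_mul]
  refine Finset.sum_congr rfl fun x hx => ?_
  congr 1
  have hx1 : x.1.degree ≤ e.degree := by
    rw [← Finset.HasAntidiagonal.mem_antidiagonal.1 hx, map_add]
    omega
  have hsingle : ((Finsupp.single s 1 : σ →₀ ℕ)).degree = 1 := by simp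
  have hcongr : coeff x.1 ((pderiv R s K).subst a) =
      coeff x.1 ((pderiv R s (P : MvPowerSeries σ R)).subst a) := by
    refine coeff_subst_congr ha (k - 1) ?_ x.1 (by omega)
    intro d hd
    rw [coeff_pderiv, coeff_pderiv, hP1 (d + Finsupp.single s 1) (by rw [map_add, hsingle]; omega)]
  rw [hcongr, pderiv_coe, hcoe]

end Chain

section Hom

theorem constantCoeff_subst_of_zero {σ τ : Type*} [Finite σ] {a : σ → MvPowerSeries τ R}
    (ha : ∀ s, (a s).constantCoeff = 0) (K : MvPowerSeries σ R) :
    (K.subst a).constantCoeff = K.constantCoeff := by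
  have hs : HasSubst a := hasSubst_of_constantCoeff_zero ha
  have h1 : K = C (K.constantCoeff) + (K - C (K.constantCoeff)) := by ring
  have h2 : (K - C (K.constantCoeff)).constantCoeff = 0 := by simp
  have h3 := constantCoeff_subst_eq_zero hs ha h2
  have h4 : K.subst a = (C (K.constantCoeff) : MvPowerSeries σ R).subst a +
      (K - C (K.constantCoeff)).subst a := by
    rw [← subst_add hs, ← h1]
  rw [h4, map_add, h3, add_zero, subst_C]
  simp

/-- Chain rule for a one-variable outer series. -/
theorem pderiv_psubst {τ : Type*} [Finite τ] {u : MvPowerSeries τ R} (hu : u.constantCoeff = 0)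
    (i : τ) (f : PowerSeries R) :
    pderiv R i (PowerSeries.subst u f) =
      PowerSeries.subst u (PowerSeries.derivative R f) * pderiv R i u := by
  have := pderiv_subst (σ := Unit) (a := fun _ => u) (fun _ => hu) i f
  rw [Fintype.sum_unique] at this
  exact this

/-- `f' · F₂(X,0) = f'(0) · G₂(f(X),0)`: the derivative of a homomorphism. -/
theorem derivative_hom_aux {F G : FormalGroup R} {f : PowerSeries R}
    (hf : PowerSeries.constantCoeff f = 0)
    (hom : PowerSeries.subst F.toPowerSeries f =
      G.toPowerSeries.subst ![PowerSeries.subst (X 0 : MvPowerSeries (Fin 2) R) f,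
        PowerSeries.subst (X 1 : MvPowerSeries (Fin 2) R) f]) :
    PowerSeries.derivative R f *
        ((pderiv R 1 F.toPowerSeries).subst ![PowerSeries.X, (0 : PowerSeries R)] : PowerSeries R) =
      PowerSeries.C (PowerSeries.coeff 1 f) *
        ((pderiv R 1 G.toPowerSeries).subst ![f, (0 : PowerSeries R)] : PowerSeries R) := by
  classical
  have hf' : MvPowerSeries.constantCoeff (f : MvPowerSeries Unit R) = 0 := hf
  have hF0 : (F.toPowerSeries).constantCoeff = 0 := F.zero_constantCoeff
  have hX0 : (X 0 : MvPowerSeries (Fin 2) R).constantCoeff = 0 := by simp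
  have hX1 : (X 1 : MvPowerSeries (Fin 2) R).constantCoeff = 0 := by simp
  have hA : (PowerSeries.subst (X 0 : MvPowerSeries (Fin 2) R) f).constantCoeff = 0 := by
    exact (constantCoeff_subst_of_zero (σ := Unit) (a := fun _ => (X 0 : MvPowerSeries (Fin 2) R))
      (fun _ => hX0) f).trans hf'
  have hB : (PowerSeries.subst (X 1 : MvPowerSeries (Fin 2) R) f).constantCoeff = 0 := by
    exact (constantCoeff_subst_of_zero (σ := Unit) (a := fun _ => (X 1 : MvPowerSeries (Fin 2) R))
      (fun _ => hX1) f).trans hf'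
  -- differentiate in `Y`
  have hD := congrArg (pderiv R (1 : Fin 2)) hom
  rw [pderiv_psubst hF0, pderiv_subst (a := ![PowerSeries.subst (X 0 : MvPowerSeries (Fin 2) R) f,
      PowerSeries.subst (X 1 : MvPowerSeries (Fin 2) R) f])
      (by intro s; fin_cases s; exacts [hA, hB]), Fin.sum_univ_two] at hD
  simp only [Fin.isValue, Matrix.cons_val_zero, Matrix.cons_val_one, Matrix.cons_val_fin_one] at hD
  rw [pderiv_psubst hX0, pderiv_psubst hX1, pderiv_X_self, pderiv_X_of_ne (by decide)] at hD
  simp only [mul_zero, zero_add, mul_one] at hD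
  -- set `Y = 0`
  have hsX : HasSubst ![(PowerSeries.X : PowerSeries R), 0] := HasSubst.X_zero
  have hD2 := congrArg (MvPowerSeries.subst ![(PowerSeries.X : PowerSeries R), 0]) hD
  have key : ∀ (g : MvPowerSeries (Fin 2) R) (φ : PowerSeries R), g.constantCoeff = 0 →
      MvPowerSeries.subst ![(PowerSeries.X : PowerSeries R), 0] (PowerSeries.subst g φ) =
        PowerSeries.subst (MvPowerSeries.subst ![(PowerSeries.X : PowerSeries R), 0] g) φ := by
    intro g φ hg
    have h1 : PowerSeries.HasSubst g := PowerSeries.HasSubst.of_constantCoeff_zero hg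
    exact MvPowerSeries.subst_comp_subst_apply h1.const hsX φ
  have hσ0 : MvPowerSeries.subst ![(PowerSeries.X : PowerSeries R), 0]
      (X 0 : MvPowerSeries (Fin 2) R) = PowerSeries.X := by
    rw [subst_X hsX]; rfl
  have hσ1 : MvPowerSeries.subst ![(PowerSeries.X : PowerSeries R), 0]
      (X 1 : MvPowerSeries (Fin 2) R) = 0 := by
    rw [subst_X hsX]; rfl
  have hFX : MvPowerSeries.subst ![(PowerSeries.X : PowerSeries R), 0] F.toPowerSeries =
      PowerSeries.X := F.Xzero_eq_X
  rw [subst_mul hsX, subst_mul hsX, key _ _ hF0, key _ _ hX1, hσ1, hFX, PowerSeries.X_subst,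
    MvPowerSeries.subst_comp_subst_apply
      (hasSubst_of_constantCoeff_zero (by intro s; fin_cases s; exacts [hA, hB])) hsX] at hD2
  have hAB : (fun s => MvPowerSeries.subst ![(PowerSeries.X : PowerSeries R), 0]
      (![PowerSeries.subst (X 0 : MvPowerSeries (Fin 2) R) f,
        PowerSeries.subst (X 1 : MvPowerSeries (Fin 2) R) f] s)) =
      ![f, (0 : PowerSeries R)] := by
    funext s
    fin_cases s
    · show MvPowerSeries.subst _ (PowerSeries.subst (X 0 : MvPowerSeries (Fin 2) R) f) = f
      rw [key _ _ hX0, hσ0, PowerSeries.X_subst]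
    · show MvPowerSeries.subst _ (PowerSeries.subst (X 1 : MvPowerSeries (Fin 2) R) f) = 0
      rw [key _ _ hX1, hσ1, PowerSeries.subst_zero_of_constantCoeff_zero hf]
  rw [hAB, PowerSeries.subst_zero_eq_C_constantCoeff] at hD2
  have hc : PowerSeries.constantCoeff (PowerSeries.derivative R f) = PowerSeries.coeff 1 f := by
    rw [← PowerSeries.coeff_zero_eq_constantCoeff_apply, PowerSeries.coeff_derivative]
    simp
  rw [hc] at hD2
  rw [hD2, mul_comm]
  congr 1

theorem isUnit_subst_pderiv (F : FormalGroup R) {a b : PowerSeries R}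
    (ha : PowerSeries.constantCoeff a = 0) (hb : PowerSeries.constantCoeff b = 0) :
    IsUnit ((pderiv R 1 F.toPowerSeries).subst ![a, b] : PowerSeries R) := by
  rw [PowerSeries.isUnit_iff_constantCoeff]
  have h := constantCoeff_subst_of_zero (a := ![(a : MvPowerSeries Unit R), b])
    (by intro s; fin_cases s; exacts [ha, hb]) (pderiv R 1 F.toPowerSeries)
  have h2 : (pderiv R (1 : Fin 2) F.toPowerSeries).constantCoeff = 1 := by
    rw [← coeff_zero_eq_constantCoeff_apply, coeff_pderiv]
    simp [F.lin_coeff_Y]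
  have h3 : PowerSeries.constantCoeff
      ((pderiv R 1 F.toPowerSeries).subst ![a, b] : PowerSeries R) = 1 := h.trans h2
  rw [h3]
  exact isUnit_one

theorem derivative_hom_eq_unit_mul' {F G : FormalGroup R} {f : PowerSeries R}
    (hf : PowerSeries.constantCoeff f = 0)
    (hom : PowerSeries.subst F.toPowerSeries f =
      G.toPowerSeries.subst ![PowerSeries.subst (X 0 : MvPowerSeries (Fin 2) R) f,
        PowerSeries.subst (X 1 : MvPowerSeries (Fin 2) R) f]) :
    ∃ U : PowerSeries R, IsUnit U ∧
      PowerSeries.derivative R f = PowerSeries.C (PowerSeries.coeff 1 f) * U := by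
  have h := derivative_hom_aux hf hom
  have hX : PowerSeries.constantCoeff (PowerSeries.X : PowerSeries R) = 0 := by simp
  have h0 : PowerSeries.constantCoeff (0 : PowerSeries R) = 0 := by simp
  obtain ⟨a, ha⟩ := isUnit_subst_pderiv F hX h0
  have hb := isUnit_subst_pderiv G hf h0
  refine ⟨((pderiv R 1 G.toPowerSeries).subst ![f, (0 : PowerSeries R)] : PowerSeries R) *
    (↑a⁻¹ : PowerSeries R), hb.mul a⁻¹.isUnit, ?_⟩
  rw [← ha] at h
  rw [← mul_assoc, ← h, mul_assoc, Units.mul_inv, mul_one]

end Hom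
end


variable {R S : Type*} [CommRing R] [CommRing S]

theorem tokenPt_val (F : FormalGroup R) (c : R) (e : ℕ) (he : e ≠ 0) :
    (tokenPt F c e he).val = PowerSeries.C c * PowerSeries.X ^ e := rfl

theorem scomp_token (c : R) (e : ℕ) {g : PowerSeries R} (hg : PowerSeries.HasSubst g) :
    scomp (PowerSeries.C c * PowerSeries.X ^ e : PowerSeries R) g =
      PowerSeries.C c * g ^ e := by
  unfold scomp
  rw [PowerSeries.subst_mul hg, PowerSeries.subst_pow hg, PowerSeries.subst_X hg,
    PowerSeries.subst_C]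
  rfl

theorem hasSubst_point (F : FormalGroup R) (x : F.Point Unit) :
    PowerSeries.HasSubst (x.val : MvPowerSeries Unit R) := x.prop

theorem constantCoeff_token (c : R) (e : ℕ) (he : e ≠ 0) :
    PowerSeries.constantCoeff (PowerSeries.C c * PowerSeries.X ^ e : PowerSeries R) = 0 := by
  simp [he]

theorem hasSubst_pair {a b : PowerSeries R} (ha : PowerSeries.constantCoeff a = 0)
    (hb : PowerSeries.constantCoeff b = 0) :
    MvPowerSeries.HasSubst ![(a : MvPowerSeries Unit R), b] := by
  refine MvPowerSeries.hasSubst_of_constantCoeff_zero ?_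
  intro s
  fin_cases s
  · exact ha
  · exact hb

/-- `F(a,b)` has zero constant term. -/
theorem constantCoeff_law (F : FormalGroup R) {a b : PowerSeries R}
    (ha : PowerSeries.constantCoeff a = 0) (hb : PowerSeries.constantCoeff b = 0) :
    PowerSeries.constantCoeff
      (F.toPowerSeries.subst ![(a : MvPowerSeries Unit R), b] : PowerSeries R) = 0 := by
  refine MvPowerSeries.constantCoeff_subst_eq_zero (hasSubst_pair ha hb) ?_ F.zero_constantCoeff
  intro s
  fin_cases s
  · exact ha
  · exact hb

section Sum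

variable {ι : Type*}

theorem constantCoeff_sum (F : FormalGroup R) [F.IsComm] (s : Finset ι) (x : ι → F.Point Unit)
    (hx : ∀ i, PowerSeries.constantCoeff ((x i).val : PowerSeries R) = 0) :
    PowerSeries.constantCoeff ((∑ i ∈ s, x i : F.Point Unit).val : PowerSeries R) = 0 := by
  classical
  induction s using Finset.induction_on with
  | empty => simp
  | insert a s ha ih =>
    rw [Finset.sum_insert ha, FormalGroup.add_apply]
    exact constantCoeff_law F (hx a) ih

end Sum


section Law

variable (F : FormalGroup R)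

theorem pair_map (φ : R →+* S) (a b : PowerSeries R) :
    (fun i => (MvPowerSeries.map φ) (![(a : MvPowerSeries Unit R), b] i)) =
      ![(PowerSeries.map φ a : MvPowerSeries Unit S), PowerSeries.map φ b] := by
  funext i
  fin_cases i <;> rfl

theorem map_law (φ : R →+* S) {a b : PowerSeries R} (ha : PowerSeries.constantCoeff a = 0)
    (hb : PowerSeries.constantCoeff b = 0) :
    PowerSeries.map φ (F.toPowerSeries.subst ![(a : MvPowerSeries Unit R), b] : PowerSeries R) =
      ((F.map φ).toPowerSeries.subst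
        ![(PowerSeries.map φ a : MvPowerSeries Unit S), PowerSeries.map φ b] : PowerSeries S) := by
  have := MvPowerSeries.map_subst (hasSubst_pair ha hb) (h := φ) F.toPowerSeries
  rw [pair_map] at this
  exact this

theorem scomp_law {a b g : PowerSeries R} (ha : PowerSeries.constantCoeff a = 0)
    (hb : PowerSeries.constantCoeff b = 0) (hg : PowerSeries.constantCoeff g = 0) :
    scomp (F.toPowerSeries.subst ![(a : MvPowerSeries Unit R), b] : PowerSeries R) g =
      (F.toPowerSeries.subst ![(scomp a g : MvPowerSeries Unit R), scomp b g] : PowerSeries R) := by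
  have hg' : PowerSeries.HasSubst g := PowerSeries.HasSubst.of_constantCoeff_zero' hg
  have := MvPowerSeries.subst_comp_subst_apply (hasSubst_pair ha hb) hg'.const F.toPowerSeries
  have h2 : (fun s => MvPowerSeries.subst (fun _ : Unit => g) (![(a : MvPowerSeries Unit R), b] s)) =
      ![(scomp a g : MvPowerSeries Unit R), scomp b g] := by
    funext i
    fin_cases i <;> rfl
  rw [h2] at this
  exact this

theorem coeff_one_law {a b : PowerSeries R} (ha : PowerSeries.constantCoeff a = 0)
    (hb : PowerSeries.constantCoeff b = 0) :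
    PowerSeries.coeff 1 (F.toPowerSeries.subst ![(a : MvPowerSeries Unit R), b] : PowerSeries R) =
      PowerSeries.coeff 1 a + PowerSeries.coeff 1 b := by
  classical
  have hs := hasSubst_pair ha hb
  have key : PowerSeries.coeff 1 (F.toPowerSeries.subst ![(a : MvPowerSeries Unit R), b] : PowerSeries R)
      = ∑ᶠ d : Fin 2 →₀ ℕ, MvPowerSeries.coeff d F.toPowerSeries •
        MvPowerSeries.coeff (Finsupp.single () 1)
          (d.prod fun s e => (![(a : MvPowerSeries Unit R), b] s) ^ e) :=
    MvPowerSeries.coeff_subst hs F.toPowerSeries (Finsupp.single () 1)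
  rw [key, finsum_eq_sum_of_support_subset (s := {Finsupp.single 0 1, Finsupp.single 1 1})]
  · have hne : (Finsupp.single (0 : Fin 2) 1 : Fin 2 →₀ ℕ) ≠ Finsupp.single 1 1 := by
      intro h
      have := DFunLike.congr_fun h 0
      simp at this
    rw [Finset.sum_pair hne, F.lin_coeff_X, F.lin_coeff_Y]
    simp only [Finsupp.prod_single_index, pow_zero, pow_one, one_smul, Matrix.cons_val_zero,
      Matrix.cons_val_one]
    rfl
  · intro d hd
    simp only [Function.mem_support] at hd
    by_contra hnot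
    apply hd
    simp only [Finset.coe_insert, Finset.coe_singleton, Set.mem_insert_iff,
      Set.mem_singleton_iff, not_or] at hnot
    by_cases h0 : d = 0
    · subst h0
      have : MvPowerSeries.coeff (0 : Fin 2 →₀ ℕ) F.toPowerSeries = 0 := by
        rw [MvPowerSeries.coeff_zero_eq_constantCoeff_apply, F.zero_constantCoeff]
      rw [this, zero_smul]
    · have hd2 : 2 ≤ d 0 + d 1 := by
        by_contra hlt
        push Not at hlt
        have hcases : (d 0 = 0 ∧ d 1 = 0) ∨ (d 0 = 1 ∧ d 1 = 0) ∨ (d 0 = 0 ∧ d 1 = 1) := by omega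
        rcases hcases with ⟨h1, h2⟩ | ⟨h1, h2⟩ | ⟨h1, h2⟩
        · apply h0
          ext i
          fin_cases i <;> simpa
        · apply hnot.1
          ext i
          fin_cases i <;> simpa
        · apply hnot.2
          ext i
          fin_cases i <;> simpa
      have hprod : (d.prod fun s e => (![(a : MvPowerSeries Unit R), b] s) ^ e) =
          (a : PowerSeries R) ^ d 0 * b ^ d 1 := by
        rw [Finsupp.prod_fintype _ _ (fun i => pow_zero _), Fin.prod_univ_two]
        rfl
      obtain ⟨a', ha'⟩ : (PowerSeries.X : PowerSeries R) ∣ a := PowerSeries.X_dvd_iff.2 ha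
      obtain ⟨b', hb'⟩ : (PowerSeries.X : PowerSeries R) ∣ b := PowerSeries.X_dvd_iff.2 hb
      have hdvd : (PowerSeries.X : PowerSeries R) ^ 2 ∣ a ^ d 0 * b ^ d 1 := by
        rw [ha', hb', mul_pow, mul_pow]
        refine Dvd.dvd.trans (pow_dvd_pow _ hd2) ?_
        refine ⟨a' ^ d 0 * b' ^ d 1, ?_⟩
        ring
      have h1 : PowerSeries.coeff 1 (a ^ d 0 * b ^ d 1) = 0 :=
        (PowerSeries.X_pow_dvd_iff.1 hdvd) 1 (by norm_num)
      rw [hprod]
      have : MvPowerSeries.coeff (Finsupp.single () 1) ((a : PowerSeries R) ^ d 0 * b ^ d 1) = 0 := h1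
      rw [this, smul_zero]

end Law

section Sum

variable {ι : Type*}

theorem map_sum_val (φ : R →+* S) (F : FormalGroup R) [F.IsComm] (G : FormalGroup S) [G.IsComm]
    (hFG : F.map φ = G) (s : Finset ι) (x : ι → F.Point Unit) (y : ι → G.Point Unit)
    (hx : ∀ i, PowerSeries.constantCoeff ((x i).val : PowerSeries R) = 0)
    (hy : ∀ i, (y i).val = PowerSeries.map φ (x i).val) :
    PowerSeries.map φ ((∑ i ∈ s, x i : F.Point Unit).val : PowerSeries R) =
      (∑ i ∈ s, y i : G.Point Unit).val := by
  classical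
  subst hFG
  induction s using Finset.induction_on with
  | empty => simp
  | insert a s ha ih =>
    rw [Finset.sum_insert ha, Finset.sum_insert ha, FormalGroup.add_apply, FormalGroup.add_apply,
      hy a, ← ih]
    exact map_law F φ (hx a) (constantCoeff_sum F s x hx)

theorem scomp_sum_val (F : FormalGroup R) [F.IsComm] (s : Finset ι) (x y : ι → F.Point Unit)
    (g : PowerSeries R) (hg : PowerSeries.constantCoeff g = 0)
    (hx : ∀ i, PowerSeries.constantCoeff ((x i).val : PowerSeries R) = 0)
    (hy : ∀ i, (y i).val = scomp (x i).val g) :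
    scomp ((∑ i ∈ s, x i : F.Point Unit).val : PowerSeries R) g =
      (∑ i ∈ s, y i : F.Point Unit).val := by
  classical
  induction s using Finset.induction_on with
  | empty =>
    have hg' : PowerSeries.HasSubst g := PowerSeries.HasSubst.of_constantCoeff_zero' hg
    simp only [Finset.sum_empty, FormalGroup.zero_apply]
    have := map_zero (PowerSeries.substAlgHom (R := R) hg')
    rwa [PowerSeries.coe_substAlgHom] at this
  | insert a s ha ih =>
    rw [Finset.sum_insert ha, Finset.sum_insert ha, FormalGroup.add_apply, FormalGroup.add_apply,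
      hy a, ← ih]
    exact scomp_law F (hx a) (constantCoeff_sum F s x hx) hg

theorem coeff_one_sum_val (F : FormalGroup R) [F.IsComm] (s : Finset ι) (x : ι → F.Point Unit)
    (hx : ∀ i, PowerSeries.constantCoeff ((x i).val : PowerSeries R) = 0) :
    PowerSeries.coeff 1 ((∑ i ∈ s, x i : F.Point Unit).val : PowerSeries R) =
      ∑ i ∈ s, PowerSeries.coeff 1 ((x i).val : PowerSeries R) := by
  classical
  induction s using Finset.induction_on with
  | empty => simp
  | insert a s ha ih =>
    rw [Finset.sum_insert ha, Finset.sum_insert ha, FormalGroup.add_apply, ← ih]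
    exact coeff_one_law F (hx a) (constantCoeff_sum F s x hx)

end Sum


end SetupAux

variable (p : ℕ) [Fact p.Prime] (h n : ℕ)

section General

variable {R S : Type*} [CommRing R] [CommRing S]

/-- The parameter vector (recall `X i ↦ v_{i+1}` in `hzv`). -/
def vStr (τ : Fin (n - h) → R) : ℕ → R := fun i =>
  if hi : h ≤ i + 1 ∧ i + 1 < n then τ ⟨i + 1 - h, by omega⟩ else if i + 1 = n then 1 else 0

theorem vStr_map (φ : R →+* S) (τ : Fin (n - h) → R) (i : ℕ) :
    φ (vStr h n τ i) = vStr h n (fun j => φ (τ j)) i := by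
  unfold vStr
  split_ifs <;> simp

theorem vStr_of_lt (hn : h ≤ n) (τ : Fin (n - h) → R) (i : ℕ) (hi : i + 1 < h) :
    vStr h n τ i = 0 := by
  unfold vStr
  rw [dif_neg (by omega), if_neg (by omega)]

theorem vStr_of_ge (τ : Fin (n - h) → R) (i : ℕ) (hi : n ≤ i) : vStr h n τ i = 0 := by
  unfold vStr
  rw [dif_neg (by omega), if_neg (by omega)]

theorem vStr_top (τ : Fin (n - h) → R) (i : ℕ) (hi : i + 1 = n) : vStr h n τ i = 1 := by
  unfold vStr
  rw [dif_neg (by omega), if_pos hi]

theorem vStr_pow (τ : Fin (n - h) → R) (i k : ℕ) (hk : k ≠ 0) :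
    vStr h n τ i ^ k = vStr h n (fun j => τ j ^ k) i := by
  unfold vStr
  split_ifs
  · rfl
  · simp
  · simp [hk]

/-- The law `H(τ)`. -/
abbrev HS (τ : Fin (n - h) → R) : FormalGroup R := hzv p (vStr h n τ)

theorem HS_map (φ : R →+* S) (τ : Fin (n - h) → R) :
    (HS p h n τ).map φ = HS p h n (fun j => φ (τ j)) := by
  show (hzv p (vStr h n τ)).map φ = hzv p (vStr h n fun j => φ (τ j))
  rw [hzv_map]
  congr 1
  funext i
  exact vStr_map h n φ τ i

/-- At `τ = 0` (`h ≤ n`): Honda's law of height `n`. -/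
theorem HS_zero (hh : h ≤ n) : HS p h n (0 : Fin (n - h) → R) = hzv p (eParam n) := by
  show hzv p (vStr h n 0) = _
  congr 1
  funext i
  unfold vStr eParam
  split_ifs with h1 h2 h3
  · simp only [Pi.zero_apply]
    omega
  · rfl
  · rfl
  · rfl

/-- `ψ = ∑^{H(τ)}_{h ≤ i ≤ n} v_i Y^(p^(i-h))` (index shift: `vStr i = v_{i+1}`). -/
def psiS (τ : Fin (n - h) → R) : PowerSeries R :=
  (∑ i ∈ Finset.Ico (h - 1) n, tokenPt (HS p h n τ) (vStr h n τ i) (p ^ (i + 1 - h))
    (pow_ne_zero _ (Fact.out : p.Prime).ne_zero) : (HS p h n τ).Point Unit).val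

/-- Reduction of `ψ`. -/
theorem psiS_map (φ : R →+* S) (τ : Fin (n - h) → R) :
    PowerSeries.map φ (psiS p h n τ) = psiS p h n (fun j => φ (τ j)) := by
  have hp : p ≠ 0 := (Fact.out : p.Prime).ne_zero
  unfold psiS
  apply SetupAux.map_sum_val φ _ _ (HS_map p h n φ τ)
  · intro i
    exact SetupAux.constantCoeff_token _ _ (pow_ne_zero _ hp)
  · intro i
    rw [SetupAux.tokenPt_val, SetupAux.tokenPt_val, map_mul, PowerSeries.map_C, map_pow,
      PowerSeries.map_X, vStr_map h n φ τ i]

/-- At `τ = 0`, `ψ = X^(p^(n-h))`. -/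
theorem psiS_zero (hh : 1 ≤ h) (hn : h < n) :
    psiS p h n (0 : Fin (n - h) → R) = PowerSeries.X ^ (p ^ (n - h)) := by
  classical
  have hp : p ≠ 0 := (Fact.out : p.Prime).ne_zero
  unfold psiS
  rw [Finset.sum_eq_single (n - 1)]
  · rw [SetupAux.tokenPt_val, vStr_top h n _ _ (by omega)]
    have : n - 1 + 1 - h = n - h := by omega
    rw [this, map_one, one_mul]
  · intro i hi hne
    apply Subtype.ext
    have hi1 := Finset.mem_Ico.1 hi
    have hv : vStr h n (0 : Fin (n - h) → R) i = 0 := by
      unfold vStr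
      rw [dif_pos (by omega)]
      rfl
    rw [SetupAux.tokenPt_val, hv]
    simp
  · intro hni
    exact absurd (Finset.mem_Ico.2 ⟨by omega, by omega⟩) hni

variable [CharP R p]

/-- `[p]_{H(τ)} = ψ(X^P)`, `P = p^h`. From `hzv_pSeries_charP`, the summands with `i < h` vanish. -/
theorem pSeries_HS (hh : 1 ≤ h) (hn : h ≤ n) (τ : Fin (n - h) → R) :
    mulSeries (HS p h n τ) p = scomp (psiS p h n τ) (PowerSeries.X ^ (p ^ h)) := by
  have hp : p ≠ 0 := (Fact.out : p.Prime).ne_zero
  have hPne : p ^ h ≠ 0 := pow_ne_zero _ hp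
  have h1 := hzv_pSeries_charP p (vStr h n τ) n (fun i hi => vStr_of_ge h n τ i hi)
  have hg : PowerSeries.constantCoeff (PowerSeries.X ^ (p ^ h) : PowerSeries R) = 0 := by
    rw [map_pow, PowerSeries.constantCoeff_X, zero_pow hPne]
  have hg' : PowerSeries.HasSubst (PowerSeries.X ^ (p ^ h) : PowerSeries R) :=
    PowerSeries.HasSubst.of_constantCoeff_zero' hg
  have h2 := SetupAux.scomp_sum_val (HS p h n τ) (Finset.Ico (h - 1) n)
    (fun i => tokenPt (HS p h n τ) (vStr h n τ i) (p ^ (i + 1 - h)) (pow_ne_zero _ hp))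
    (fun i => tokenPt (HS p h n τ) (vStr h n τ i) (p ^ (i + 1 - h) * p ^ h)
      (mul_ne_zero (pow_ne_zero _ hp) hPne))
    (PowerSeries.X ^ (p ^ h)) hg
    (fun i => SetupAux.constantCoeff_token _ _ (pow_ne_zero _ hp))
    (fun i => by
      rw [SetupAux.tokenPt_val, SetupAux.tokenPt_val, SetupAux.scomp_token _ _ hg', ← pow_mul,
        Nat.mul_comm])
  rw [h1]
  unfold psiS
  rw [h2]
  have h3 : ∀ i ∈ Finset.Ico (h - 1) n,
      tokenPt (HS p h n τ) (vStr h n τ i) (p ^ (i + 1 - h) * p ^ h)
        (mul_ne_zero (pow_ne_zero _ hp) hPne) =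
      tokenPt (HS p h n τ) (vStr h n τ i) (p ^ (i + 1)) (pow_ne_zero _ hp) := by
    intro i hi
    have hi1 := (Finset.mem_Ico.1 hi).1
    apply Subtype.ext
    rw [SetupAux.tokenPt_val, SetupAux.tokenPt_val, ← pow_add]
    congr 3
    omega
  rw [Finset.sum_congr rfl h3]
  have h4 : (∑ i ∈ Finset.Ico (h - 1) n,
      tokenPt (HS p h n τ) (vStr h n τ i) (p ^ (i + 1)) (pow_ne_zero _ hp) :
        (HS p h n τ).Point Unit) =
      ∑ i ∈ Finset.range n, tokenPt (HS p h n τ) (vStr h n τ i) (p ^ (i + 1)) (pow_ne_zero _ hp) := by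
    apply Finset.sum_subset
    · intro i hi
      exact Finset.mem_range.2 (Finset.mem_Ico.1 hi).2
    · intro i hi hi'
      simp only [Finset.mem_range, Finset.mem_Ico, not_and, not_lt] at hi hi'
      have hi2 : i + 1 < h := by
        by_contra hc
        have := hi' (by omega)
        omega
      apply Subtype.ext
      rw [SetupAux.tokenPt_val, vStr_of_lt h n hn τ i hi2]
      simp
  rw [h4]

theorem constantCoeff_psiS (τ : Fin (n - h) → R) : PowerSeries.constantCoeff (psiS p h n τ) = 0 :=
  SetupAux.constantCoeff_sum _ _ _ (fun _ => SetupAux.constantCoeff_token _ _ (pow_ne_zero _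
    (Fact.out : p.Prime).ne_zero))

/-- The linear coefficient of `ψ` is `v_h = τ_0` (for `h < n`). -/
theorem coeff_one_psiS (hh : 1 ≤ h) (hn : h < n) (τ : Fin (n - h) → R) :
    PowerSeries.coeff 1 (psiS p h n τ) = τ ⟨0, by omega⟩ := by
  classical
  have hp : (Fact.out : p.Prime).one_lt = (Fact.out : p.Prime).one_lt := rfl
  unfold psiS
  rw [SetupAux.coeff_one_sum_val _ _ _
    (fun _ => SetupAux.constantCoeff_token _ _ (pow_ne_zero _ (Fact.out : p.Prime).ne_zero)),
    Finset.sum_eq_single (h - 1)]
  · rw [SetupAux.tokenPt_val, PowerSeries.coeff_C_mul_X_pow]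
    have he : h - 1 + 1 - h = 0 := by omega
    rw [he, pow_zero, if_pos rfl]
    unfold vStr
    rw [dif_pos (by omega)]
    congr 1
    apply Fin.ext
    simp only
    omega
  · intro i hi hne
    rw [SetupAux.tokenPt_val, PowerSeries.coeff_C_mul_X_pow, if_neg]
    have hi1 := (Finset.mem_Ico.1 hi).1
    have hk : i + 1 - h ≠ 0 := by omega
    have : 1 < p ^ (i + 1 - h) := Nat.one_lt_pow hk (Fact.out : p.Prime).one_lt
    omega
  · intro hni
    exact absurd (Finset.mem_Ico.2 ⟨le_rfl, by omega⟩) hni

omit [CharP R p] in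
/-- Iterated Frobenius on a law with parameters. -/
theorem hzv_X_pow_hom [CharP R p] (v : ℕ → R) (k : ℕ) :
    IsFGHom (hzv p v) (hzv p fun i => v i ^ p ^ k) (PowerSeries.X ^ (p ^ k)) := by
  induction k with
  | zero =>
    simp only [pow_zero, pow_one]
    exact fgHom_id _
  | succ k ih =>
    have h2 := isFGHom_X_pow_p p (hzv p fun i => v i ^ p ^ k)
    unfold frobLaw at h2
    rw [hzv_frob] at h2
    have h3 := fgHom_comp h2 ih
    have hg : PowerSeries.constantCoeff (PowerSeries.X ^ (p ^ k) : PowerSeries R) = 0 := by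
      rw [map_pow, PowerSeries.constantCoeff_X,
        zero_pow (pow_ne_zero _ (Fact.out : p.Prime).ne_zero)]
    have hg' : PowerSeries.HasSubst (PowerSeries.X ^ (p ^ k) : PowerSeries R) :=
      PowerSeries.HasSubst.of_constantCoeff_zero' hg
    have h4 : scomp (PowerSeries.X ^ p : PowerSeries R) (PowerSeries.X ^ (p ^ k)) =
        PowerSeries.X ^ (p ^ (k + 1)) := by
      unfold scomp
      rw [PowerSeries.subst_pow hg', PowerSeries.subst_X hg', ← pow_mul, pow_succ]
    rw [h4] at h3
    have h5 : (fun i => (v i ^ p ^ k) ^ p) = fun i => v i ^ p ^ (k + 1) := by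
      funext i
      rw [← pow_mul, pow_succ]
    rw [h5] at h3
    exact h3

/-- `X^P` is a hom `H(τ) → H(τ^P)` . -/
theorem X_pow_hom (τ : Fin (n - h) → R) :
    IsFGHom (HS p h n τ) (HS p h n (fun j => τ j ^ (p ^ h))) (PowerSeries.X ^ (p ^ h)) := by
  have h1 := hzv_X_pow_hom p (vStr h n τ) h
  have h2 : (fun i => vStr h n τ i ^ p ^ h) = vStr h n (fun j => τ j ^ (p ^ h)) := by
    funext i
    exact vStr_pow h n τ i _ (pow_ne_zero _ (Fact.out : p.Prime).ne_zero)
  rw [h2] at h1
  exact h1

/-- `ψ` is a homomorphism `H(τ)^(P) → H(τ)`, where `H(τ)^(P) = H(τ^P)`: from `[p]` being a hom. and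
injectivity of `f ↦ f(X^P)`. -/
theorem psiS_hom (hh : 1 ≤ h) (hn : h ≤ n) (τ : Fin (n - h) → R) :
    IsFGHom (HS p h n (fun j => τ j ^ (p ^ h))) (HS p h n τ) (psiS p h n τ) := by
  classical
  have hp : p ≠ 0 := (Fact.out : p.Prime).ne_zero
  have hP : p ^ h ≠ 0 := pow_ne_zero _ hp
  refine ⟨constantCoeff_psiS p h n τ, ?_⟩
  set H := HS p h n τ with hH
  set H' := HS p h n (fun j => τ j ^ (p ^ h)) with hH'
  set ψ := psiS p h n τ with hψ
  have hψ0 : PowerSeries.constantCoeff ψ = 0 := constantCoeff_psiS p h n τ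
  have hψS : PowerSeries.HasSubst ψ := PowerSeries.HasSubst.of_constantCoeff_zero' hψ0
  let E : MvPowerSeries (Fin 2) R →ₐ[R] MvPowerSeries (Fin 2) R := MvPowerSeries.expand (p ^ h) hP
  have hEinj : Function.Injective E := by
    intro a b hab
    ext m
    have := congrArg (fun f => MvPowerSeries.coeff (p ^ h • m) f) hab
    simpa [E, MvPowerSeries.coeff_expand_smul] using this
  apply hEinj
  -- general identity `E (subst a ψ) = subst (E a) ψ`
  have hEsubst : ∀ a : MvPowerSeries (Fin 2) R, MvPowerSeries.constantCoeff a = 0 →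
      E (PowerSeries.subst a ψ) = PowerSeries.subst (E a) ψ := by
    intro a ha
    have hs : MvPowerSeries.HasSubst (fun _ : Unit => a) :=
      (PowerSeries.HasSubst.of_constantCoeff_zero ha).const
    show MvPowerSeries.expand (p ^ h) hP (PowerSeries.subst a ψ) = _
    rw [PowerSeries.subst_def, MvPowerSeries.expand_subst _ _ hs, PowerSeries.subst_def]
  have hXP : ∀ i : Fin 2, E (MvPowerSeries.X i) = MvPowerSeries.X i ^ (p ^ h) := fun i =>
    MvPowerSeries.expand_X _ _ i
  have hXc : ∀ i : Fin 2, MvPowerSeries.constantCoeff (MvPowerSeries.X i : MvPowerSeries (Fin 2) R) = 0 :=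
    fun i => MvPowerSeries.constantCoeff_X i
  have hTS : PowerSeries.HasSubst (PowerSeries.X ^ (p ^ h) : PowerSeries R) :=
    PowerSeries.HasSubst.of_constantCoeff_zero' (by
      rw [map_pow, PowerSeries.constantCoeff_X, zero_pow hP])
  -- `subst (X i ^ P) ψ = subst (X i) [p]`
  have hcomp : ∀ a : MvPowerSeries (Fin 2) R, MvPowerSeries.constantCoeff a = 0 →
      PowerSeries.subst (PowerSeries.subst a (PowerSeries.X ^ (p ^ h) : PowerSeries R)) ψ =
        PowerSeries.subst a (mulSeries H p) := by
    intro a ha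
    have ha' : PowerSeries.HasSubst a := PowerSeries.HasSubst.of_constantCoeff_zero ha
    rw [pSeries_HS p h n hh hn τ]
    exact (PowerSeries.subst_comp_subst_apply hTS ha' ψ).symm
  have hXpow : ∀ a : MvPowerSeries (Fin 2) R, MvPowerSeries.constantCoeff a = 0 →
      PowerSeries.subst a (PowerSeries.X ^ (p ^ h) : PowerSeries R) = a ^ (p ^ h) := by
    intro a ha
    have ha' : PowerSeries.HasSubst a := PowerSeries.HasSubst.of_constantCoeff_zero ha
    rw [PowerSeries.subst_pow ha', PowerSeries.subst_X ha']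
  have hH0 : MvPowerSeries.constantCoeff H'.toPowerSeries = 0 := H'.zero_constantCoeff
  have hEH' : E H'.toPowerSeries =
      PowerSeries.subst H.toPowerSeries (PowerSeries.X ^ (p ^ h) : PowerSeries R) := by
    have h1 := (X_pow_hom p h n τ).2
    rw [h1]
    show MvPowerSeries.expand (p ^ h) hP H'.toPowerSeries = _
    unfold MvPowerSeries.expand
    rw [MvPowerSeries.substAlgHom_apply]
    congr 1
    funext i
    fin_cases i
    · simp only [Fin.zero_eta, Matrix.cons_val_zero]
      rw [hXpow _ (hXc 0)]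
    · simp only [Fin.mk_one, Matrix.cons_val_one, Matrix.cons_val_fin_one]
      rw [hXpow _ (hXc 1)]
  have hL : E (PowerSeries.subst H'.toPowerSeries ψ) =
      PowerSeries.subst H.toPowerSeries (mulSeries H p) := by
    rw [hEsubst _ hH0, hEH', hcomp _ H.zero_constantCoeff]
  have hsub : ∀ i : Fin 2, MvPowerSeries.constantCoeff
      (PowerSeries.subst (MvPowerSeries.X i : MvPowerSeries (Fin 2) R) ψ) = 0 := by
    intro i
    exact PowerSeries.constantCoeff_subst_eq_zero (hXc i) _ hψ0
  have hpair : MvPowerSeries.HasSubst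
      (![PowerSeries.subst (MvPowerSeries.X 0 : MvPowerSeries (Fin 2) R) ψ,
        PowerSeries.subst (MvPowerSeries.X 1 : MvPowerSeries (Fin 2) R) ψ]) := by
    apply MvPowerSeries.hasSubst_of_constantCoeff_zero
    intro i
    fin_cases i
    · exact hsub 0
    · exact hsub 1
  have hR : E (H.toPowerSeries.subst
      ![PowerSeries.subst (MvPowerSeries.X 0 : MvPowerSeries (Fin 2) R) ψ,
        PowerSeries.subst (MvPowerSeries.X 1 : MvPowerSeries (Fin 2) R) ψ]) =
      H.toPowerSeries.subst
      ![PowerSeries.subst (MvPowerSeries.X 0 : MvPowerSeries (Fin 2) R) (mulSeries H p),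
        PowerSeries.subst (MvPowerSeries.X 1 : MvPowerSeries (Fin 2) R) (mulSeries H p)] := by
    show MvPowerSeries.expand (p ^ h) hP _ = _
    rw [MvPowerSeries.expand_subst _ _ hpair]
    congr 1
    funext i
    have key : ∀ j : Fin 2, MvPowerSeries.expand (p ^ h) hP
        (PowerSeries.subst (MvPowerSeries.X j : MvPowerSeries (Fin 2) R) ψ) =
        PowerSeries.subst (MvPowerSeries.X j : MvPowerSeries (Fin 2) R) (mulSeries H p) := by
      intro j
      have := hEsubst (MvPowerSeries.X j) (hXc j)
      rw [hXP j, ← hXpow _ (hXc j), hcomp _ (hXc j)] at this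
      exact this
    fin_cases i
    · exact key 0
    · exact key 1
  rw [hL, hR]
  exact (isFGHom_mulSeries H p).2

/-- Derivative of a homomorphism: `ψ'(Y) · F₂(Y,0) = ψ'(0) · G₂(ψ Y, 0)`, so `ψ' = ψ'(0) · (unit)`
(`F₂(X,0) = ∂₂F(X,0)` has constant term `1`). -/
theorem derivative_hom_eq_unit_mul {F G : FormalGroup R} {f : PowerSeries R} (hf : IsFGHom F G f) :
    ∃ U : PowerSeries R, IsUnit U ∧
      PowerSeries.derivative R f = PowerSeries.C (PowerSeries.coeff 1 f) * U :=
  SetupAux.derivative_hom_eq_unit_mul' hf.1 hf.2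

end General

section Valued

variable {C : Type} [NontriviallyNormedField C] [IsUltrametricDist C] [CompleteSpace C] [CharP C p]

omit [IsUltrametricDist C] [CompleteSpace C] in
/-- `𝒪_C` has characteristic `p`; use with `haveI`. -/
theorem charP_OC [IsUltrametricDist C] : CharP (OC C) p :=
  (OC C).subtype.charP Subtype.val_injective p

/-- The Honda law `Γ_C` of height `n` over `𝒪_C`. -/
abbrev GamC (p n : ℕ) [Fact p.Prime] (C : Type) [NontriviallyNormedField C] [IsUltrametricDist C] :
    FormalGroup (OC C) := hzv p (eParam n)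

omit [CompleteSpace C] [CharP C p] in
/-- The ideal `{x ∈ 𝒪_C | ‖x‖ ≤ r}`, `r ≥ 0`. -/
def ballLE (C : Type) [NontriviallyNormedField C] [IsUltrametricDist C] (r : ℝ) (hr : 0 ≤ r) :
    Ideal (OC C) where
  carrier := {x | ‖(x : C)‖ ≤ r}
  add_mem' {a b} ha hb := by
    simp only [Set.mem_ofPred_eq, Subring.coe_add] at *
    exact (IsUltrametricDist.norm_add_le_max _ _).trans (max_le ha hb)
  zero_mem' := by simpa using hr
  smul_mem' c x hx := by
    simp only [Set.mem_ofPred_eq, smul_eq_mul, Subring.coe_mul, norm_mul] at *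
    calc ‖(c : C)‖ * ‖(x : C)‖ ≤ 1 * r :=
          mul_le_mul c.2 hx (norm_nonneg _) zero_le_one
      _ = r := one_mul r

/-- The ideal `𝔪_C = {x ∈ 𝒪_C | ‖x‖ < 1}`. -/
def ballLT (C : Type) [NontriviallyNormedField C] [IsUltrametricDist C] : Ideal (OC C) where
  carrier := {x | ‖(x : C)‖ < 1}
  add_mem' {a b} ha hb := by
    simp only [Set.mem_ofPred_eq, Subring.coe_add] at *
    exact (IsUltrametricDist.norm_add_le_max _ _).trans_lt (max_lt ha hb)
  zero_mem' := by simp
  smul_mem' c x hx := by
    simp only [Set.mem_ofPred_eq, smul_eq_mul, Subring.coe_mul, norm_mul] at *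
    calc ‖(c : C)‖ * ‖(x : C)‖ ≤ 1 * ‖(x : C)‖ :=
          mul_le_mul_of_nonneg_right c.2 (norm_nonneg _)
      _ < 1 := by rwa [one_mul]

/-- Coefficient closeness: if `‖τ j‖ ≤ r` then `H(τ)` and `Γ_C` have `r`-close coefficients.
(Reduce modulo the ideal `{‖x‖ ≤ r}` and use `HS_map`, `HS_zero`.) -/
theorem HS_close (hh : h ≤ n) (τ : Fin (n - h) → OC C) (r : ℝ) (hr : 0 ≤ r)
    (hτ : ∀ j, ‖((τ j : OC C) : C)‖ ≤ r) (d : Fin 2 →₀ ℕ) :
    ‖cf (HS p h n τ).toPowerSeries d - cf (GamC p n C).toPowerSeries d‖ ≤ r := by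
  classical
  let I := ballLE C r hr
  let q : OC C →+* OC C ⧸ I := Ideal.Quotient.mk I
  have hτ0 : (fun j => q (τ j)) = (0 : Fin (n - h) → OC C ⧸ I) := by
    funext j
    exact Ideal.Quotient.eq_zero_iff_mem.2 (hτ j)
  have h1 : (HS p h n τ).map q = hzv p (eParam n) := by
    rw [HS_map, hτ0, HS_zero p h n hh]
  have h2 : (GamC p n C).map q = hzv p (eParam n) := by
    show (hzv p (eParam n)).map q = _
    rw [hzv_map]
    congr 1
    funext i
    unfold eParam
    split_ifs <;> simp
  have h3 : q (MvPowerSeries.coeff d (HS p h n τ).toPowerSeries) =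
      q (MvPowerSeries.coeff d (GamC p n C).toPowerSeries) := by
    have e1 : q (MvPowerSeries.coeff d (HS p h n τ).toPowerSeries) =
        MvPowerSeries.coeff d ((HS p h n τ).map q).toPowerSeries := by
      show _ = MvPowerSeries.coeff d (MvPowerSeries.map q (HS p h n τ).toPowerSeries)
      rw [MvPowerSeries.coeff_map]
    have e2 : q (MvPowerSeries.coeff d (GamC p n C).toPowerSeries) =
        MvPowerSeries.coeff d ((GamC p n C).map q).toPowerSeries := by
      show _ = MvPowerSeries.coeff d (MvPowerSeries.map q (GamC p n C).toPowerSeries)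
      rw [MvPowerSeries.coeff_map]
    rw [e1, e2, h1, h2]
  have h4 := Ideal.Quotient.eq.1 h3
  exact h4

/-- `ψ` modulo `𝔪_C`: for small `τ`, `coeff j ψ ∈ 𝔪_C` for `j < p^m`, `coeff (p^m) ψ` is a unit. -/
theorem psiS_weierstrass (hh : 1 ≤ h) (hn : h < n) (τ : Fin (n - h) → OC C)
    (hτ : ∀ j, ‖((τ j : OC C) : C)‖ < 1) :
    (∀ j, j < p ^ (n - h) → ‖((PowerSeries.coeff j (psiS p h n τ) : OC C) : C)‖ < 1) ∧
      ‖((PowerSeries.coeff (p ^ (n - h)) (psiS p h n τ) : OC C) : C)‖ = 1 := by
  classical
  let I := ballLT C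
  let q : OC C →+* OC C ⧸ I := Ideal.Quotient.mk I
  have hτ0 : (fun j => q (τ j)) = (0 : Fin (n - h) → OC C ⧸ I) := by
    funext j
    exact Ideal.Quotient.eq_zero_iff_mem.2 (hτ j)
  have h1 : PowerSeries.map q (psiS p h n τ) = PowerSeries.X ^ (p ^ (n - h)) := by
    rw [psiS_map, hτ0, psiS_zero p h n hh hn]
  constructor
  · intro j hj
    have h2 := congrArg (PowerSeries.coeff j) h1
    rw [PowerSeries.coeff_map, PowerSeries.coeff_X_pow, if_neg (by omega)] at h2
    exact Ideal.Quotient.eq_zero_iff_mem.1 h2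
  · have h2 := congrArg (PowerSeries.coeff (p ^ (n - h))) h1
    rw [PowerSeries.coeff_map, PowerSeries.coeff_X_pow, if_pos rfl] at h2
    set c := PowerSeries.coeff (p ^ (n - h)) (psiS p h n τ) with hc
    have h3 : q c = q 1 := by rw [h2, map_one]
    have h4 : ‖((c - 1 : OC C) : C)‖ < 1 := Ideal.Quotient.eq.1 h3
    have h5 : ((c - 1 : OC C) : C) = (c : C) - 1 := by simp
    rw [h5] at h4
    have hcle : ‖(c : C)‖ ≤ 1 := c.2
    refine le_antisymm hcle ?_
    by_contra hlt
    push Not at hlt
    have h6 : (1 : C) = (c : C) + -((c : C) - 1) := by ring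
    have h7 : ‖(1 : C)‖ ≤ max ‖(c : C)‖ ‖(c : C) - 1‖ := by
      conv_lhs => rw [h6]
      have := IsUltrametricDist.norm_add_le_max (c : C) (-((c : C) - 1))
      rwa [norm_neg] at this
    rw [norm_one] at h7
    exact absurd (max_lt hlt h4) (not_lt.2 h7)

end Valued

end

end Crest.Agent.LT
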