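/-
S0351 package CHARP/PI: the map `π_H : Γ(𝔪_C) → H(𝔪_C)`, `π_H(y) = lim_N [p^N]_H (y^(1/q^N))`.
See BLUEPRINT.md §CP1.
-/
import Crest.Agent.LT.CharP.Setup

set_option autoImplicit false
set_option linter.unusedSectionVars false

open Crest.LubinTate

namespace Crest.Agent.LT

noncomputable section

variable (p : ℕ) [Fact p.Prime] (n : ℕ)
variable {C : Type} [NontriviallyNormedField C] [IsUltrametricDist C] [CompleteSpace C]
  [CharP C p] [IsAlgClosed C]

/-- `p^e`-th root in `C`. -/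
def pRoot (e : ℕ) (x : C) : C := ((frobeniusEquiv C p).symm)^[e] x

theorem pRoot_pow (e : ℕ) (x : C) : pRoot p e x ^ (p ^ e) = x := by
  induction e generalizing x with
  | zero => simp [pRoot]
  | succ e ih =>
    have h1 : pRoot p (e + 1) x = pRoot p e ((frobeniusEquiv C p).symm x) := by
      simp [pRoot, Function.iterate_succ_apply]
    rw [h1, pow_succ, pow_mul, ih]
    have := frobeniusEquiv_apply C p ((frobeniusEquiv C p).symm x)
    rw [RingEquiv.apply_symm_apply] at this
    exact this.symm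

theorem pow_pRoot (e : ℕ) (x : C) : pRoot p e (x ^ (p ^ e)) = x := by
  have hp : p ≠ 0 := (Fact.out : p.Prime).ne_zero
  have hinj : Function.Injective (fun z : C => z ^ (p ^ e)) := by
    intro a b hab
    have h : (frobenius C p)^[e] a = (frobenius C p)^[e] b := by
      simpa [iterate_frobenius] using hab
    exact (Function.Injective.iterate (frobenius_inj C p) e) h
  exact hinj (pRoot_pow p e _)

theorem norm_pRoot (e : ℕ) (x : C) : ‖pRoot p e x‖ ^ (p ^ e) = ‖x‖ := by
  rw [← norm_pow, pRoot_pow]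

theorem norm_pRoot_lt_one (e : ℕ) (x : C) (hx : ‖x‖ < 1) : ‖pRoot p e x‖ < 1 := by
  by_contra h
  push Not at h
  have h1 : 1 ≤ ‖pRoot p e x‖ ^ (p ^ e) := one_le_pow₀ h
  rw [norm_pRoot] at h1
  linarith

/-- Change of group law on points (the identity on the underlying ball). -/
def LawPt.cast {F G : FormalGroup (OC C)} (x : LawPt F) : LawPt G := x

@[simp] theorem LawPt.val_cast {F G : FormalGroup (OC C)} (x : LawPt F) :
    (LawPt.cast x : LawPt G).val = x.val := rfl

/-- `p^e`-th root on points. -/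
def LawPt.root {F : FormalGroup (OC C)} (e : ℕ) (x : LawPt F) : LawPt F :=
  LawPt.mk (pRoot p e x.val) (norm_pRoot_lt_one p e _ x.norm_lt)

@[simp] theorem LawPt.val_root {F : FormalGroup (OC C)} (e : ℕ) (x : LawPt F) :
    (LawPt.root p e x).val = pRoot p e x.val := rfl

/-- The data needed for `π`: `G` has `[p]_G = X^q`, `q`-fixed coefficients, `H` has `r`-close
coefficients, `r < 1`. -/
structure PiSetup (G H : FormalGroup (OC C)) (r : ℝ) : Prop where
  hG : mulSeries G p = PowerSeries.X ^ (p ^ n)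
  hq : ∀ d, cf G.toPowerSeries d ^ (p ^ n) = cf G.toPowerSeries d
  close : ∀ d, ‖cf H.toPowerSeries d - cf G.toPowerSeries d‖ ≤ r
  r0 : 0 ≤ r
  r1 : r < 1

variable {p n}

/-! ### Auxiliary ultrametric facts -/

section Aux

omit [IsAlgClosed C] [CompleteSpace C] [CharP C p] in
/-- The ideal `{x ∈ 𝒪_C : ‖x‖ ≤ r}`. -/
def ballIdeal (C : Type) [NontriviallyNormedField C] [IsUltrametricDist C] (r : ℝ) (hr : 0 ≤ r) :
    Ideal (OC C) where
  carrier := {x | ‖(x : C)‖ ≤ r}
  add_mem' {a b} ha hb := by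
    simp only [Set.mem_setOf_eq] at *
    push_cast
    exact (IsUltrametricDist.norm_add_le_max _ _).trans (max_le ha hb)
  zero_mem' := by simpa using hr
  smul_mem' c x hx := by
    simp only [Set.mem_setOf_eq, smul_eq_mul] at *
    push_cast
    rw [norm_mul]
    exact (mul_le_of_le_one_left (norm_nonneg _) c.2).trans hx

omit [CompleteSpace C] in
theorem ev1_term_norm_le (f : PowerSeries (OC C)) (x : C) (hx : ‖x‖ < 1) (k : ℕ) :
    ‖((PowerSeries.coeff k f : OC C) : C) * x ^ k‖ ≤ ‖x‖ ^ k := by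
  rw [norm_mul, norm_pow]
  exact mul_le_of_le_one_left (by positivity) (PowerSeries.coeff k f).2

theorem summable_ev1 (f : PowerSeries (OC C)) (x : C) (hx : ‖x‖ < 1) :
    Summable (fun k : ℕ => ((PowerSeries.coeff k f : OC C) : C) * x ^ k) :=
  Summable.of_norm_bounded (summable_geometric_of_lt_one (norm_nonneg _) hx)
    (fun k => ev1_term_norm_le f x hx k)

/-- Coefficientwise `r`-close series have `r`-close values. -/
theorem norm_ev1_sub_of_coeff (f g : PowerSeries (OC C)) (x : C) (hx : ‖x‖ < 1) (r : ℝ)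
    (hr0 : 0 ≤ r)
    (hr : ∀ j, ‖((PowerSeries.coeff j f : OC C) : C) - ((PowerSeries.coeff j g : OC C) : C)‖ ≤ r) :
    ‖ev1 f x - ev1 g x‖ ≤ r := by
  unfold ev1
  rw [← (summable_ev1 f x hx).tsum_sub (summable_ev1 g x hx)]
  refine IsUltrametricDist.norm_tsum_le_of_forall_le_of_nonneg hr0 (fun k => ?_)
  rw [← sub_mul, norm_mul, norm_pow]
  calc _ ≤ r * 1 := by
        gcongr
        · exact hr k
        · exact pow_le_one₀ (norm_nonneg _) hx.le
    _ = r := mul_one r

/-- Zero constant term version with a factor `‖x‖`. -/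
theorem norm_ev1_sub_of_coeff' (f g : PowerSeries (OC C)) (x : C) (hx : ‖x‖ < 1) (r : ℝ)
    (hr0 : 0 ≤ r)
    (hf : PowerSeries.constantCoeff f = 0) (hg : PowerSeries.constantCoeff g = 0)
    (hr : ∀ j, ‖((PowerSeries.coeff j f : OC C) : C) - ((PowerSeries.coeff j g : OC C) : C)‖ ≤ r) :
    ‖ev1 f x - ev1 g x‖ ≤ r * ‖x‖ := by
  unfold ev1
  rw [← (summable_ev1 f x hx).tsum_sub (summable_ev1 g x hx)]
  refine IsUltrametricDist.norm_tsum_le_of_forall_le_of_nonneg (by positivity) (fun k => ?_)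
  rw [← sub_mul, norm_mul, norm_pow]
  rcases Nat.eq_zero_or_pos k with rfl | hk
  · have h1 : PowerSeries.coeff 0 f = 0 := by simpa using hf
    have h2 : PowerSeries.coeff 0 g = 0 := by simpa using hg
    rw [h1, h2]
    simp only [ZeroMemClass.coe_zero, sub_self, norm_zero, zero_mul]
    positivity
  · calc _ ≤ r * ‖x‖ ^ k := by
          gcongr
          exact hr k
      _ ≤ r * ‖x‖ := by
          gcongr
          exact pow_le_of_le_one (norm_nonneg _) hx.le (by omega)

theorem ev1_X_pow (k : ℕ) (x : C) (hx : ‖x‖ < 1) : ev1 ((PowerSeries.X : PowerSeries (OC C)) ^ k) x = x ^ k := by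
  unfold ev1
  rw [tsum_eq_single k]
  · simp [PowerSeries.coeff_X_pow]
  · intro j hj
    simp [PowerSeries.coeff_X_pow, hj]

/-- Limits from small differences in a complete ultrametric field. -/
theorem exists_lim_of_diff (s : ℕ → C) (t : ℕ → ℝ) (ht : Filter.Tendsto t Filter.atTop (nhds 0))
    (h : ∀ N, ‖s (N + 1) - s N‖ ≤ t N) : ∃ l, Filter.Tendsto s Filter.atTop (nhds l) := by
  have h0 : Filter.Tendsto (fun N => s (N + 1) - s N) Filter.cofinite (nhds 0) := by
    rw [Nat.cofinite_eq_atTop]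
    exact squeeze_zero_norm h ht
  have hsum : Summable (fun N => s (N + 1) - s N) :=
    NonarchimedeanAddGroup.summable_of_tendsto_cofinite_zero h0
  refine ⟨s 0 + ∑' N, (s (N + 1) - s N), ?_⟩
  have h1 := hsum.hasSum.tendsto_sum_nat
  refine (h1.const_add (s 0)).congr (fun N => ?_)
  rw [Finset.sum_range_sub]
  ring

omit [CompleteSpace C] in
/-- Ultrametric equality from a small perturbation. -/
theorem norm_eq_of_norm_sub_lt (a b : C) (h : ‖a - b‖ < ‖b‖) : ‖a‖ = ‖b‖ := by
  have h1 : ‖a‖ ≤ ‖b‖ := by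
    have := IsUltrametricDist.norm_add_le_max (a - b) b
    rw [sub_add_cancel] at this
    exact this.trans (max_le h.le le_rfl)
  have h2 : ‖b‖ ≤ ‖a‖ := by
    have := IsUltrametricDist.norm_add_le_max a (b - a)
    rw [add_sub_cancel] at this
    rcases le_max_iff.mp this with h3 | h3
    · exact h3
    · rw [norm_sub_rev] at h3
      linarith
  exact le_antisymm h1 h2

/-- `P`-fixed coefficients are `P^N`-fixed. -/
theorem pow_pow_fixed (a : C) (q : ℕ) (h : a ^ q = a) (N : ℕ) : a ^ (q ^ N) = a := by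
  induction N with
  | zero => simp
  | succ N ih => rw [pow_succ, pow_mul, ih, h]

theorem law_eq_of_toPowerSeries {R : Type*} [CommRing R] {F G : FormalGroup R}
    (h : F.toPowerSeries = G.toPowerSeries) : F = G := by
  cases F; cases G; simp_all

end Aux

/-- Frobenius compatibility of a law with `q`-fixed coefficients. -/
theorem lawAdd_pow_of_fixed (F : FormalGroup (OC C)) (P : ℕ) (hP : ∃ e, P = p ^ e)
    (hf : ∀ d, cf F.toPowerSeries d ^ P = cf F.toPowerSeries d) (a b : C) (ha : ‖a‖ < 1)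
    (hb : ‖b‖ < 1) : lawAdd F (a ^ P) (b ^ P) = lawAdd F a b ^ P := by
  unfold lawAdd
  have h := evMv_frob_of_rational (σ := Fin 2) p P hP F.toPowerSeries hf ![a, b]
    (by intro i; fin_cases i <;> simpa)
  rw [← h]
  congr 1
  funext i
  fin_cases i <;> rfl

/-- Frobenius compatibility of a series with `q`-fixed coefficients. -/
theorem ev1_pow_of_fixed (f : PowerSeries (OC C)) (P : ℕ) (hP : ∃ e, P = p ^ e)
    (hf : ∀ j, ((PowerSeries.coeff j f : OC C) : C) ^ P = ((PowerSeries.coeff j f : OC C) : C))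
    (x : C) (hx : ‖x‖ < 1) : ev1 f (x ^ P) = ev1 f x ^ P := by
  have hx' : ‖x ^ P‖ < 1 := by
    obtain ⟨e, rfl⟩ := hP
    rw [norm_pow]
    exact pow_lt_one₀ (norm_nonneg _) hx (pow_ne_zero _ (Fact.out : p.Prime).ne_zero)
  rw [ev1_eq_evMv, ev1_eq_evMv]
  have h := evMv_frob_of_rational (σ := Unit) p P hP f (by
    intro d
    have h1 : cf (σ := Unit) f d = ((PowerSeries.coeff (d ()) f : OC C) : C) := by
      have hd : d = Finsupp.single () (d ()) := by
        ext i
        simp
      conv_lhs => rw [hd]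
      rfl
    rw [h1]
    exact hf _) (fun _ => x) (fun _ => hx)
  exact h

variable {G H H' : FormalGroup (OC C)} [G.IsComm] [H.IsComm] [H'.IsComm] {r : ℝ}

/-! ### Contraction -/

omit [IsAlgClosed C] in
/-- The `m`-series of `r`-close laws are `r`-close. -/
theorem PiSetup.mulSeries_close (S : PiSetup p n G H r) (m j : ℕ) :
    ‖((PowerSeries.coeff j (mulSeries H m) : OC C) : C) -
      ((PowerSeries.coeff j (mulSeries G m) : OC C) : C)‖ ≤ r := by
  classical
  let I : Ideal (OC C) := ballIdeal C r S.r0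
  have hEq : H.map (Ideal.Quotient.mk I) = G.map (Ideal.Quotient.mk I) := by
    apply law_eq_of_toPowerSeries
    show MvPowerSeries.map (Ideal.Quotient.mk I) H.toPowerSeries =
      MvPowerSeries.map (Ideal.Quotient.mk I) G.toPowerSeries
    ext d
    simp only [MvPowerSeries.coeff_map]
    rw [Ideal.Quotient.eq]
    show ‖(((MvPowerSeries.coeff d H.toPowerSeries - MvPowerSeries.coeff d G.toPowerSeries : OC C)) : C)‖ ≤ r
    push_cast
    exact S.close d
  have h1 := mulSeries_map H (Ideal.Quotient.mk I) m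
  have h2 := mulSeries_map G (Ideal.Quotient.mk I) m
  rw [hEq, h2] at h1
  have h3 : PowerSeries.coeff j (PowerSeries.map (Ideal.Quotient.mk I) (mulSeries G m)) =
      PowerSeries.coeff j (PowerSeries.map (Ideal.Quotient.mk I) (mulSeries H m)) := by rw [h1]
  simp only [PowerSeries.coeff_map] at h3
  have h4 := (Ideal.Quotient.eq.mp h3.symm)
  have h5 : ‖(((PowerSeries.coeff j (mulSeries H m) - PowerSeries.coeff j (mulSeries G m) : OC C)) : C)‖ ≤ r := h4
  simpa using h5

omit [IsAlgClosed C] [CompleteSpace C] in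
/-- `q = p^n ≥ 2`. -/
theorem PiSetup.two_le_q (S : PiSetup p n G H r) : 2 ≤ p ^ n := by
  have hp := (Fact.out : p.Prime)
  have hpos : 0 < p ^ n := pow_pos hp.pos _
  by_contra hlt
  have h1 : p ^ n = 1 := by omega
  have h2 := coeff_one_mulSeries G p
  rw [S.hG, h1, pow_one, PowerSeries.coeff_one_X] at h2
  have h3 : ((p : OC C) : C) = (p : C) := by push_cast; rfl
  have h4 : (p : C) = 0 := CharP.cast_eq_zero C p
  have h5 : ((1 : OC C) : C) = ((p : OC C) : C) := by rw [h2]
  rw [h3, h4] at h5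
  simp at h5

/-- In a `PiSetup`: `‖[p]_H(w) - w^q‖ ≤ r ‖w‖`. -/
theorem PiSetup.norm_pSmul_sub (S : PiSetup p n G H r) (w : LawPt H) :
    ‖(p • w).val - w.val ^ (p ^ n)‖ ≤ r * ‖w.val‖ := by
  rw [LawPt.val_nsmul, ← ev1_X_pow (p ^ n) w.val w.norm_lt, ← S.hG]
  exact norm_ev1_sub_of_coeff' _ _ _ w.norm_lt r S.r0 (constantCoeff_mulSeries _ _)
    (constantCoeff_mulSeries _ _) (fun j => S.mulSeries_close p j)

/-- `‖[p]_H(w)‖ ≤ max (r ‖w‖) (‖w‖^q)`. -/
theorem PiSetup.norm_pSmul_le (S : PiSetup p n G H r) (w : LawPt H) :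
    ‖(p • w).val‖ ≤ max (r * ‖w.val‖) (‖w.val‖ ^ (p ^ n)) := by
  have h := IsUltrametricDist.norm_add_le_max ((p • w).val - w.val ^ (p ^ n)) (w.val ^ (p ^ n))
  rw [sub_add_cancel, norm_pow] at h
  exact h.trans (max_le_max (S.norm_pSmul_sub w) le_rfl)

/-- `[p]_H` does not increase the norm. -/
theorem PiSetup.norm_pSmul_le_self (S : PiSetup p n G H r) (w : LawPt H) :
    ‖(p • w).val‖ ≤ ‖w.val‖ := by
  refine (S.norm_pSmul_le w).trans (max_le ?_ ?_)
  · exact mul_le_of_le_one_left (norm_nonneg _) S.r1.le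
  · exact pow_le_of_le_one (norm_nonneg _) w.norm_lt.le
      (pow_ne_zero _ (Fact.out : p.Prime).ne_zero)

/-- Iterated contraction: if `‖u‖ ≤ s < 1`, `‖[p^N]_H u‖ → 0` uniformly in `u`, `‖u‖ ≤ s`. -/
theorem PiSetup.tendsto_pSmul_zero (S : PiSetup p n G H r) (s : ℝ) (hs : s < 1) :
    ∃ t : ℕ → ℝ, Filter.Tendsto t Filter.atTop (nhds 0) ∧
      ∀ (N : ℕ) (u : LawPt H), ‖u.val‖ ≤ s → ‖((p ^ N) • u).val‖ ≤ t N := by
  set κ : ℝ := max r s with hκ
  have hκ0 : 0 ≤ κ := le_max_of_le_left S.r0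
  have hκ1 : κ < 1 := max_lt S.r1 hs
  refine ⟨fun N => κ ^ (N + 1), ?_, ?_⟩
  · have := (tendsto_pow_atTop_nhds_zero_of_lt_one hκ0 hκ1).comp (Filter.tendsto_add_atTop_nat 1)
    exact this
  · intro N u hu
    induction N with
    | zero =>
      simp only [pow_zero, one_smul, zero_add, pow_one]
      exact hu.trans (le_max_right _ _)
    | succ N ih =>
      have h1 : (p ^ (N + 1)) • u = p • ((p ^ N) • u) := by
        rw [pow_succ', mul_nsmul']
      rw [h1]
      set a := ((p ^ N) • u : LawPt H) with ha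
      have ha0 : 0 ≤ ‖a.val‖ := norm_nonneg _
      have ha1 : ‖a.val‖ ≤ κ := ih.trans (by
        calc κ ^ (N + 1) ≤ κ ^ 1 := pow_le_pow_of_le_one hκ0 hκ1.le (by omega)
          _ = κ := pow_one κ)
      refine (S.norm_pSmul_le a).trans (max_le ?_ ?_)
      · calc r * ‖a.val‖ ≤ κ * κ ^ (N + 1) := by
              gcongr
              exact le_max_left _ _
          _ = κ ^ (N + 1 + 1) := by ring
      · have h2 : ‖a.val‖ ^ (p ^ n) ≤ ‖a.val‖ ^ 2 :=
          pow_le_pow_of_le_one ha0 a.norm_lt.le S.two_le_q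
        refine h2.trans ?_
        calc ‖a.val‖ ^ 2 = ‖a.val‖ * ‖a.val‖ := sq _
          _ ≤ κ * κ ^ (N + 1) := by gcongr
          _ = κ ^ (N + 1 + 1) := by ring

/-- The contraction sequence used everywhere, for inputs of size `≤ r`. -/
theorem PiSetup.exists_contr (S : PiSetup p n G H r) :
    ∃ t : ℕ → ℝ, Filter.Tendsto t Filter.atTop (nhds 0) ∧
      ∀ (N : ℕ) (u : LawPt H), ‖u.val‖ ≤ r → ‖((p ^ N) • u).val‖ ≤ t N :=
  S.tendsto_pSmul_zero r S.r1

/-- `p^N •` does not increase the norm. -/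
theorem PiSetup.norm_pow_smul_le_self (S : PiSetup p n G H r) (N : ℕ) (w : LawPt H) :
    ‖((p ^ N) • w).val‖ ≤ ‖w.val‖ := by
  induction N with
  | zero => simp
  | succ N ih =>
    have h1 : (p ^ (N + 1)) • w = p • ((p ^ N) • w) := by
      rw [pow_succ', mul_nsmul']
    rw [h1]
    exact (S.norm_pSmul_le_self _).trans ih

/-! ### The map `π` -/

/-- The approximants of `π`. -/
def PiSetup.approx (_S : PiSetup p n G H r) (y : LawPt G) (N : ℕ) : LawPt H :=
  (p ^ N) • (LawPt.cast (LawPt.root p (n * N) y) : LawPt H)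

theorem pRoot_succ_pow (y : C) (N : ℕ) :
    pRoot p (n * (N + 1)) y ^ (p ^ n) = pRoot p (n * N) y := by
  have h : pRoot p (n * (N + 1)) y = pRoot p (n * (N + 1)) y := rfl
  apply (?_ : Function.Injective (fun z : C => z ^ (p ^ (n * N))))
  · show (pRoot p (n * (N + 1)) y ^ (p ^ n)) ^ (p ^ (n * N)) = pRoot p (n * N) y ^ (p ^ (n * N))
    rw [pRoot_pow, ← pow_mul, ← pow_add]
    have : n + n * N = n * (N + 1) := by ring
    rw [this, pRoot_pow]
  · intro a b hab
    have h1 := pow_pRoot p (n * N) a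
    have h2 := pow_pRoot p (n * N) b
    simp only at hab
    rw [← h1, ← h2, hab]

/-- One step of the approximation. -/
theorem PiSetup.norm_approx_step (S : PiSetup p n G H r) (y : LawPt G) (N : ℕ) (u : LawPt H)
    (hu : u = p • (LawPt.cast (LawPt.root p (n * (N + 1)) y) : LawPt H) -
      (LawPt.cast (LawPt.root p (n * N) y) : LawPt H)) :
    S.approx y (N + 1) - S.approx y N = (p ^ N) • u ∧ ‖u.val‖ ≤ r := by
  constructor
  · unfold PiSetup.approx
    rw [hu, smul_sub, pow_succ, mul_nsmul']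
  · rw [hu, LawPt.norm_sub_eq]
    have h1 := S.norm_pSmul_sub (LawPt.cast (LawPt.root p (n * (N + 1)) y) : LawPt H)
    simp only [LawPt.val_cast, LawPt.val_root] at h1 ⊢
    rw [pRoot_succ_pow] at h1
    refine h1.trans (mul_le_of_le_one_right S.r0 ?_)
    exact (norm_pRoot_lt_one p _ _ y.norm_lt).le

theorem PiSetup.exists_lim (S : PiSetup p n G H r) (y : LawPt G) :
    ∃ l : LawPt H, Filter.Tendsto (fun N => (S.approx y N).val) Filter.atTop (nhds l.val) ∧
      ‖l.val - y.val‖ ≤ r := by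
  obtain ⟨t, ht, hb⟩ := S.exists_contr
  have hdiff : ∀ N, ‖(S.approx y (N + 1)).val - (S.approx y N).val‖ ≤ t N := by
    intro N
    obtain ⟨h1, h2⟩ := S.norm_approx_step y N _ rfl
    rw [← LawPt.norm_sub_eq, h1]
    exact hb N _ h2
  have hdiff' : ∀ N, ‖(S.approx y (N + 1)).val - (S.approx y N).val‖ ≤ r := by
    intro N
    obtain ⟨h1, h2⟩ := S.norm_approx_step y N _ rfl
    rw [← LawPt.norm_sub_eq, h1]
    exact (S.norm_pow_smul_le_self N _).trans h2
  obtain ⟨l, hl⟩ := exists_lim_of_diff (fun N => (S.approx y N).val) t ht hdiff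
  have hclose : ∀ N, ‖(S.approx y N).val - y.val‖ ≤ r := by
    intro N
    induction N with
    | zero =>
      have : (S.approx y 0).val = y.val := by
        simp [PiSetup.approx, pRoot]
      rw [this, sub_self, norm_zero]
      exact S.r0
    | succ N ih =>
      have h := IsUltrametricDist.norm_add_le_max
        ((S.approx y (N + 1)).val - (S.approx y N).val) ((S.approx y N).val - y.val)
      rw [sub_add_sub_cancel] at h
      exact h.trans (max_le (hdiff' N) ih)
  have hl2 : ‖l - y.val‖ ≤ r :=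
    le_of_tendsto ((hl.sub_const y.val).norm) (Filter.Eventually.of_forall hclose)
  have hl3 : ‖l‖ < 1 := by
    have h := IsUltrametricDist.norm_add_le_max (l - y.val) y.val
    rw [sub_add_cancel] at h
    exact h.trans_lt (max_lt (hl2.trans_lt S.r1) y.norm_lt)
  exact ⟨LawPt.mk l hl3, hl, hl2⟩

/-- The function underlying `π`. -/
def PiSetup.piFun (S : PiSetup p n G H r) (y : LawPt G) : LawPt H :=
  Classical.choose (S.exists_lim y)

theorem PiSetup.tendsto_piFun (S : PiSetup p n G H r) (y : LawPt G) :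
    Filter.Tendsto (fun N => (S.approx y N).val) Filter.atTop (nhds (S.piFun y).val) :=
  (Classical.choose_spec (S.exists_lim y)).1

theorem PiSetup.norm_piFun_sub (S : PiSetup p n G H r) (y : LawPt G) :
    ‖(S.piFun y).val - y.val‖ ≤ r :=
  (Classical.choose_spec (S.exists_lim y)).2

/-- Uniqueness of limits: a sequence `p^N • w_N` with `w_N` `r`-close to `y^(1/q^N)` has limit `π y`. -/
theorem PiSetup.tendsto_of_close (S : PiSetup p n G H r) (y : LawPt G) (w : ℕ → LawPt H)
    (hw : ∀ N, ‖(w N).val - pRoot p (n * N) y.val‖ ≤ r) :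
    Filter.Tendsto (fun N => ((p ^ N) • w N).val) Filter.atTop (nhds (S.piFun y).val) := by
  obtain ⟨t, ht, hb⟩ := S.exists_contr
  have h1 : ∀ N, ‖((p ^ N) • w N).val - (S.approx y N).val‖ ≤ t N := by
    intro N
    rw [← LawPt.norm_sub_eq]
    unfold PiSetup.approx
    rw [← smul_sub]
    apply hb
    rw [LawPt.norm_sub_eq]
    simpa using hw N
  have h2 : Filter.Tendsto (fun N => ((p ^ N) • w N).val - (S.approx y N).val)
      Filter.atTop (nhds 0) := squeeze_zero_norm h1 ht
  have h3 := h2.add (S.tendsto_piFun y)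
  simpa using h3

/-- Continuity of the law. -/
theorem norm_lawAdd_sub_lawAdd_le (F : FormalGroup (OC C)) (a b a' b' : C) (ha : ‖a‖ < 1)
    (hb : ‖b‖ < 1) (ha' : ‖a'‖ < 1) (hb' : ‖b'‖ < 1) :
    ‖lawAdd F a b - lawAdd F a' b'‖ ≤ max ‖a - a'‖ ‖b - b'‖ := by
  unfold lawAdd
  refine norm_evMv_sub_le F.toPowerSeries ![a, b] ![a', b'] ?_ ?_ _ ?_ (by positivity)
  · intro i; fin_cases i <;> simpa
  · intro i; fin_cases i <;> simpa
  · intro i
    fin_cases i
    · exact le_max_left _ _
    · exact le_max_right _ _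

theorem tendsto_lawAdd (F : FormalGroup (OC C)) [F.IsComm] (u v : ℕ → LawPt F) (a b : LawPt F)
    (hu : Filter.Tendsto (fun N => (u N).val) Filter.atTop (nhds a.val))
    (hv : Filter.Tendsto (fun N => (v N).val) Filter.atTop (nhds b.val)) :
    Filter.Tendsto (fun N => (u N + v N).val) Filter.atTop (nhds (a + b).val) := by
  have h1 : Filter.Tendsto (fun N => ‖(u N).val - a.val‖) Filter.atTop (nhds 0) := by
    simpa using (hu.sub_const a.val).norm
  have h2 : Filter.Tendsto (fun N => ‖(v N).val - b.val‖) Filter.atTop (nhds 0) := by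
    simpa using (hv.sub_const b.val).norm
  have h3 := h1.max h2
  rw [max_self] at h3
  have h4 : Filter.Tendsto (fun N => (u N + v N).val - (a + b).val) Filter.atTop (nhds 0) := by
    refine squeeze_zero_norm (fun N => ?_) h3
    rw [LawPt.val_add, LawPt.val_add]
    exact norm_lawAdd_sub_lawAdd_le F _ _ _ _ (u N).norm_lt (v N).norm_lt a.norm_lt b.norm_lt
  simpa using h4.add_const (a + b).val

theorem PiSetup.piFun_add (S : PiSetup p n G H r) (x y : LawPt G) :
    S.piFun (x + y) = S.piFun x + S.piFun y := by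
  apply LawPt.ext'
  have hq' : ∀ N d, cf G.toPowerSeries d ^ (p ^ (n * N)) = cf G.toPowerSeries d := by
    intro N d
    rw [pow_mul]
    exact pow_pow_fixed _ _ (S.hq d) N
  have hroot : ∀ N, pRoot p (n * N) (x + y).val =
      lawAdd G (pRoot p (n * N) x.val) (pRoot p (n * N) y.val) := by
    intro N
    have h1 := lawAdd_pow_of_fixed (p := p) G (p ^ (n * N)) ⟨_, rfl⟩ (hq' N)
      (pRoot p (n * N) x.val) (pRoot p (n * N) y.val) (norm_pRoot_lt_one p _ _ x.norm_lt)
      (norm_pRoot_lt_one p _ _ y.norm_lt)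
    rw [pRoot_pow, pRoot_pow, ← LawPt.val_add] at h1
    rw [h1, pow_pRoot]
  -- close approximants
  have hclose : ∀ N, ‖((LawPt.cast (LawPt.root p (n * N) x) : LawPt H) +
      (LawPt.cast (LawPt.root p (n * N) y) : LawPt H)).val - pRoot p (n * N) (x + y).val‖ ≤ r := by
    intro N
    rw [LawPt.val_add, hroot N]
    simp only [LawPt.val_cast, LawPt.val_root]
    exact norm_evMv_sub_of_coeff _ _ _ (by
      intro i
      fin_cases i
      · simpa using norm_pRoot_lt_one p _ _ x.norm_lt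
      · simpa using norm_pRoot_lt_one p _ _ y.norm_lt) r S.r0 (fun d => S.close d)
  have h1 := S.tendsto_of_close (x + y) _ hclose
  have h2 := tendsto_lawAdd H _ _ _ _ (S.tendsto_piFun x) (S.tendsto_piFun y)
  refine tendsto_nhds_unique h1 ?_
  convert h2 using 2 with N
  unfold PiSetup.approx
  rw [smul_add]

/-- `π_H`. The limit exists since
`[p^(N+1)]_H(y^(1/q^(N+1))) -_H [p^N]_H(y^(1/q^N)) = [p^N]_H([p]_H w -_H w^q)`, `w = y^(1/q^(N+1))`,
and `‖[p]_H w -_H w^q‖ ≤ r`. Additive since `(x +_G y)^(1/q) = x^(1/q) +_G y^(1/q)` and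
`‖G(a,b) - H(a,b)‖ ≤ r`. -/
def PiSetup.pi (S : PiSetup p n G H r) : LawPt G →+ LawPt H :=
  AddMonoidHom.mk' S.piFun S.piFun_add

theorem PiSetup.tendsto_pi (S : PiSetup p n G H r) (y : LawPt G) :
    Filter.Tendsto (fun N : ℕ => (((p ^ N) • (LawPt.cast (LawPt.root p (n * N) y) : LawPt H))).val)
      Filter.atTop (nhds (S.pi y).val) :=
  S.tendsto_piFun y

theorem PiSetup.norm_pi_sub_le (S : PiSetup p n G H r) (y : LawPt G) :
    ‖(S.pi y).val - y.val‖ ≤ r :=
  S.norm_piFun_sub y

theorem PiSetup.norm_pi_eq (S : PiSetup p n G H r) (y : LawPt G) (hy : r < ‖y.val‖) :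
    ‖(S.pi y).val‖ = ‖y.val‖ :=
  norm_eq_of_norm_sub_lt _ _ ((S.norm_pi_sub_le y).trans_lt hy)

/-- Kernel elements are small. -/
theorem PiSetup.norm_le_of_pi_eq_zero (S : PiSetup p n G H r) (y : LawPt G) (hy : S.pi y = 0) :
    ‖y.val‖ ≤ r := by
  have h := S.norm_pi_sub_le y
  rw [hy, LawPt.val_zero, zero_sub, norm_neg] at h
  exact h

/-- `p •_G y = y^q`. -/
theorem PiSetup.val_nsmul_G (S : PiSetup p n G H r) (y : LawPt G) :
    (p • y).val = y.val ^ (p ^ n) := by
  rw [LawPt.val_nsmul, S.hG, ev1_X_pow _ _ y.norm_lt]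

/-- `[p^N]_G y = y^(q^N)`. -/
theorem PiSetup.val_pow_nsmul_G (S : PiSetup p n G H r) (N : ℕ) (y : LawPt G) :
    ((p ^ N) • y).val = y.val ^ (p ^ (n * N)) := by
  induction N with
  | zero => simp
  | succ N ih =>
    have h1 : (p ^ (N + 1)) • y = p • ((p ^ N) • y) := by
      rw [pow_succ', mul_nsmul']
    rw [h1, S.val_nsmul_G, ih, ← pow_mul, ← pow_add, mul_add, mul_one]

/-- Small inputs have small outputs: `‖y‖ ≤ r^(q^N) → ‖π y‖ ≤ r^(N+1)`. -/
theorem PiSetup.norm_pi_le_of_small (S : PiSetup p n G H r) (N : ℕ) (y : LawPt G)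
    (hy : ‖y.val‖ ≤ r ^ ((p ^ n) ^ N)) : ‖(S.pi y).val‖ ≤ r ^ (N + 1) := by
  have hr1 := S.r1.le
  have hr0 := S.r0
  have hq := S.two_le_q
  set y' : LawPt G := LawPt.root p (n * N) y with hy'
  have hy'2 : (p ^ N) • y' = y := by
    apply LawPt.ext'
    rw [S.val_pow_nsmul_G, hy', LawPt.val_root, pRoot_pow]
  have hy'r : ‖y'.val‖ ≤ r := by
    by_contra hlt
    push Not at hlt
    have h1 : r ^ ((p ^ n) ^ N) < ‖y'.val‖ ^ ((p ^ n) ^ N) :=
      pow_lt_pow_left₀ hlt S.r0 (pow_ne_zero _ (by omega))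
    have h2 : ‖y'.val‖ ^ ((p ^ n) ^ N) = ‖y.val‖ := by
      rw [hy', LawPt.val_root, ← pow_mul, norm_pRoot]
    rw [h2] at h1
    linarith
  have h1 : S.pi y = (p ^ N) • S.pi y' := by
    rw [← map_nsmul, hy'2]
  have hbase : ‖(S.pi y').val‖ ≤ r := by
    have h := IsUltrametricDist.norm_add_le_max ((S.pi y').val - y'.val) y'.val
    rw [sub_add_cancel] at h
    exact h.trans (max_le (S.norm_pi_sub_le y') hy'r)
  rw [h1]
  -- contraction on the ball of radius `r`
  have key : ∀ (M : ℕ) (w : LawPt H), ‖w.val‖ ≤ r → ‖((p ^ M) • w).val‖ ≤ r ^ (M + 1) := by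
    intro M w hw
    induction M with
    | zero => simpa using hw
    | succ M ih =>
      have h2 : (p ^ (M + 1)) • w = p • ((p ^ M) • w) := by
        rw [pow_succ', mul_nsmul']
      rw [h2]
      set a := ((p ^ M) • w : LawPt H) with ha
      have ha1 : ‖a.val‖ ≤ r := ih.trans (by
        calc r ^ (M + 1) ≤ r ^ 1 := pow_le_pow_of_le_one S.r0 hr1 (by omega)
          _ = r := pow_one r)
      refine (S.norm_pSmul_le a).trans (max_le ?_ ?_)
      · calc r * ‖a.val‖ ≤ r * r ^ (M + 1) := by gcongr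
          _ = r ^ (M + 1 + 1) := by ring
      · have h3 : ‖a.val‖ ^ (p ^ n) ≤ ‖a.val‖ ^ 2 :=
          pow_le_pow_of_le_one (norm_nonneg _) a.norm_lt.le hq
        refine h3.trans ?_
        calc ‖a.val‖ ^ 2 = ‖a.val‖ * ‖a.val‖ := sq _
          _ ≤ r * r ^ (M + 1) := by gcongr
          _ = r ^ (M + 1 + 1) := by ring
  exact key N _ hbase

/-- **Surjectivity** given surjectivity of `p •` on `H(𝔪_C)`: for `u` take a compatible system
`[p]_H c^(j+1) = c^(j)`, `c^(0) = u`, and `y = lim (c^(j))^(q^j)`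
(`‖(c^(j+1))^q - c^(j)‖ ≤ r`), with `π(y^(1/q^s)) = c^(s)`. -/
theorem PiSetup.pi_surjective (S : PiSetup p n G H r)
    (hsurj : ∀ u : LawPt H, ∃ w : LawPt H, p • w = u) : Function.Surjective S.pi := by
  intro u
  choose f hf using hsurj
  let c : ℕ → LawPt H := fun j => f^[j] u
  have hc : ∀ j, p • c (j + 1) = c j := by
    intro j
    show p • f^[j + 1] u = f^[j] u
    rw [Function.iterate_succ_apply', hf]
  have hstep : ∀ j, ‖(c (j + 1)).val ^ (p ^ n) - (c j).val‖ ≤ r := by
    intro j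
    have h1 := S.norm_pSmul_sub (c (j + 1))
    rw [hc j, norm_sub_rev] at h1
    exact h1.trans (mul_le_of_le_one_right S.r0 (c (j + 1)).norm_lt.le)
  let s : ℕ → C := fun j => (c j).val ^ (p ^ (n * j))
  have hsdiff : ∀ j, ‖s (j + 1) - s j‖ ≤ r ^ (p ^ (n * j)) := by
    intro j
    show ‖(c (j + 1)).val ^ (p ^ (n * (j + 1))) - (c j).val ^ (p ^ (n * j))‖ ≤ _
    have h1 : (c (j + 1)).val ^ (p ^ (n * (j + 1))) =
        ((c (j + 1)).val ^ (p ^ n)) ^ (p ^ (n * j)) := by
      rw [← pow_mul, ← pow_add]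
      congr 2
      ring
    rw [h1, ← sub_pow_char_pow, norm_pow]
    exact pow_le_pow_left₀ (norm_nonneg _) (hstep j) _
  have hp2 : 2 ≤ p ^ n := S.two_le_q
  -- exponents grow at least linearly
  have hgrow : ∀ j, j + 1 ≤ p ^ (n * j) := by
    intro j
    rw [pow_mul]
    induction j with
    | zero => simp
    | succ j ih =>
      rw [pow_succ]
      nlinarith [pow_pos (show 0 < p ^ n by omega) j]
  have hbound : ∀ j, ‖s (j + 1) - s j‖ ≤ r ^ (j + 1) := fun j =>
    (hsdiff j).trans (pow_le_pow_of_le_one S.r0 S.r1.le (hgrow j))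
  have ht : Filter.Tendsto (fun j : ℕ => r ^ (j + 1)) Filter.atTop (nhds 0) :=
    (tendsto_pow_atTop_nhds_zero_of_lt_one S.r0 S.r1).comp (Filter.tendsto_add_atTop_nat 1)
  obtain ⟨l, hl⟩ := exists_lim_of_diff s _ ht hbound
  -- the distance from `s N` to the limit
  have hdist : ∀ N j, N ≤ j → ‖s j - s N‖ ≤ r ^ (p ^ (n * N)) := by
    intro N j hj
    induction j, hj using Nat.le_induction with
    | base => simpa using pow_nonneg S.r0 _
    | succ j hj ih =>
      have h := IsUltrametricDist.norm_add_le_max (s (j + 1) - s j) (s j - s N)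
      rw [sub_add_sub_cancel] at h
      refine h.trans (max_le ((hsdiff j).trans ?_) ih)
      refine pow_le_pow_of_le_one S.r0 S.r1.le ?_
      exact Nat.pow_le_pow_right (Fact.out : p.Prime).pos (Nat.mul_le_mul_left n hj)
  have hlN : ∀ N, ‖l - s N‖ ≤ r ^ (p ^ (n * N)) := by
    intro N
    refine le_of_tendsto ((hl.sub_const (s N)).norm) ?_
    filter_upwards [Filter.eventually_ge_atTop N] with j hj
    exact hdist N j hj
  have hl1 : ‖l‖ < 1 := by
    have h := IsUltrametricDist.norm_add_le_max (l - s 0) (s 0)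
    rw [sub_add_cancel] at h
    have h0 : s 0 = u.val := by
      show (c 0).val ^ (p ^ (n * 0)) = u.val
      simp [c]
    refine h.trans_lt (max_lt ?_ ?_)
    · have := hlN 0
      simp only [mul_zero, pow_zero, pow_one] at this
      exact this.trans_lt S.r1
    · rw [h0]; exact u.norm_lt
  refine ⟨LawPt.mk l hl1, ?_⟩
  -- `c N` is `r`-close to the root of `l`
  have hclose : ∀ N, ‖(c N).val - pRoot p (n * N) l‖ ≤ r := by
    intro N
    have h1 : (c N).val = pRoot p (n * N) (s N) := by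
      show (c N).val = pRoot p (n * N) ((c N).val ^ (p ^ (n * N)))
      rw [pow_pRoot]
    have h2 : (pRoot p (n * N) (s N) - pRoot p (n * N) l) ^ (p ^ (n * N)) = s N - l := by
      rw [sub_pow_char_pow, pRoot_pow, pRoot_pow]
    have h3 : ‖pRoot p (n * N) (s N) - pRoot p (n * N) l‖ ^ (p ^ (n * N)) ≤ r ^ (p ^ (n * N)) := by
      rw [← norm_pow, h2, norm_sub_rev]
      exact hlN N
    rw [h1]
    exact le_of_pow_le_pow_left₀ (pow_ne_zero _ (Fact.out : p.Prime).ne_zero) S.r0 h3
  have h1 := S.tendsto_of_close (LawPt.mk l hl1) c hclose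
  have h2 : ∀ N, (p ^ N) • c N = u := by
    intro N
    induction N with
    | zero => simp [c]
    | succ N ih =>
      rw [pow_succ, mul_nsmul', hc, ih]
  simp only [h2] at h1
  exact LawPt.ext' (tendsto_nhds_unique h1 tendsto_const_nhds)

/-- **Functoriality.** If `θ : H' → H` is a hom. and `g : G → G` an endomorphism with `q`-fixed coefficients,
`r`-close to `θ`, then `θ ∘ π' = π ∘ g`. Proof: `(g y)^(1/q^N) = g(y^(1/q^N))`, `θ [p^N]_H' = [p^N]_H θ`, and the
contraction applied to `‖θ w -_H g w‖ ≤ r`. -/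
theorem PiSetup.theta_pi (S : PiSetup p n G H r) (S' : PiSetup p n G H' r)
    (θ g : PowerSeries (OC C)) (hθ : IsFGHom H' H θ) (hg : IsFGHom G G g)
    (hgq : ∀ j, ((PowerSeries.coeff j g : OC C) : C) ^ (p ^ n) = ((PowerSeries.coeff j g : OC C) : C))
    (hclose : ∀ j, ‖((PowerSeries.coeff j θ : OC C) : C) - ((PowerSeries.coeff j g : OC C) : C)‖ ≤ r)
    (y : LawPt G) :
    homPt θ hθ (S'.pi y) = S.pi (homPt g hg y) := by
  apply LawPt.ext'
  have hgq' : ∀ N j, ((PowerSeries.coeff j g : OC C) : C) ^ (p ^ (n * N)) =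
      ((PowerSeries.coeff j g : OC C) : C) := by
    intro N j
    rw [pow_mul]
    exact pow_pow_fixed _ _ (hgq j) N
  -- the sequence `θ (approx' N)`
  have h1 : Filter.Tendsto (fun N : ℕ => (homPt θ hθ (S'.approx y N)).val) Filter.atTop
      (nhds (homPt θ hθ (S'.pi y)).val) := by
    have h2 : Filter.Tendsto (fun N : ℕ => ‖(S'.approx y N).val - (S'.pi y).val‖)
        Filter.atTop (nhds 0) := by
      simpa [PiSetup.approx] using ((S'.tendsto_pi y).sub_const (S'.pi y).val).norm
    have h3 : Filter.Tendsto (fun N : ℕ => (homPt θ hθ (S'.approx y N)).val -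
        (homPt θ hθ (S'.pi y)).val) Filter.atTop (nhds 0) := by
      refine squeeze_zero_norm (fun N => ?_) h2
      rw [homPt_val, homPt_val]
      exact norm_ev1_sub_le θ _ _ (LawPt.norm_lt _) (LawPt.norm_lt _)
    simpa using h3.add_const (homPt θ hθ (S'.pi y)).val
  -- compare with `approx (g y)`
  have hroot : ∀ N, pRoot p (n * N) (homPt g hg y).val =
      ev1 g (pRoot p (n * N) y.val) := by
    intro N
    have h2 := ev1_pow_of_fixed (p := p) g (p ^ (n * N)) ⟨_, rfl⟩ (hgq' N) (pRoot p (n * N) y.val)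
      (norm_pRoot_lt_one p _ _ y.norm_lt)
    rw [pRoot_pow, ← homPt_val g hg] at h2
    rw [h2, pow_pRoot]
  have hcl : ∀ N, ‖(homPt θ hθ (LawPt.cast (LawPt.root p (n * N) y) : LawPt H')).val -
      pRoot p (n * N) (homPt g hg y).val‖ ≤ r := by
    intro N
    rw [hroot N, homPt_val]
    simp only [LawPt.val_cast, LawPt.val_root]
    exact norm_ev1_sub_of_coeff θ g _ (norm_pRoot_lt_one p _ _ y.norm_lt) r S.r0 hclose
  have h4 := S.tendsto_of_close (homPt g hg y) _ hcl
  refine tendsto_nhds_unique h1 ?_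
  refine h4.congr (fun N => ?_)
  unfold PiSetup.approx
  rw [map_nsmul]

/-- The torsion tower of `x ∈ ker π`: `c j = π(x^(1/q^j))`. -/
def PiSetup.tower (S : PiSetup p n G H r) (x : LawPt G) (j : ℕ) : LawPt H :=
  S.pi (LawPt.root p (n * j) x)

theorem PiSetup.tower_zero (S : PiSetup p n G H r) (x : LawPt G) (hx : S.pi x = 0) :
    S.tower x 0 = 0 := by
  unfold PiSetup.tower
  have : LawPt.root p (n * 0) x = x := by
    apply LawPt.ext'
    simp [pRoot]
  rw [this, hx]

theorem PiSetup.pSmul_tower (S : PiSetup p n G H r) (x : LawPt G) (j : ℕ) :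
    p • S.tower x (j + 1) = S.tower x j := by
  unfold PiSetup.tower
  rw [← map_nsmul]
  congr 1
  apply LawPt.ext'
  rw [S.val_nsmul_G]
  simp only [LawPt.val_root]
  exact pRoot_succ_pow _ _

/-- `‖(c^(j))  - x^(1/q^j)‖ ≤ r`. -/
theorem PiSetup.norm_tower_sub (S : PiSetup p n G H r) (x : LawPt G) (j : ℕ) :
    ‖(S.tower x j).val - (LawPt.root p (n * j) x).val‖ ≤ r :=
  S.norm_pi_sub_le _

/-- **The formula for `π'` on `ker π`.** With `c j = π(x^(1/q^j))`, `d j = [p]_H'(c (j+1)) -_H' c j`: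
`π'(x) = lim_N ∑^{H'}_{j<N} [p^j]_H'(d j)`. Proof: `‖x^(1/q^N) - c N‖ ≤ r`, so
`π'(x) = lim [p^N]_H'(c N)`, and telescoping using `c 0 = 0`. -/
theorem PiSetup.tendsto_formula (S : PiSetup p n G H r) (S' : PiSetup p n G H' r) (x : LawPt G)
    (hx : S.pi x = 0) :
    Filter.Tendsto (fun N : ℕ => (∑ j ∈ Finset.range N,
        (p ^ j) • (p • (LawPt.cast (S.tower x (j + 1)) : LawPt H') -
          (LawPt.cast (S.tower x j) : LawPt H')) : LawPt H').val)
      Filter.atTop (nhds (S'.pi x).val) := by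
  have hzero : (LawPt.cast (S.tower x 0) : LawPt H') = 0 := by
    apply LawPt.ext'
    rw [LawPt.val_cast, S.tower_zero x hx, LawPt.val_zero, LawPt.val_zero]
  have htel : ∀ N, (∑ j ∈ Finset.range N,
      (p ^ j) • (p • (LawPt.cast (S.tower x (j + 1)) : LawPt H') -
        (LawPt.cast (S.tower x j) : LawPt H')) : LawPt H') =
      (p ^ N) • (LawPt.cast (S.tower x N) : LawPt H') := by
    intro N
    induction N with
    | zero => simp [hzero]
    | succ N ih =>
      rw [Finset.sum_range_succ, ih, smul_sub, ← mul_nsmul', ← pow_succ]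
      abel
  simp only [htel]
  refine S'.tendsto_of_close x _ (fun N => ?_)
  simpa using S.norm_tower_sub x N

end

end Crest.Agent.LT
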