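/-
S0351 package CHARP/DEEP: the group `EndZ` of endomorphisms of `Γ₀` with vanishing linear term; its action on `Γ(𝔪_C)`; deep elements; tokens.
See BLUEPRINT.md §CP5.
-/
import Crest.Agent.LT.Universal
import Crest.Agent.LT.Tokens
import Crest.Agent.LT.CharP.Pi

set_option autoImplicit false

open Crest.LubinTate

namespace Crest.Agent.LT

noncomputable section

/-! ### General lemmas: the homomorphisms into a commutative law form a group -/

section HomGroup

variable {R : Type*} [CommRing R]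

/-- Substitution into a point is additive. -/
def substPt (G : FormalGroup R) [G.IsComm] {σ : Type*} (x : MvPowerSeries σ R)
    (hx : PowerSeries.HasSubst x) : G.Point Unit →+ G.Point σ :=
  AddMonoidHom.mk' (fun u => ⟨PowerSeries.subst x u.val, hasSubst_subst u.prop hx⟩) (fun u v => by
    apply Subtype.ext
    exact subst_pair_comp G.toPowerSeries u.prop v.prop hx)

@[simp] theorem substPt_val (G : FormalGroup R) [G.IsComm] {σ : Type*} (x : MvPowerSeries σ R)
    (hx : PowerSeries.HasSubst x) (u : G.Point Unit) :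
    (substPt G x hx u).val = PowerSeries.subst x u.val := rfl

theorem hasSubst_X2 (i : Fin 2) : PowerSeries.HasSubst (MvPowerSeries.X i : MvPowerSeries (Fin 2) R) :=
  PowerSeries.HasSubst.X i

theorem hasSubst_law (F : FormalGroup R) : PowerSeries.HasSubst F.toPowerSeries :=
  PowerSeries.HasSubst.of_constantCoeff_zero F.zero_constantCoeff

/-- The homomorphism equation, in terms of the additive maps `substPt`. -/
theorem fgHom_eq_iff (F G : FormalGroup R) [G.IsComm] (u : G.Point Unit) :
    PowerSeries.subst F.toPowerSeries u.val =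
        G.toPowerSeries.subst ![PowerSeries.subst (MvPowerSeries.X 0 : MvPowerSeries (Fin 2) R) u.val,
          PowerSeries.subst (MvPowerSeries.X 1 : MvPowerSeries (Fin 2) R) u.val] ↔
      substPt G F.toPowerSeries (hasSubst_law F) u =
        substPt G (MvPowerSeries.X 0) (hasSubst_X2 0) u +
          substPt G (MvPowerSeries.X 1) (hasSubst_X2 1) u := by
  constructor
  · intro h; exact Subtype.ext h
  · intro h; exact congrArg Subtype.val h

/-- The sum of two homomorphisms is a homomorphism. -/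
theorem fgHom_add {F G : FormalGroup R} [G.IsComm] {a b : G.Point Unit}
    (ha : IsFGHom F G a.val) (hb : IsFGHom F G b.val) : IsFGHom F G (a + b).val := by
  refine ⟨constantCoeff_law G ha.1 hb.1, ?_⟩
  rw [fgHom_eq_iff, map_add, map_add, map_add, (fgHom_eq_iff F G a).mp ha.2,
    (fgHom_eq_iff F G b).mp hb.2]
  exact add_add_add_comm _ _ _ _

theorem fgHom_zero {F G : FormalGroup R} [G.IsComm] : IsFGHom F G (0 : G.Point Unit).val := by
  refine ⟨by simp, ?_⟩
  rw [fgHom_eq_iff, map_zero, map_zero, map_zero, add_zero]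

theorem fgHom_neg {F G : FormalGroup R} [G.IsComm] {a : G.Point Unit}
    (ha : IsFGHom F G a.val) : IsFGHom F G (-a).val := by
  refine ⟨?_, ?_⟩
  · rw [point_neg_val]
    exact PowerSeries.constantCoeff_subst_eq_zero ha.1 _ (constantCoeff_negSeries G)
  · rw [fgHom_eq_iff, map_neg, map_neg, map_neg, (fgHom_eq_iff F G a).mp ha.2, neg_add, add_comm]

/-- Linear coefficient of a sum. -/
theorem coeff_one_add {G : FormalGroup R} (a b : PowerSeries R)
    (ha : PowerSeries.constantCoeff a = 0) (hb : PowerSeries.constantCoeff b = 0) :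
    PowerSeries.coeff 1 (G.toPowerSeries.subst ![a, b] : PowerSeries R) =
      PowerSeries.coeff 1 a + PowerSeries.coeff 1 b := by
  refine coeff_law_of_order G le_rfl ?_ ?_
  · intro i hi
    have : i = 0 := by omega
    subst this
    simpa using ha
  · intro i hi
    have : i = 0 := by omega
    subst this
    simpa using hb

/-- The `a + b` of homs, in terms of series. -/
theorem fgHom_add' {F G : FormalGroup R} [G.IsComm] {a b : PowerSeries R}
    (ha : IsFGHom F G a) (hb : IsFGHom F G b) :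
    IsFGHom F G (G.toPowerSeries.subst ![a, b] : PowerSeries R) :=
  fgHom_add (a := ⟨a, PowerSeries.HasSubst.of_constantCoeff_zero' ha.1⟩)
    (b := ⟨b, PowerSeries.HasSubst.of_constantCoeff_zero' hb.1⟩) ha hb

theorem coeff_one_neg_of {G : FormalGroup R} [G.IsComm] {F : FormalGroup R} (a : G.Point Unit)
    (ha : IsFGHom F G a.val) (ha1 : PowerSeries.coeff 1 (a.val : PowerSeries R) = 0) :
    PowerSeries.coeff 1 ((-a).val : PowerSeries R) = 0 := by
  have hn := fgHom_neg ha
  have h : (-a + a : G.Point Unit) = 0 := neg_add_cancel a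
  have h2 : PowerSeries.coeff 1 (G.toPowerSeries.subst ![(-a).val, a.val] : PowerSeries R) = 0 := by
    have h3 := congrArg Subtype.val h
    rw [show (-a + a : G.Point Unit).val = G.toPowerSeries.subst ![(-a).val, a.val] from rfl] at h3
    rw [h3]
    simp
  rw [coeff_one_add _ _ hn.1 ha.1, ha1, add_zero] at h2
  exact h2

theorem coeff_one_add_pt {G : FormalGroup R} {F : FormalGroup R} [G.IsComm] (a b : G.Point Unit)
    (ha : IsFGHom F G a.val) (hb : IsFGHom F G b.val)
    (ha1 : PowerSeries.coeff 1 (a.val : PowerSeries R) = 0)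
    (hb1 : PowerSeries.coeff 1 (b.val : PowerSeries R) = 0) :
    PowerSeries.coeff 1 ((a + b).val : PowerSeries R) = 0 := by
  change PowerSeries.coeff 1 (G.toPowerSeries.subst ![a.val, b.val] : PowerSeries R) = 0
  rw [coeff_one_add _ _ ha.1 hb.1, ha1, hb1, add_zero]

/-- `X + δ` is an automorphism when `δ` is a hom with zero linear term. -/
theorem fgAut_X_add {G : FormalGroup R} [G.IsComm] {d : PowerSeries R}
    (hd : IsFGHom G G d) (hd1 : PowerSeries.coeff 1 d = 0) :
    IsFGAut G (G.toPowerSeries.subst ![PowerSeries.X, d] : PowerSeries R) := by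
  refine ⟨fgHom_add' (fgHom_id G) hd, ?_⟩
  rw [coeff_one_add _ _ (by simp) hd.1, hd1, add_zero, PowerSeries.coeff_one_X]
  exact isUnit_one

/-- `X + δ ≡ X` when `δ ≡ 0`. -/
theorem congX_X_add {G : FormalGroup R} {d : PowerSeries R} (hd : PowerSeries.HasSubst d) (K : ℕ)
    (hdK : ∀ i, i < K → PowerSeries.coeff i d = 0) :
    CongX (G.toPowerSeries.subst ![PowerSeries.X, d] : PowerSeries R) K := by
  have h := modX_subst_pair G.toPowerSeries (a := (PowerSeries.X : PowerSeries R))
    (a' := (PowerSeries.X : PowerSeries R)) (b := d)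
    (b' := (0 : PowerSeries R)) PowerSeries.HasSubst.X' hd PowerSeries.HasSubst.X'
    PowerSeries.HasSubst.zero' (ModX.refl _ _)
    (K := K) (fun i hi => by simpa using hdK i hi)
  intro i hi
  have h2 := h i hi
  rwa [show G.toPowerSeries.subst ![(PowerSeries.X : PowerSeries R), (0 : PowerSeries R)] =
    PowerSeries.X from G.add_zero PowerSeries.HasSubst.X'] at h2

/-- `m • x = [m]_G ∘ x`. -/
theorem nsmul_val_eq {G : FormalGroup R} [G.IsComm] (m : ℕ) (x : G.Point Unit) :
    (m • x).val = scomp (mulSeries G m) x.val := by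
  induction m with
  | zero =>
    rw [zero_nsmul, mulSeries]
    change (0 : PowerSeries R) = PowerSeries.subst x.val (0 : PowerSeries R)
    rw [← PowerSeries.coe_substAlgHom x.prop, map_zero]
  | succ m ih =>
    rw [succ_nsmul, mulSeries]
    change G.toPowerSeries.subst ![(m • x).val, x.val] = _
    rw [ih]
    have h := subst_pair_comp G.toPowerSeries
      (PowerSeries.HasSubst.of_constantCoeff_zero' (constantCoeff_mulSeries G m))
      PowerSeries.HasSubst.X' x.prop
    rw [PowerSeries.subst_X x.prop] at h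
    exact h.symm

/-- `[p^t] = X^(q^t)` when `[p] = X^q`. -/
theorem mulSeries_pow_of_pSeries {G : FormalGroup R} [G.IsComm] {p q : ℕ} (hq : q ≠ 0)
    (hG : mulSeries G p = PowerSeries.X ^ q) (t : ℕ) :
    mulSeries G (p ^ t) = PowerSeries.X ^ (q ^ t) := by
  induction t with
  | zero =>
    rw [pow_zero, pow_zero, pow_one, show (1 : ℕ) = 0 + 1 from rfl, mulSeries, mulSeries]
    exact G.zero_add PowerSeries.HasSubst.X'
  | succ t ih =>
    rw [pow_succ, mulSeries_mul, ih, hG, scomp, PowerSeries.subst_pow (PowerSeries.HasSubst.X_pow hq),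
      PowerSeries.subst_X (PowerSeries.HasSubst.X_pow hq), ← pow_mul, pow_succ, mul_comm]

/-- Pushing a pair forward along a ring map. -/
theorem map_law_pair {S : Type*} [CommRing S] (φ : R →+* S) (G : FormalGroup R) (a b : PowerSeries R)
    (ha : PowerSeries.HasSubst a) (hb : PowerSeries.HasSubst b) :
    PowerSeries.map φ (G.toPowerSeries.subst ![a, b] : PowerSeries R) =
      (G.map φ).toPowerSeries.subst ![PowerSeries.map φ a, PowerSeries.map φ b] := by
  have := MvPowerSeries.map_subst (hasSubst_pairN ha hb) (h := φ) G.toPowerSeries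
  have h2 : (fun i => MvPowerSeries.map φ (![a, b] i)) =
      ![PowerSeries.map φ a, PowerSeries.map φ b] := by
    ext1 i; fin_cases i <;> rfl
  rw [h2] at this
  exact this

end HomGroup

variable (p : ℕ) [Fact p.Prime] (n : ℕ)

local notation "k" => GaloisField p n

/-- `EndZ`: endomorphisms of `Γ₀` over `k` with zero linear term, under the `Γ₀`-sum. -/
def EndZ : AddSubgroup ((Gam0 p n).Point Unit) where
  carrier := {δ | IsFGHom (Gam0 p n) (Gam0 p n) δ.val ∧ PowerSeries.coeff 1 (δ.val : PowerSeries k) = 0}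
  add_mem' := by
    rintro a b ⟨ha, ha1⟩ ⟨hb, hb1⟩
    exact ⟨fgHom_add ha hb, coeff_one_add_pt a b ha hb ha1 hb1⟩
  zero_mem' := ⟨fgHom_zero, by simp⟩
  neg_mem' := by
    rintro a ⟨ha, ha1⟩
    exact ⟨fgHom_neg ha, coeff_one_neg_of a ha ha1⟩

/-- `δ` is `t`-deep: order `≥ q^t`. -/
def EndZ.Deep (t : ℕ) (δ : EndZ p n) : Prop :=
  ∀ i, i < (p ^ n) ^ t → PowerSeries.coeff i (δ.1.val : PowerSeries k) = 0

/-- `p^t • δ` is `t`-deep, as `p • δ = δ^q`, using `Gam0_pSeries`. -/
theorem EndZ.deep_smul (hn : 1 ≤ n) (t : ℕ) (δ : EndZ p n) : EndZ.Deep p n t ((p ^ t) • δ) := by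
  intro i hi
  have hp : p ≠ 0 := (Fact.out : p.Prime).ne_zero
  have h1 : (((p ^ t) • δ : EndZ p n).1 : (Gam0 p n).Point Unit).val =
      ((p ^ t) • (δ.1 : (Gam0 p n).Point Unit)).val := rfl
  rw [h1, nsmul_val_eq, mulSeries_pow_of_pSeries (pow_ne_zero _ hp) (Gam0_pSeries p n hn) t, scomp,
    PowerSeries.subst_pow δ.1.prop, PowerSeries.subst_X δ.1.prop]
  have hX : (PowerSeries.X : PowerSeries k) ∣ (δ.1.val : PowerSeries k) :=
    PowerSeries.X_dvd_iff.mpr δ.2.1.1
  exact (PowerSeries.X_pow_dvd_iff.mp (pow_dvd_pow_of_dvd hX _)) i hi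

/-- The filter "deep". -/
def EndZ.deepFilter : Filter (EndZ p n) := ⨅ t : ℕ, Filter.principal {δ | EndZ.Deep p n t δ}

theorem EndZ.deep_mono {s t : ℕ} (hst : s ≤ t) {δ : EndZ p n} (h : EndZ.Deep p n t δ) :
    EndZ.Deep p n s δ := by
  have hp : 0 < p ^ n := pow_pos (Fact.out : p.Prime).pos _
  intro i hi
  exact h i (hi.trans_le (Nat.pow_le_pow_right hp hst))

theorem EndZ.deepFilter_neBot : (EndZ.deepFilter p n).NeBot := by
  have hanti : Antitone fun t : ℕ => Filter.principal {δ | EndZ.Deep p n t δ} := by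
    intro s t hst
    exact Filter.principal_mono.mpr fun δ h => EndZ.deep_mono p n hst h
  refine Filter.iInf_neBot_of_directed hanti.directed_ge fun t => ?_
  rw [Filter.principal_neBot_iff]
  refine ⟨0, fun i _ => ?_⟩
  change PowerSeries.coeff i (0 : PowerSeries k) = 0
  simp

theorem EndZ.deep_mem_filter (t : ℕ) : {δ | EndZ.Deep p n t δ} ∈ EndZ.deepFilter p n := by
  exact Filter.mem_iInf_of_mem t (Filter.mem_principal_self _)

/-- `g(δ) = X +_Γ δ`. -/
def EndZ.aut (δ : EndZ p n) : PowerSeries k :=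
  (Gam0 p n).toPowerSeries.subst ![PowerSeries.X, (δ.1.val : PowerSeries k)]

theorem EndZ.aut_isFGAut (_hn : 1 ≤ n) (δ : EndZ p n) : IsFGAut (Gam0 p n) (EndZ.aut p n δ) :=
  fgAut_X_add δ.2.1 δ.2.2

/-- Deep `δ` gives `g ≡ X mod X^M`. -/
theorem EndZ.aut_congX (_hn : 1 ≤ n) (t M : ℕ) (hM : M ≤ (p ^ n) ^ t) (δ : EndZ p n)
    (hδ : EndZ.Deep p n t δ) : CongX (EndZ.aut p n δ) M :=
  fun i hi => congX_X_add δ.1.prop _ hδ i (hi.trans_le hM)

/-- The token `β X^(p^l)` is an endomorphism of `Γ₀`. -/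
theorem isFGHom_token (hn : 1 ≤ n) (β : k) (l : ℕ) :
    IsFGHom (Gam0 p n) (Gam0 p n) (PowerSeries.C β * PowerSeries.X ^ (p ^ l)) := by
  have hp : p ^ l ≠ 0 := pow_ne_zero _ (Fact.out : p.Prime).ne_zero
  have hcard : β ^ (p ^ n) = β := by
    haveI : Fintype k := Fintype.ofFinite k
    have h := FiniteField.pow_card β
    rwa [← Nat.card_eq_fintype_card, GaloisField.card p n (by omega)] at h
  have h1 := isFGHom_scalar_eParam p (R := k) n hn β hcard
  have h2 := isFGHom_X_pow_eParam p (R := k) n l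
  have h3 := fgHom_comp h1 h2
  have h4 : scomp (PowerSeries.C β * PowerSeries.X : PowerSeries k) (PowerSeries.X ^ (p ^ l)) =
      PowerSeries.C β * PowerSeries.X ^ (p ^ l) := by
    have hs := PowerSeries.HasSubst.X_pow (R := k) hp
    rw [scomp, PowerSeries.subst_mul hs, PowerSeries.subst_X hs]
    congr 1
    exact PowerSeries.subst_C β
  rw [h4] at h3
  exact h3

/-- The token `β X^(p^l)`, `β ∈ k`, `l ≥ 1`, in `EndZ` (`isFGHom_scalar_eParam`, `isFGHom_X_pow_eParam`). -/
def EndZ.token (hn : 1 ≤ n) (β : k) (l : ℕ) (hl : 1 ≤ l) : EndZ p n :=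
  ⟨⟨PowerSeries.C β * PowerSeries.X ^ (p ^ l),
      PowerSeries.HasSubst.of_constantCoeff_zero' (isFGHom_token p n hn β l).1⟩,
    isFGHom_token p n hn β l, by
      have hp2 : 2 ≤ p ^ l := by
        calc 2 ≤ p := (Fact.out : p.Prime).two_le
          _ = p ^ 1 := (pow_one p).symm
          _ ≤ p ^ l := Nat.pow_le_pow_right (Fact.out : p.Prime).pos hl
      change PowerSeries.coeff 1 (PowerSeries.C β * PowerSeries.X ^ (p ^ l) : PowerSeries k) = 0
      rw [PowerSeries.coeff_C_mul, PowerSeries.coeff_X_pow, if_neg (by omega), mul_zero]⟩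

theorem EndZ.val_token (hn : 1 ≤ n) (β : k) (l : ℕ) (hl : 1 ≤ l) :
    ((EndZ.token p n hn β l hl).1.val : PowerSeries k) =
      PowerSeries.C β * PowerSeries.X ^ (p ^ l) := rfl

section Points

variable {C : Type} [NontriviallyNormedField C] [IsUltrametricDist C] [CompleteSpace C]
  [CharP C p] [IsAlgClosed C]

/-- `(Gam0).map kk = GamC` (`hzv_map`, `eParam`). -/
theorem Gam0_map (kk : k →+* OC C) : (Gam0 p n).map kk = GamC p n C := by
  rw [Gam0, hzv_map, GamC]
  congr 1
  funext i
  simp only [eParam]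
  split_ifs <;> simp

theorem EndZ.map_hom (kk : k →+* OC C) (δ : EndZ p n) :
    IsFGHom (GamC p n C) (GamC p n C) (PowerSeries.map kk (δ.1.val : PowerSeries k)) := by
  have h := fgHom_map δ.2.1 kk
  rwa [Gam0_map] at h

/-- Action of `EndZ` on `Γ(𝔪_C)`, additive in `δ`. -/
def EndZ.act (kk : k →+* OC C) : EndZ p n →+ (LawPt (GamC p n C) →+ LawPt (GamC p n C)) :=
  AddMonoidHom.mk' (fun δ => homPt (PowerSeries.map kk (δ.1.val : PowerSeries k)) (EndZ.map_hom p n kk δ))
    (fun δ δ' => by
      ext y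
      rw [AddMonoidHom.add_apply, LawPt.val_add, homPt_val, homPt_val, homPt_val]
      have h0 : ∀ δ₀ : EndZ p n, PowerSeries.constantCoeff
          (PowerSeries.map kk (δ₀.1.val : PowerSeries k)) = 0 := fun δ₀ =>
        (EndZ.map_hom p n kk δ₀).1
      have h1 : (PowerSeries.map kk ((δ + δ' : EndZ p n).1.val : PowerSeries k)) =
          (GamC p n C).toPowerSeries.subst ![PowerSeries.map kk (δ.1.val : PowerSeries k),
            PowerSeries.map kk (δ'.1.val : PowerSeries k)] := by
        rw [← Gam0_map p n kk]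
        exact map_law_pair kk (Gam0 p n) _ _ δ.1.prop δ'.1.prop
      rw [h1]
      exact ev1_lawAdd_subst _ _ _ (h0 δ) (h0 δ') _ y.norm_lt)

theorem EndZ.val_act (kk : k →+* OC C) (δ : EndZ p n) (y : LawPt (GamC p n C)) :
    (EndZ.act p n kk δ y).val =
      ev1 (PowerSeries.map kk (δ.1.val : PowerSeries k)) y.val :=
  homPt_val (PowerSeries.map kk (δ.1.val : PowerSeries k)) (EndZ.map_hom p n kk δ) y

/-- The action of `g(δ)`: `g(y) = y +_Γ δ(y)`. -/
theorem EndZ.val_aut (kk : k →+* OC C) (δ : EndZ p n) (y : LawPt (GamC p n C)) :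
    ev1 (PowerSeries.map kk (EndZ.aut p n δ)) y.val = (y + EndZ.act p n kk δ y).val := by
  rw [LawPt.val_add, EndZ.val_act, EndZ.aut,
    map_law_pair kk (Gam0 p n) _ _ PowerSeries.HasSubst.X' δ.1.prop, Gam0_map, PowerSeries.map_X,
    ev1_lawAdd_subst _ _ _ (by simp) (EndZ.map_hom p n kk δ).1 _ y.norm_lt, ev1_X _ y.norm_lt]

end Points

end

end Crest.Agent.LT
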