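/-
S0351 package CHARP/JETS: asymptotic polynomial expansions ("jets") of functions on a family,
in the small parameter `A`. See BLUEPRINT.md §CP3.
-/
import Crest.Agent.LT.Taylor

set_option autoImplicit false

open Crest.LubinTate

namespace Crest.Agent.LT

noncomputable section

variable {C : Type} [NontriviallyNormedField C] [IsUltrametricDist C] [CompleteSpace C]
variable {ι : Type*} {m : ℕ}

/-- `u` has a jet along `(𝓕, A)` with constant term `c` and linear part `ℓ`: to every order `N` it is a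
polynomial in `A` with this constant term and linear part, up to `O(‖A‖^(N+1))`. -/
def Jet (𝓕 : Filter ι) (A : ι → Fin m → C) (u : ι → C) (c : C) (ℓ : Fin m → C) : Prop :=
  ∀ N : ℕ, ∃ Q : MvPolynomial (Fin m) C,
    MvPolynomial.coeff 0 Q = c ∧ (∀ k, MvPolynomial.coeff (Finsupp.single k 1) Q = ℓ k) ∧
    ∃ K : ℝ, ∀ᶠ δ in 𝓕, ‖u δ - MvPolynomial.eval (A δ) Q‖ ≤ K * ‖A δ‖ ^ (N + 1)

variable {𝓕 : Filter ι} {A : ι → Fin m → C} {u v α β : ι → C} {c d : C} {ℓ ℓ' : Fin m → C}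

/-! ### Polynomial helpers -/

omit [IsUltrametricDist C] [CompleteSpace C] in
theorem mvpoly_coeff_zero_mul (P Q : MvPolynomial (Fin m) C) :
    MvPolynomial.coeff 0 (P * Q) = MvPolynomial.coeff 0 P * MvPolynomial.coeff 0 Q := by
  have := map_mul (MvPolynomial.constantCoeff (R := C) (σ := Fin m)) P Q
  simpa [MvPolynomial.constantCoeff_eq] using this

omit [IsUltrametricDist C] [CompleteSpace C] in
theorem mvpoly_coeff_single_mul (P Q : MvPolynomial (Fin m) C) (k : Fin m) :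
    MvPolynomial.coeff (Finsupp.single k 1) (P * Q) =
      MvPolynomial.coeff 0 P * MvPolynomial.coeff (Finsupp.single k 1) Q +
      MvPolynomial.coeff (Finsupp.single k 1) P * MvPolynomial.coeff 0 Q := by
  classical
  rw [MvPolynomial.coeff_mul, Finsupp.antidiagonal_single, Finset.sum_map]
  simp [Finset.Nat.antidiagonal_succ]

omit [CompleteSpace C] [IsUltrametricDist C] in
/-- Polynomials are Lipschitz at the origin on the unit ball. -/
theorem poly_bound (Q : MvPolynomial (Fin m) C) :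
    ∃ K : ℝ, 0 ≤ K ∧ ∀ a : Fin m → C, ‖a‖ ≤ 1 →
      ‖MvPolynomial.eval a Q - MvPolynomial.coeff 0 Q‖ ≤ K * ‖a‖ := by
  induction Q using MvPolynomial.induction_on with
  | C c => exact ⟨0, le_rfl, by simp⟩
  | add P Q hP hQ =>
    obtain ⟨K₁, hK₁, h₁⟩ := hP
    obtain ⟨K₂, hK₂, h₂⟩ := hQ
    refine ⟨K₁ + K₂, by positivity, fun a ha => ?_⟩
    have e : MvPolynomial.eval a (P + Q) - MvPolynomial.coeff 0 (P + Q) =
        (MvPolynomial.eval a P - MvPolynomial.coeff 0 P) +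
          (MvPolynomial.eval a Q - MvPolynomial.coeff 0 Q) := by
      simp only [map_add, MvPolynomial.coeff_add]; ring
    rw [e]
    refine (norm_add_le _ _).trans ?_
    have := h₁ a ha
    have := h₂ a ha
    rw [add_mul]
    linarith
  | mul_X P i hP =>
    obtain ⟨K, hK, h⟩ := hP
    refine ⟨K + ‖MvPolynomial.coeff 0 P‖, by positivity, fun a ha => ?_⟩
    have h0 : MvPolynomial.coeff 0 (P * MvPolynomial.X i) = 0 := by
      rw [mvpoly_coeff_zero_mul]; simp
    rw [h0, sub_zero, map_mul, MvPolynomial.eval_X, norm_mul]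
    have h1 : ‖MvPolynomial.eval a P‖ ≤ K + ‖MvPolynomial.coeff 0 P‖ := by
      have := h a ha
      have h2 : ‖MvPolynomial.eval a P‖ ≤
          ‖MvPolynomial.eval a P - MvPolynomial.coeff 0 P‖ + ‖MvPolynomial.coeff 0 P‖ := by
        simpa using norm_add_le (MvPolynomial.eval a P - MvPolynomial.coeff 0 P)
          (MvPolynomial.coeff 0 P)
      have h3 : K * ‖a‖ ≤ K * 1 := by gcongr
      linarith
    have h4 : ‖a i‖ ≤ ‖a‖ := norm_le_pi_norm a i
    exact mul_le_mul h1 h4 (norm_nonneg _) (by positivity)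

omit [CompleteSpace C] [IsUltrametricDist C] in
theorem poly_bdd (Q : MvPolynomial (Fin m) C) :
    ∃ B : ℝ, 0 ≤ B ∧ ∀ a : Fin m → C, ‖a‖ ≤ 1 → ‖MvPolynomial.eval a Q‖ ≤ B := by
  obtain ⟨K, hK, h⟩ := poly_bound Q
  refine ⟨K + ‖MvPolynomial.coeff 0 Q‖, by positivity, fun a ha => ?_⟩
  have := h a ha
  have h2 : ‖MvPolynomial.eval a Q‖ ≤
      ‖MvPolynomial.eval a Q - MvPolynomial.coeff 0 Q‖ + ‖MvPolynomial.coeff 0 Q‖ := by
    simpa using norm_add_le (MvPolynomial.eval a Q - MvPolynomial.coeff 0 Q)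
      (MvPolynomial.coeff 0 Q)
  have h3 : K * ‖a‖ ≤ K * 1 := by gcongr
  linarith

omit [CompleteSpace C] [IsUltrametricDist C] in
theorem ev_norm_le_one (hA : Filter.Tendsto A 𝓕 (nhds 0)) : ∀ᶠ δ in 𝓕, ‖A δ‖ ≤ 1 := by
  have h : Filter.Tendsto (fun δ => ‖A δ‖) 𝓕 (nhds 0) := by simpa using hA.norm
  exact h.eventually (Iic_mem_nhds zero_lt_one)

omit [CompleteSpace C] [IsUltrametricDist C] in
theorem tendsto_K_pow (hA : Filter.Tendsto A 𝓕 (nhds 0)) (K : ℝ) (N : ℕ) :
    Filter.Tendsto (fun δ => K * ‖A δ‖ ^ (N + 1)) 𝓕 (nhds 0) := by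
  have h : Filter.Tendsto (fun δ => ‖A δ‖) 𝓕 (nhds 0) := by simpa using hA.norm
  simpa using (h.pow (N + 1)).const_mul K

omit [IsUltrametricDist C] [CompleteSpace C] in
theorem ev_norm_bdd_of_tendsto {f : ι → C} {c : C} (h : Filter.Tendsto f 𝓕 (nhds c)) :
    ∀ᶠ δ in 𝓕, ‖f δ‖ ≤ ‖c‖ + 1 :=
  h.norm.eventually (Iic_mem_nhds (lt_add_one _))

/-! ### Basic closure properties -/

omit [IsUltrametricDist C] [CompleteSpace C] in
theorem Jet.const' (c : C) : Jet 𝓕 A (fun _ => c) c 0 := by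
  intro N
  refine ⟨MvPolynomial.C c, by simp, fun k => ?_, 0, Filter.Eventually.of_forall fun δ => by simp⟩
  rw [MvPolynomial.coeff_C]
  have : (0 : Fin m →₀ ℕ) ≠ Finsupp.single k 1 := by
    intro h
    have := DFunLike.congr_fun h k
    simp at this
  simp [this]

omit [IsUltrametricDist C] [CompleteSpace C] in
theorem Jet.const (_hA : Filter.Tendsto A 𝓕 (nhds 0)) (c : C) : Jet 𝓕 A (fun _ => c) c 0 :=
  Jet.const' c

omit [IsUltrametricDist C] [CompleteSpace C] in
theorem Jet.coord (k : Fin m) : Jet 𝓕 A (fun δ => A δ k) 0 (Pi.single k 1) := by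
  classical
  intro N
  refine ⟨MvPolynomial.X k, by simp, fun j => ?_, 0, Filter.Eventually.of_forall fun δ => by simp⟩
  rw [MvPolynomial.coeff_X]
  by_cases h : j = k
  · subst h; simp
  · have : Finsupp.single k 1 ≠ Finsupp.single j 1 := by
      intro h'
      have := (Finsupp.single_left_inj (one_ne_zero)).1 h'
      exact h this.symm
    simp [this, h]

omit [IsUltrametricDist C] [CompleteSpace C] in
theorem Jet.add (hu : Jet 𝓕 A u c ℓ) (hv : Jet 𝓕 A v d ℓ') :
    Jet 𝓕 A (fun δ => u δ + v δ) (c + d) (ℓ + ℓ') := by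
  intro N
  obtain ⟨Q₁, h01, hl1, K₁, hK₁⟩ := hu N
  obtain ⟨Q₂, h02, hl2, K₂, hK₂⟩ := hv N
  refine ⟨Q₁ + Q₂, by simp [h01, h02], fun k => by simp [hl1, hl2], K₁ + K₂, ?_⟩
  filter_upwards [hK₁, hK₂] with δ h1 h2
  have e : u δ + v δ - MvPolynomial.eval (A δ) (Q₁ + Q₂) =
      (u δ - MvPolynomial.eval (A δ) Q₁) + (v δ - MvPolynomial.eval (A δ) Q₂) := by
    simp only [map_add]; ring
  rw [e, add_mul]
  exact (norm_add_le _ _).trans (add_le_add h1 h2)

omit [IsUltrametricDist C] [CompleteSpace C] in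
theorem Jet.neg (hu : Jet 𝓕 A u c ℓ) : Jet 𝓕 A (fun δ => - u δ) (-c) (-ℓ) := by
  intro N
  obtain ⟨Q₁, h01, hl1, K₁, hK₁⟩ := hu N
  refine ⟨-Q₁, by simp [h01], fun k => by simp [hl1], K₁, ?_⟩
  filter_upwards [hK₁] with δ h1
  have e : - u δ - MvPolynomial.eval (A δ) (-Q₁) = -(u δ - MvPolynomial.eval (A δ) Q₁) := by
    simp only [map_neg]; ring
  rw [e, norm_neg]
  exact h1

omit [IsUltrametricDist C] [CompleteSpace C] in
theorem Jet.sub (hu : Jet 𝓕 A u c ℓ) (hv : Jet 𝓕 A v d ℓ') :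
    Jet 𝓕 A (fun δ => u δ - v δ) (c - d) (ℓ - ℓ') := by
  simpa [sub_eq_add_neg] using hu.add hv.neg

omit [IsUltrametricDist C] [CompleteSpace C] in
/-- A jet tends to its constant term. -/
theorem Jet.tendsto (hA : Filter.Tendsto A 𝓕 (nhds 0)) (hu : Jet 𝓕 A u c ℓ) :
    Filter.Tendsto u 𝓕 (nhds c) := by
  obtain ⟨Q, h0, -, K, hK⟩ := hu 0
  have h1 : Filter.Tendsto (fun δ => MvPolynomial.eval (A δ) Q) 𝓕 (nhds c) := by
    have := ((MvPolynomial.continuous_eval Q).tendsto 0).comp hA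
    rw [MvPolynomial.eval_zero, MvPolynomial.constantCoeff_eq, h0] at this
    exact this
  have h2 : Filter.Tendsto (fun δ => u δ - MvPolynomial.eval (A δ) Q) 𝓕 (nhds 0) := by
    rw [tendsto_zero_iff_norm_tendsto_zero]
    exact squeeze_zero' (Filter.Eventually.of_forall fun _ => norm_nonneg _) hK (tendsto_K_pow hA K 0)
  simpa using h2.add h1

omit [IsUltrametricDist C] [CompleteSpace C] in
/-- `u - c = O(‖A‖)`. -/
theorem Jet.sub_bigO (hA : Filter.Tendsto A 𝓕 (nhds 0)) (hu : Jet 𝓕 A u c ℓ) :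
    ∃ K : ℝ, 0 ≤ K ∧ ∀ᶠ δ in 𝓕, ‖u δ - c‖ ≤ K * ‖A δ‖ := by
  obtain ⟨Q, h0, -, K, hK⟩ := hu 0
  obtain ⟨K', hK', hb⟩ := poly_bound Q
  refine ⟨|K| + K', by positivity, ?_⟩
  filter_upwards [hK, ev_norm_le_one hA] with δ h1 h2
  have e : u δ - c = (u δ - MvPolynomial.eval (A δ) Q) + (MvPolynomial.eval (A δ) Q - c) := by ring
  rw [e]
  refine (norm_add_le _ _).trans ?_
  have h3 := hb (A δ) h2
  rw [h0] at h3
  rw [pow_one] at h1
  have h4 : K * ‖A δ‖ ≤ |K| * ‖A δ‖ := by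
    gcongr
    exact le_abs_self K
  rw [add_mul]
  linarith

omit [IsUltrametricDist C] [CompleteSpace C] in
theorem Jet.mul (hA : Filter.Tendsto A 𝓕 (nhds 0)) (hu : Jet 𝓕 A u c ℓ) (hv : Jet 𝓕 A v d ℓ') :
    Jet 𝓕 A (fun δ => u δ * v δ) (c * d) (c • ℓ' + d • ℓ) := by
  intro N
  obtain ⟨Q₁, h01, hl1, K₁, hK₁⟩ := hu N
  obtain ⟨Q₂, h02, hl2, K₂, hK₂⟩ := hv N
  obtain ⟨B₁, hB₁, hb₁⟩ := poly_bdd Q₁
  refine ⟨Q₁ * Q₂, by rw [mvpoly_coeff_zero_mul, h01, h02], fun k => ?_,
    |K₁| * (‖d‖ + 1) + B₁ * |K₂|, ?_⟩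
  · rw [mvpoly_coeff_single_mul, h01, h02, hl1, hl2]
    simp only [Pi.add_apply, Pi.smul_apply, smul_eq_mul]
    ring
  · filter_upwards [hK₁, hK₂, ev_norm_le_one hA, ev_norm_bdd_of_tendsto (hv.tendsto hA)]
      with δ h1 h2 h3 h4
    have e : u δ * v δ - MvPolynomial.eval (A δ) (Q₁ * Q₂) =
        (u δ - MvPolynomial.eval (A δ) Q₁) * v δ +
          MvPolynomial.eval (A δ) Q₁ * (v δ - MvPolynomial.eval (A δ) Q₂) := by
      simp only [map_mul]; ring
    rw [e]
    refine (norm_add_le _ _).trans ?_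
    rw [norm_mul, norm_mul, add_mul]
    have hP : 0 ≤ ‖A δ‖ ^ (N + 1) := by positivity
    have h5 : ‖u δ - MvPolynomial.eval (A δ) Q₁‖ ≤ |K₁| * ‖A δ‖ ^ (N + 1) :=
      h1.trans (mul_le_mul_of_nonneg_right (le_abs_self _) hP)
    have h6 : ‖v δ - MvPolynomial.eval (A δ) Q₂‖ ≤ |K₂| * ‖A δ‖ ^ (N + 1) :=
      h2.trans (mul_le_mul_of_nonneg_right (le_abs_self _) hP)
    have h7 := hb₁ _ h3
    refine add_le_add ?_ ?_
    · calc _ ≤ (|K₁| * ‖A δ‖ ^ (N + 1)) * (‖d‖ + 1) :=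
            mul_le_mul h5 h4 (norm_nonneg _) (by positivity)
        _ = _ := by ring
    · calc _ ≤ B₁ * (|K₂| * ‖A δ‖ ^ (N + 1)) :=
            mul_le_mul h7 h6 (norm_nonneg _) hB₁
        _ = _ := by ring

omit [IsUltrametricDist C] [CompleteSpace C] in
theorem Jet.pow (hA : Filter.Tendsto A 𝓕 (nhds 0)) (hu : Jet 𝓕 A u c ℓ) (e : ℕ) :
    Jet 𝓕 A (fun δ => u δ ^ e) (c ^ e) (((e : C) * c ^ (e - 1)) • ℓ) := by
  induction e with
  | zero => simpa using Jet.const' (𝓕 := 𝓕) (A := A) (1 : C)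
  | succ e ih =>
    have h := ih.mul hA hu
    have e1 : (fun δ => u δ ^ (e + 1)) = fun δ => u δ ^ e * u δ := by
      funext δ; rw [pow_succ]
    have e2 : ((((e + 1 : ℕ) : C)) * c ^ (e + 1 - 1)) • ℓ =
        c ^ e • ℓ + c • (((e : C) * c ^ (e - 1)) • ℓ) := by
      rw [smul_smul, ← add_smul]
      congr 1
      rcases e with _ | e
      · simp
      · simp only [Nat.add_sub_cancel, pow_succ]
        push_cast
        ring
    rw [e1, e2, pow_succ]
    exact h

omit [IsUltrametricDist C] [CompleteSpace C] in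
/-- Inverses of jets with nonzero constant term (geometric series in `1 - u/c`). -/
theorem Jet.inv (hA : Filter.Tendsto A 𝓕 (nhds 0)) (hu : Jet 𝓕 A u c ℓ) (hc : c ≠ 0) :
    Jet 𝓕 A (fun δ => (u δ)⁻¹) c⁻¹ ((-(c⁻¹ ^ 2)) • ℓ) := by
  classical
  have htend := hu.tendsto hA
  have hinv : Filter.Tendsto (fun δ => (u δ)⁻¹) 𝓕 (nhds c⁻¹) := htend.inv₀ hc
  have hne : ∀ᶠ δ in 𝓕, u δ ≠ 0 := htend.eventually_ne hc
  obtain ⟨K₀, hK₀, hbigO⟩ := hu.sub_bigO hA
  -- claim with exponent `N`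
  have key : ∀ N : ℕ, ∃ R : MvPolynomial (Fin m) C,
      MvPolynomial.coeff 0 R = c⁻¹ ∧
      (∀ k, MvPolynomial.coeff (Finsupp.single k 1) R = ((-(c⁻¹ ^ 2)) • ℓ) k) ∧
      ∃ K : ℝ, 0 ≤ K ∧ ∀ᶠ δ in 𝓕, ‖(u δ)⁻¹ - MvPolynomial.eval (A δ) R‖ ≤ K * ‖A δ‖ ^ N := by
    intro N
    induction N with
    | zero =>
      -- any polynomial with the right low coefficients
      let R₀ : MvPolynomial (Fin m) C := MvPolynomial.C c⁻¹ +
        ∑ k, MvPolynomial.C (((-(c⁻¹ ^ 2)) • ℓ) k) * MvPolynomial.X k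
      have h0 : MvPolynomial.coeff 0 R₀ = c⁻¹ := by
        simp only [R₀, MvPolynomial.coeff_add, MvPolynomial.coeff_sum, mvpoly_coeff_zero_mul,
          MvPolynomial.coeff_zero_X, mul_zero, Finset.sum_const_zero, add_zero,
          MvPolynomial.coeff_zero_C]
      have h1 : ∀ k, MvPolynomial.coeff (Finsupp.single k 1) R₀ = ((-(c⁻¹ ^ 2)) • ℓ) k := by
        intro k
        have hne0 : (0 : Fin m →₀ ℕ) ≠ Finsupp.single k 1 := by
          intro h
          have := DFunLike.congr_fun h k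
          simp at this
        simp only [R₀, MvPolynomial.coeff_add, MvPolynomial.coeff_C, if_neg hne0, zero_add,
          MvPolynomial.coeff_sum, MvPolynomial.coeff_C_mul]
        rw [Finset.sum_eq_single k]
        · simp [MvPolynomial.coeff_X]
        · intro j _ hj
          have : Finsupp.single j 1 ≠ Finsupp.single k 1 := by
            intro h'
            exact hj ((Finsupp.single_left_inj one_ne_zero).1 h')
          simp [MvPolynomial.coeff_X, this]
        · simp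
      obtain ⟨B, hB, hb⟩ := poly_bdd R₀
      refine ⟨R₀, h0, h1, ‖c⁻¹‖ + 1 + B, by positivity, ?_⟩
      filter_upwards [ev_norm_bdd_of_tendsto hinv, ev_norm_le_one hA] with δ h2 h3
      have := hb _ h3
      simp only [pow_zero, mul_one]
      refine (norm_sub_le _ _).trans (add_le_add h2 this)
    | succ N ih =>
      obtain ⟨R, h0R, h1R, K, hK, hR⟩ := ih
      obtain ⟨Q, h0Q, h1Q, K₁, hK₁⟩ := hu N
      obtain ⟨BR, hBR, hbR⟩ := poly_bdd R
      let R' : MvPolynomial (Fin m) C := MvPolynomial.C c⁻¹ *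
        (1 - (Q - MvPolynomial.C c) * R)
      have h0Qc : MvPolynomial.coeff 0 (Q - MvPolynomial.C c) = 0 := by simp [h0Q]
      have h0' : MvPolynomial.coeff 0 R' = c⁻¹ := by
        simp only [R', MvPolynomial.coeff_C_mul, MvPolynomial.coeff_sub, mvpoly_coeff_zero_mul, h0Qc,
          MvPolynomial.coeff_zero_one]
        simp
      have h1' : ∀ k, MvPolynomial.coeff (Finsupp.single k 1) R' = ((-(c⁻¹ ^ 2)) • ℓ) k := by
        intro k
        have hne0 : (0 : Fin m →₀ ℕ) ≠ Finsupp.single k 1 := by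
          intro h
          have := DFunLike.congr_fun h k
          simp at this
        have hone : MvPolynomial.coeff (Finsupp.single k 1) (1 : MvPolynomial (Fin m) C) = 0 := by
          rw [MvPolynomial.coeff_one]; simp [hne0]
        simp only [R', MvPolynomial.coeff_C_mul, MvPolynomial.coeff_sub, mvpoly_coeff_single_mul, h0Qc,
          hone, h0R, h1Q, MvPolynomial.coeff_C, if_neg hne0, Pi.smul_apply, smul_eq_mul]
        ring
      refine ⟨R', h0', h1', ‖c⁻¹‖ * (|K₁| * BR + K₀ * K), by positivity, ?_⟩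
      filter_upwards [hne, hK₁, hbigO, hR, ev_norm_le_one hA] with δ hne' h1 h2 h3 h4
      have e : (u δ)⁻¹ - MvPolynomial.eval (A δ) R' =
          c⁻¹ * ((MvPolynomial.eval (A δ) Q - u δ) * MvPolynomial.eval (A δ) R +
            (u δ - c) * (MvPolynomial.eval (A δ) R - (u δ)⁻¹)) := by
        simp only [R', map_mul, map_sub, map_one, MvPolynomial.eval_C]
        field_simp
        ring
      rw [e, norm_mul]
      have hP : 0 ≤ ‖A δ‖ ^ (N + 1) := by positivity
      have h5 : ‖(MvPolynomial.eval (A δ) Q - u δ) * MvPolynomial.eval (A δ) R‖ ≤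
          (|K₁| * BR) * ‖A δ‖ ^ (N + 1) := by
        rw [norm_mul, norm_sub_rev]
        calc _ ≤ (|K₁| * ‖A δ‖ ^ (N + 1)) * BR :=
              mul_le_mul (h1.trans (mul_le_mul_of_nonneg_right (le_abs_self _) hP)) (hbR _ h4)
                (norm_nonneg _) (by positivity)
          _ = _ := by ring
      have h6 : ‖(u δ - c) * (MvPolynomial.eval (A δ) R - (u δ)⁻¹)‖ ≤
          (K₀ * K) * ‖A δ‖ ^ (N + 1) := by
        rw [norm_mul, norm_sub_rev (MvPolynomial.eval (A δ) R)]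
        calc _ ≤ (K₀ * ‖A δ‖) * (K * ‖A δ‖ ^ N) :=
              mul_le_mul h2 h3 (norm_nonneg _) (by positivity)
          _ = _ := by rw [pow_succ]; ring
      calc _ ≤ ‖c⁻¹‖ * ((|K₁| * BR) * ‖A δ‖ ^ (N + 1) + (K₀ * K) * ‖A δ‖ ^ (N + 1)) := by
            gcongr
            exact (norm_add_le _ _).trans (add_le_add h5 h6)
        _ = _ := by ring
  intro N
  obtain ⟨R, h0, h1, K, -, hK⟩ := key (N + 1)
  exact ⟨R, h0, h1, K, hK⟩

/-! ### Finite sums -/

omit [IsUltrametricDist C] [CompleteSpace C] in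
theorem Jet.sum {κ : Type*} (s : Finset κ) (f : κ → ι → C) (c : κ → C) (ℓ : κ → Fin m → C)
    (h : ∀ i ∈ s, Jet 𝓕 A (f i) (c i) (ℓ i)) :
    Jet 𝓕 A (fun δ => ∑ i ∈ s, f i δ) (∑ i ∈ s, c i) (∑ i ∈ s, ℓ i) := by
  classical
  induction s using Finset.induction_on with
  | empty => simpa using Jet.const' (𝓕 := 𝓕) (A := A) (0 : C)
  | insert a s ha ih =>
    simp only [Finset.sum_insert ha]
    exact (h a (Finset.mem_insert_self _ _)).add
      (ih (fun i hi => h i (Finset.mem_insert_of_mem hi)))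

/-! ### Monomials in jets with constant term zero -/

section Mono

variable {σ : Type} [Fintype σ] [DecidableEq σ]

omit [IsUltrametricDist C] [CompleteSpace C] [Fintype σ] [DecidableEq σ] in
theorem mono_add (a : σ → C) (d d' : σ →₀ ℕ) :
    (d + d').prod (fun i e => a i ^ e) =
      d.prod (fun i e => a i ^ e) * d'.prod (fun i e => a i ^ e) :=
  Finsupp.prod_add_index' (fun _ => pow_zero _) (fun _ _ _ => pow_add _ _ _)

omit [IsUltrametricDist C] [CompleteSpace C] [Fintype σ] [DecidableEq σ] in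
theorem mono_single (a : σ → C) (s : σ) (n : ℕ) :
    (Finsupp.single s n).prod (fun i e => a i ^ e) = a s ^ n :=
  Finsupp.prod_single_index (pow_zero _)

omit [IsUltrametricDist C] [CompleteSpace C] [Fintype σ] [DecidableEq σ] in
theorem jet_mono_nonzero (hA : Filter.Tendsto A 𝓕 (nhds 0)) (a : σ → ι → C) (ℓ : σ → Fin m → C)
    (ha : ∀ s, Jet 𝓕 A (a s) 0 (ℓ s)) (d : σ →₀ ℕ) :
    d ≠ 0 → ∃ ℓ', Jet 𝓕 A (fun δ => d.prod (fun i e => a i δ ^ e)) 0 ℓ' := by
  induction d using Finsupp.induction_linear with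
  | zero => exact fun h => absurd rfl h
  | add d d' hd hd' =>
    intro _
    by_cases h0 : d = 0
    · subst h0
      simp only [zero_add] at *
      exact hd' ‹_›
    by_cases h0' : d' = 0
    · subst h0'
      simp only [add_zero] at *
      exact hd h0
    obtain ⟨ℓ₁, h₁⟩ := hd h0
    obtain ⟨ℓ₂, h₂⟩ := hd' h0'
    refine ⟨(0 : C) • ℓ₂ + (0 : C) • ℓ₁, ?_⟩
    have := h₁.mul hA h₂
    simp only [mul_zero] at this
    have e : (fun δ => (d + d').prod (fun i e => a i δ ^ e)) =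
        fun δ => d.prod (fun i e => a i δ ^ e) * d'.prod (fun i e => a i δ ^ e) := by
      funext δ
      exact mono_add _ _ _
    rw [e]
    exact this
  | single s n =>
    intro hn
    have hn' : n ≠ 0 := by
      rintro rfl
      simp at hn
    refine ⟨((n : C) * 0 ^ (n - 1)) • ℓ s, ?_⟩
    have h := (ha s).pow hA n
    have e : (fun δ => (Finsupp.single s n).prod (fun i e => a i δ ^ e)) = fun δ => a s δ ^ n := by
      funext δ
      exact mono_single _ _ _
    rw [e]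
    rw [zero_pow hn'] at h
    exact h

omit [IsUltrametricDist C] [CompleteSpace C] [Fintype σ] [DecidableEq σ] in
theorem jet_mono_high (hA : Filter.Tendsto A 𝓕 (nhds 0)) (a : σ → ι → C) (ℓ : σ → Fin m → C)
    (ha : ∀ s, Jet 𝓕 A (a s) 0 (ℓ s)) (d : σ →₀ ℕ) (h0 : d ≠ 0)
    (h1 : ∀ s, d ≠ Finsupp.single s 1) :
    Jet 𝓕 A (fun δ => d.prod (fun i e => a i δ ^ e)) 0 0 := by
  obtain ⟨s, hs⟩ := Finsupp.ne_iff.1 h0
  have hle : Finsupp.single s 1 ≤ d := by
    rw [Finsupp.single_le_iff]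
    simp only [Finsupp.coe_zero, Pi.zero_apply] at hs
    omega
  have hd : Finsupp.single s 1 + (d - Finsupp.single s 1) = d := add_tsub_cancel_of_le hle
  have hd' : d - Finsupp.single s 1 ≠ 0 := by
    intro h
    rw [h, add_zero] at hd
    exact h1 s hd.symm
  obtain ⟨ℓ', hℓ'⟩ := jet_mono_nonzero hA a ℓ ha _ hd'
  have h2 := (ha s).mul hA hℓ'
  simp only [mul_zero, zero_smul, add_zero] at h2
  have e : (fun δ => d.prod (fun i e => a i δ ^ e)) =
      fun δ => a s δ * (d - Finsupp.single s 1).prod (fun i e => a i δ ^ e) := by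
    funext δ
    conv_lhs => rw [← hd]
    rw [mono_add, mono_single, pow_one]
  rw [e]
  exact h2

omit [IsUltrametricDist C] [CompleteSpace C] in
/-- The jet of a monomial in jets with vanishing constant term. -/
theorem jet_mono (hA : Filter.Tendsto A 𝓕 (nhds 0)) (a : σ → ι → C) (ℓ : σ → Fin m → C)
    (ha : ∀ s, Jet 𝓕 A (a s) 0 (ℓ s)) (d : σ →₀ ℕ) :
    Jet 𝓕 A (fun δ => d.prod (fun i e => a i δ ^ e)) (if d = 0 then 1 else 0)
      (fun k => ∑ s, if d = Finsupp.single s 1 then ℓ s k else 0) := by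
  by_cases h0 : d = 0
  · subst h0
    have hne : ∀ s : σ, (0 : σ →₀ ℕ) ≠ Finsupp.single s 1 := by
      intro s h
      have := DFunLike.congr_fun h s
      simp at this
    simp only [if_true, hne, if_false, Finset.sum_const_zero, Finsupp.prod_zero_index]
    exact Jet.const' (1 : C)
  by_cases h1 : ∃ s, d = Finsupp.single s 1
  · obtain ⟨s, rfl⟩ := h1
    have e : (fun δ => (Finsupp.single s 1).prod (fun i e => a i δ ^ e)) = a s := by
      funext δ
      rw [mono_single, pow_one]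
    have e2 : (fun k => ∑ s', if Finsupp.single s 1 = Finsupp.single s' 1 then ℓ s' k else 0) = ℓ s := by
      funext k
      rw [Finset.sum_eq_single s]
      · simp
      · intro j _ hj
        have : Finsupp.single s 1 ≠ Finsupp.single j 1 := by
          intro h'
          exact hj ((Finsupp.single_left_inj one_ne_zero).1 h').symm
        simp [this]
      · simp
    rw [e, e2, if_neg h0]
    exact ha s
  · push Not at h1
    have e2 : (fun k => ∑ s', if d = Finsupp.single s' 1 then ℓ s' k else 0) = 0 := by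
      funext k
      simp [h1]
    rw [e2, if_neg h0]
    exact jet_mono_high hA a ℓ ha d h0 h1

omit [IsUltrametricDist C] [CompleteSpace C] in
/-- The jet of a truncated series in jets with vanishing constant term. -/
theorem jet_trunc (hA : Filter.Tendsto A 𝓕 (nhds 0)) (a : σ → ι → C) (ℓ : σ → Fin m → C)
    (ha : ∀ s, Jet 𝓕 A (a s) 0 (ℓ s)) (t : (σ →₀ ℕ) → C) (S : Finset (σ →₀ ℕ))
    (h0 : (0 : σ →₀ ℕ) ∈ S) (h1 : ∀ s, Finsupp.single s 1 ∈ S) :
    Jet 𝓕 A (fun δ => ∑ d ∈ S, t d * d.prod (fun i e => a i δ ^ e)) (t 0)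
      (fun k => ∑ s, t (Finsupp.single s 1) * ℓ s k) := by
  have h := Jet.sum (𝓕 := 𝓕) (A := A) S
    (fun d δ => t d * d.prod (fun i e => a i δ ^ e))
    (fun d => t d * (if d = 0 then 1 else 0))
    (fun d => t d • (fun k => ∑ s, if d = Finsupp.single s 1 then ℓ s k else 0) +
      (if d = 0 then (1 : C) else 0) • (0 : Fin m → C))
    (fun d _ => by
      have h2 := (Jet.const' (𝓕 := 𝓕) (A := A) (t d)).mul hA (jet_mono hA a ℓ ha d)
      exact h2)
  have e1 : ∑ d ∈ S, t d * (if d = 0 then 1 else 0) = t 0 := by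
    simp [h0]
  have e2 : (∑ d ∈ S, (t d • (fun k => ∑ s, if d = Finsupp.single s 1 then ℓ s k else 0) +
      (if d = 0 then (1 : C) else 0) • (0 : Fin m → C))) =
      fun k => ∑ s, t (Finsupp.single s 1) * ℓ s k := by
    funext k
    simp only [smul_zero, add_zero, Finset.sum_apply, Pi.smul_apply, smul_eq_mul, Finset.mul_sum]
    rw [Finset.sum_comm]
    refine Finset.sum_congr rfl (fun s _ => ?_)
    rw [Finset.sum_eq_single (Finsupp.single s 1)]
    · simp
    · intro d _ hd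
      simp [hd]
    · intro h'
      exact absurd (h1 s) h'
  rw [e1, e2] at h
  exact h

end Mono

/-- **Composition with a fixed integral series.** `G ∈ 𝒪_C[[Y_s]]`, each `u s` has a jet with constant term `c s`,
`‖c s‖ < 1`. Then `G(u)` has a jet with constant term `G(c)` and linear part `∑_s (∂_s G)(c) ℓ_s`.
Proof: `taylorAt G c`, truncate at degree `N` (tail `≤ (max ‖u s - c s‖)^(N+1) ≤ K ‖A‖^(N+1)`), polynomial
closure. -/
theorem Jet.evMv {σ : Type} [Fintype σ] [DecidableEq σ] (hA : Filter.Tendsto A 𝓕 (nhds 0))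
    (G : MvPowerSeries σ (OC C)) (u : σ → ι → C) (c : σ → C) (ℓ : σ → Fin m → C)
    (hc : ∀ s, ‖c s‖ < 1) (hu : ∀ s, Jet 𝓕 A (u s) (c s) (ℓ s)) :
    Jet 𝓕 A (fun δ => Crest.Agent.LT.evMv G (fun s => u s δ)) (Crest.Agent.LT.evMv G c)
      (fun k => ∑ s, Crest.Agent.LT.evMv (mvDeriv s G) c * ℓ s k) := by
  classical
  intro N
  set T := taylorAt G c hc with hT
  -- the differences
  let a : σ → ι → C := fun s δ => u s δ - c s
  have ha : ∀ s, Jet 𝓕 A (a s) 0 (ℓ s) := by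
    intro s
    have := (hu s).sub (Jet.const' (𝓕 := 𝓕) (A := A) (c s))
    simpa using this
  -- uniform bound
  have hbig : ∀ s, ∃ K : ℝ, 0 ≤ K ∧ ∀ᶠ δ in 𝓕, ‖a s δ‖ ≤ K * ‖A δ‖ := fun s => (hu s).sub_bigO hA
  choose K hK0 hK using hbig
  let K₀ : ℝ := ∑ s, K s
  have hK₀ : 0 ≤ K₀ := Finset.sum_nonneg (fun s _ => hK0 s)
  have hunif : ∀ᶠ δ in 𝓕, ∀ s, ‖a s δ‖ ≤ K₀ * ‖A δ‖ := by
    rw [Filter.eventually_all]
    intro s
    filter_upwards [hK s] with δ hδ
    refine hδ.trans ?_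
    gcongr
    exact Finset.single_le_sum (f := K) (fun s _ => hK0 s) (Finset.mem_univ s)
  -- smallness of `r = K₀ ‖A‖`
  have hsmall : ∀ᶠ δ in 𝓕, K₀ * ‖A δ‖ < 1 := by
    have h : Filter.Tendsto (fun δ => K₀ * ‖A δ‖) 𝓕 (nhds 0) := by
      have h' : Filter.Tendsto (fun δ => ‖A δ‖) 𝓕 (nhds 0) := by simpa using hA.norm
      simpa using h'.const_mul K₀
    exact h.eventually (Iio_mem_nhds zero_lt_one)
  -- truncation
  have hfin := Finsupp.finite_of_degree_le (σ := σ) (N + 1)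
  let S : Finset (σ →₀ ℕ) := hfin.toFinset
  have hS0 : (0 : σ →₀ ℕ) ∈ S := by
    simp [S]
  have hS1 : ∀ s, Finsupp.single s 1 ∈ S := by
    intro s
    simp [S]
  have htrunc := jet_trunc hA a ℓ ha (fun d => cf T d) S hS0 hS1
  obtain ⟨Q, hQ0, hQ1, K₂, hK₂⟩ := htrunc N
  refine ⟨Q, ?_, ?_, K₂ + K₀ ^ (N + 1), ?_⟩
  · rw [hQ0]
    exact constantCoeff_taylorAt G c hc
  · intro k
    rw [hQ1 k]
    refine Finset.sum_congr rfl (fun s _ => ?_)
    rw [coeff_single_taylorAt G c hc s]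
  · filter_upwards [hK₂, hunif, hsmall] with δ h1 h2 h3
    set r := K₀ * ‖A δ‖ with hr
    have hr0 : 0 ≤ r := by positivity
    have hlt : ∀ s, ‖a s δ‖ < 1 := fun s => (h2 s).trans_lt h3
    have e : Crest.Agent.LT.evMv G (fun s => u s δ) =
        Crest.Agent.LT.evMv T (fun s => a s δ) := by
      rw [hT, evMv_taylorAt G c hc (fun s => a s δ) hlt]
      congr 1
      funext s
      simp [a]
    have h4 := norm_evMv_sub_trunc_le T (N + 1) (fun s => a s δ) r hr0 h3 h2
    rw [finsum_mem_eq_finite_toFinset_sum _ hfin] at h4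
    rw [e]
    have h5 : ‖Crest.Agent.LT.evMv T (fun s => a s δ) - MvPolynomial.eval (A δ) Q‖ ≤
        ‖Crest.Agent.LT.evMv T (fun s => a s δ) -
            ∑ d ∈ S, cf T d * d.prod (fun i e => a i δ ^ e)‖ +
          ‖∑ d ∈ S, cf T d * d.prod (fun i e => a i δ ^ e) - MvPolynomial.eval (A δ) Q‖ := by
      exact norm_sub_le_norm_sub_add_norm_sub _ _ _
    refine h5.trans ?_
    have h6 : r ^ (N + 1 + 1) ≤ K₀ ^ (N + 1) * ‖A δ‖ ^ (N + 1) := by
      rw [← mul_pow]
      exact pow_le_pow_of_le_one hr0 h3.le (by omega)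
    rw [add_mul, add_comm]
    exact add_le_add h1 (h4.trans h6)

omit [IsUltrametricDist C] [CompleteSpace C] in
/-- **Artin-Schreier lemma.** Characteristic `p`, `P = p^h`, `h ≥ 1`. If `u → 0` and eventually
`u = α + β u^P`, where `α` has a jet with constant term `0` and `β` has a jet, then `u` has a jet with
constant term `0` and linear part that of `α`. Proof: eventually `‖β‖ ‖u‖^(P-1) ≤ 1/2`, so `‖u‖ ≤ 2‖α‖ = O(‖A‖)`;
if `u = Q + O(‖A‖^(N+1))`, `Q = O(‖A‖)`, then `u^P = Q^P + O(‖A‖^(P(N+1)))`, since `(Q + e)^P = Q^P + e^P`, so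
`α + β u^P` is a polynomial up to `O(‖A‖^(N+2))`; its linear part is that of `α` since `Q^P` has order `≥ 2`
(and the constant term is `0`). -/
theorem Jet.artin_schreier (p h : ℕ) [Fact p.Prime] [CharP C p] (hh : 1 ≤ h)
    (hA : Filter.Tendsto A 𝓕 (nhds 0)) (hu0 : Filter.Tendsto u 𝓕 (nhds 0))
    (hu : ∀ᶠ δ in 𝓕, u δ = α δ + β δ * u δ ^ (p ^ h))
    (hα : Jet 𝓕 A α 0 ℓ) (b : C) (ℓb : Fin m → C) (hβ : Jet 𝓕 A β b ℓb) : Jet 𝓕 A u 0 ℓ := by
  classical
  have hpp : p.Prime := Fact.out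
  set P := p ^ h with hP
  have hP2 : 2 ≤ P := by
    calc 2 ≤ p := hpp.two_le
      _ = p ^ 1 := (pow_one p).symm
      _ ≤ p ^ h := Nat.pow_le_pow_right hpp.pos hh
  -- `β u^(P-1)` is small
  have hβt := hβ.tendsto hA
  have hsmall : ∀ᶠ δ in 𝓕, ‖β δ‖ * ‖u δ‖ ^ (P - 1) < 1 / 2 := by
    have h1 : Filter.Tendsto (fun δ => β δ * u δ ^ (P - 1)) 𝓕 (nhds (b * 0 ^ (P - 1))) :=
      hβt.mul (hu0.pow _)
    have h2 : (0 : C) ^ (P - 1) = 0 := zero_pow (by omega)
    rw [h2, mul_zero] at h1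
    have h3 := h1.norm
    rw [norm_zero] at h3
    have h4 := h3.eventually (Iio_mem_nhds (by norm_num : (0 : ℝ) < 1 / 2))
    filter_upwards [h4] with δ hδ
    simpa [norm_mul, norm_pow] using hδ
  obtain ⟨K₀, hK₀, hα0⟩ := hα.sub_bigO hA
  simp only [sub_zero] at hα0
  -- `u = O(‖A‖)`
  have hbig : ∀ᶠ δ in 𝓕, ‖u δ‖ ≤ (2 * K₀) * ‖A δ‖ := by
    filter_upwards [hsmall, hu, hα0] with δ h1 h2 h3
    have h4 : ‖u δ‖ ≤ ‖α δ‖ + ‖β δ‖ * ‖u δ‖ ^ (P - 1) * ‖u δ‖ := by
      conv_lhs => rw [h2]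
      refine (norm_add_le _ _).trans ?_
      have : β δ * u δ ^ P = (β δ * u δ ^ (P - 1)) * u δ := by
        rw [mul_assoc, ← pow_succ, Nat.sub_add_cancel (by omega)]
      rw [this, norm_mul, norm_mul, norm_pow]
    have h5 : ‖β δ‖ * ‖u δ‖ ^ (P - 1) * ‖u δ‖ ≤ (1 / 2) * ‖u δ‖ :=
      mul_le_mul_of_nonneg_right h1.le (norm_nonneg _)
    nlinarith
  -- induction on the order
  have key : ∀ N : ℕ, ∃ Q : MvPolynomial (Fin m) C,
      MvPolynomial.coeff 0 Q = 0 ∧ (∀ k, MvPolynomial.coeff (Finsupp.single k 1) Q = ℓ k) ∧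
      ∃ K : ℝ, 0 ≤ K ∧ ∀ᶠ δ in 𝓕, ‖u δ - MvPolynomial.eval (A δ) Q‖ ≤ K * ‖A δ‖ ^ (N + 1) := by
    intro N
    induction N with
    | zero =>
      -- the linear polynomial
      let Q₀ : MvPolynomial (Fin m) C := ∑ k, MvPolynomial.C (ℓ k) * MvPolynomial.X k
      have h0 : MvPolynomial.coeff 0 Q₀ = 0 := by
        simp [Q₀, MvPolynomial.coeff_sum, MvPolynomial.coeff_C_mul]
      have h1 : ∀ k, MvPolynomial.coeff (Finsupp.single k 1) Q₀ = ℓ k := by
        intro k
        simp only [Q₀, MvPolynomial.coeff_sum, MvPolynomial.coeff_C_mul]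
        rw [Finset.sum_eq_single k]
        · simp [MvPolynomial.coeff_X]
        · intro j _ hj
          have : Finsupp.single j 1 ≠ Finsupp.single k 1 := by
            intro h'
            exact hj ((Finsupp.single_left_inj one_ne_zero).1 h')
          simp [MvPolynomial.coeff_X, this]
        · simp
      obtain ⟨K₁, hK₁, hb⟩ := poly_bound Q₀
      rw [h0] at hb
      refine ⟨Q₀, h0, h1, 2 * K₀ + K₁, by positivity, ?_⟩
      filter_upwards [hbig, ev_norm_le_one hA] with δ h2 h3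
      have := hb _ h3
      rw [sub_zero] at this
      rw [zero_add, pow_one, add_mul]
      exact (norm_sub_le _ _).trans (add_le_add h2 this)
    | succ N ih =>
      obtain ⟨Q, h0Q, h1Q, K, hK, hQ⟩ := ih
      obtain ⟨Qa, h0a, h1a, Ka, hKa⟩ := hα (N + 1)
      obtain ⟨Qb, h0b, h1b, Kb, hKb⟩ := hβ (N + 1)
      obtain ⟨Bb, hBb, hbb⟩ := poly_bdd Qb
      let Q' : MvPolynomial (Fin m) C := Qa + Qb * Q ^ P
      -- coefficients of powers
      have hpow0 : ∀ e : ℕ, MvPolynomial.coeff 0 (Q ^ (e + 1)) = 0 := by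
        intro e
        rw [pow_succ, mvpoly_coeff_zero_mul, h0Q, mul_zero]
      have hpow1 : ∀ (e : ℕ) (k : Fin m),
          MvPolynomial.coeff (Finsupp.single k 1) (Q ^ (e + 2)) = 0 := by
        intro e k
        rw [pow_succ, mvpoly_coeff_single_mul, hpow0, h0Q]
        ring
      obtain ⟨e, he⟩ : ∃ e, P = e + 2 := ⟨P - 2, by omega⟩
      have h0' : MvPolynomial.coeff 0 Q' = 0 := by
        simp only [Q', MvPolynomial.coeff_add, mvpoly_coeff_zero_mul, h0a, he]
        rw [show e + 2 = (e + 1) + 1 from rfl, hpow0]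
        ring
      have h1' : ∀ k, MvPolynomial.coeff (Finsupp.single k 1) Q' = ℓ k := by
        intro k
        simp only [Q', MvPolynomial.coeff_add, mvpoly_coeff_single_mul, h1a, he]
        rw [hpow1, show e + 2 = (e + 1) + 1 from rfl, hpow0]
        ring
      have hP1 : 1 ≤ P := by omega
      -- bound on `u^P`
      have hbdu : ∀ᶠ δ in 𝓕, ‖u δ‖ ≤ 1 := by
        have := ev_norm_bdd_of_tendsto hu0
        have h4 := hu0.norm
        rw [norm_zero] at h4
        filter_upwards [h4.eventually (Iic_mem_nhds zero_lt_one)] with δ hδ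
        exact hδ
      refine ⟨Q', h0', h1', |Ka| + |Kb| + Bb * K ^ P, by positivity, ?_⟩
      filter_upwards [hu, hKa, hKb, hQ, ev_norm_le_one hA, hbdu] with δ h1 h2 h3 h4 h5 h6
      set a := ‖A δ‖ with ha
      have ha0 : 0 ≤ a := norm_nonneg _
      have hpw : 0 ≤ a ^ (N + 1 + 1) := by positivity
      -- Frobenius
      set E := u δ - MvPolynomial.eval (A δ) Q with hE
      have hfrob : u δ ^ P = MvPolynomial.eval (A δ) Q ^ P + E ^ P := by
        have : u δ = MvPolynomial.eval (A δ) Q + E := by rw [hE]; ring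
        conv_lhs => rw [this]
        rw [hP, add_pow_char_pow]
      have e1 : u δ - MvPolynomial.eval (A δ) Q' =
          (α δ - MvPolynomial.eval (A δ) Qa) + (β δ - MvPolynomial.eval (A δ) Qb) * u δ ^ P +
            MvPolynomial.eval (A δ) Qb * E ^ P := by
        have h7 : MvPolynomial.eval (A δ) Q' = MvPolynomial.eval (A δ) Qa +
            MvPolynomial.eval (A δ) Qb * MvPolynomial.eval (A δ) Q ^ P := by
          simp only [Q', map_add, map_mul, map_pow]
        rw [h7]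
        conv_lhs => rw [h1]
        rw [hfrob]
        ring
      rw [e1]
      refine (norm_add_le _ _).trans ?_
      have h8 : ‖(α δ - MvPolynomial.eval (A δ) Qa) + (β δ - MvPolynomial.eval (A δ) Qb) * u δ ^ P‖ ≤
          (|Ka| + |Kb|) * a ^ (N + 1 + 1) := by
        refine (norm_add_le _ _).trans ?_
        rw [norm_mul, norm_pow, add_mul]
        refine add_le_add (h2.trans (mul_le_mul_of_nonneg_right (le_abs_self _) hpw)) ?_
        have h9 : ‖u δ‖ ^ P ≤ 1 := pow_le_one₀ (norm_nonneg _) h6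
        calc _ ≤ (|Kb| * a ^ (N + 1 + 1)) * 1 :=
              mul_le_mul (h3.trans (mul_le_mul_of_nonneg_right (le_abs_self _) hpw)) h9
                (by positivity) (by positivity)
          _ = _ := mul_one _
      have h10 : ‖MvPolynomial.eval (A δ) Qb * E ^ P‖ ≤ (Bb * K ^ P) * a ^ (N + 1 + 1) := by
        rw [norm_mul, norm_pow, mul_assoc]
        refine mul_le_mul (hbb _ h5) ?_ (by positivity) hBb
        calc ‖E‖ ^ P ≤ (K * a ^ (N + 1)) ^ P := pow_le_pow_left₀ (norm_nonneg _) h4 _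
          _ = K ^ P * a ^ ((N + 1) * P) := by rw [mul_pow, pow_mul]
          _ ≤ K ^ P * a ^ (N + 1 + 1) := by
            gcongr ?_ * ?_
            refine pow_le_pow_of_le_one ha0 h5 ?_
            nlinarith
      calc _ ≤ (|Ka| + |Kb|) * a ^ (N + 1 + 1) + (Bb * K ^ P) * a ^ (N + 1 + 1) := add_le_add h8 h10
        _ = _ := by ring
  intro N
  obtain ⟨Q, h0, h1, K, -, hK⟩ := key N
  exact ⟨Q, h0, h1, K, hK⟩

/-- **Flattening**: a series over `S = 𝒪_C[[A]]` in the variables `τ'` as a series over `𝒪_C` in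
`A, τ'`: `coeff (d ⊕ e) (flat Φ) = coeff d (coeff e Φ)`. -/
def flat {σ τ' : Type} (Φ : MvPowerSeries τ' (MvPowerSeries σ (OC C))) :
    MvPowerSeries (σ ⊕ τ') (OC C) :=
  fun D => MvPowerSeries.coeff (Finsupp.sumFinsuppEquivProdFinsupp D).1
    (MvPowerSeries.coeff (Finsupp.sumFinsuppEquivProdFinsupp D).2 Φ)

omit [NontriviallyNormedField C] [IsUltrametricDist C] [CompleteSpace C] in
theorem coeff_flat {C : Type} [NontriviallyNormedField C] [IsUltrametricDist C]
    {σ τ' : Type} (Φ : MvPowerSeries τ' (MvPowerSeries σ (OC C)))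
    (D : σ ⊕ τ' →₀ ℕ) :
    MvPowerSeries.coeff D (flat Φ) = MvPowerSeries.coeff (Finsupp.sumFinsuppEquivProdFinsupp D).1
      (MvPowerSeries.coeff (Finsupp.sumFinsuppEquivProdFinsupp D).2 Φ) := rfl

/-- `(flat Φ)(a, y) = (Φ with coefficients evaluated at a)(y)`. -/
theorem evMv_flat {σ τ' : Type} [Fintype σ] [Fintype τ'] (Φ : MvPowerSeries τ' (MvPowerSeries σ (OC C)))
    (a : σ → C) (ha : ∀ i, ‖a i‖ < 1) (y : τ' → C) (hy : ∀ i, ‖y i‖ < 1) :
    Crest.Agent.LT.evMv (flat Φ) (Sum.elim a y) =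
      Crest.Agent.LT.evMv (MvPowerSeries.map (evHom a ha) Φ) y := by
  classical
  have hae : ∀ i, ‖(Sum.elim a y) i‖ < 1 := by
    rintro (i | i)
    · exact ha i
    · exact hy i
  have hsum := summable_evMv (flat Φ) (Sum.elim a y) hae
  -- the reindexing
  let E : (σ ⊕ τ' →₀ ℕ) ≃ (τ' →₀ ℕ) × (σ →₀ ℕ) :=
    Finsupp.sumFinsuppEquivProdFinsupp.trans (Equiv.prodComm _ _)
  let g : (τ' →₀ ℕ) × (σ →₀ ℕ) → C := fun c =>
    cf (MvPowerSeries.coeff c.1 Φ) c.2 * c.2.prod (fun i e => a i ^ e) * c.1.prod (fun i e => y i ^ e)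
  have hprod : ∀ D : σ ⊕ τ' →₀ ℕ, D.prod (fun i e => (Sum.elim a y) i ^ e) =
      (E D).2.prod (fun i e => a i ^ e) * (E D).1.prod (fun i e => y i ^ e) := by
    intro D
    rw [Finsupp.prod_fintype _ _ (fun _ => pow_zero _), Finsupp.prod_fintype _ _ (fun _ => pow_zero _),
      Finsupp.prod_fintype _ _ (fun _ => pow_zero _), Fintype.prod_sum_type]
    rfl
  have hfg : ∀ D : σ ⊕ τ' →₀ ℕ, cf (flat Φ) D * D.prod (fun i e => (Sum.elim a y) i ^ e) = g (E D) := by
    intro D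
    rw [hprod, ← mul_assoc]
    rfl
  have hsum' : Summable g := by
    have : Summable (g ∘ E) := by
      refine hsum.congr (fun D => ?_)
      exact hfg D
    exact (E.summable_iff).1 this
  have h1 : Crest.Agent.LT.evMv (flat Φ) (Sum.elim a y) = ∑' c, g c := by
    unfold Crest.Agent.LT.evMv
    rw [← E.tsum_eq g]
    exact tsum_congr hfg
  rw [h1, hsum'.tsum_prod' (fun e => ?_)]
  · unfold Crest.Agent.LT.evMv
    refine tsum_congr (fun e => ?_)
    have hmap : cf (MvPowerSeries.map (evHom a ha) Φ) e =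
        Crest.Agent.LT.evMv (MvPowerSeries.coeff e Φ) a := by
      simp only [cf]
      rw [MvPowerSeries.coeff_map, coe_evHom]
    simp only [g]
    rw [tsum_mul_right, hmap]
    rfl
  · have h := (summable_evMv (MvPowerSeries.coeff e Φ) a ha).mul_right (e.prod fun i e => y i ^ e)
    simpa only [g] using h

end

end Crest.Agent.LT
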