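/-
S0351 package CHARP/ORTH: abstract lemma: orthogonal bases of a normed `ℤ_p`-lattice.
No formal groups. See BLUEPRINT.md §CP2.
-/
import Mathlib

set_option autoImplicit false

namespace Crest.Agent.LT

noncomputable section

/-- A "lattice norm": `ν` on an abelian group `Λ` with `ν(p x) = ν(x)^q`. (Here `Λ = ker π`,
`ν = ‖·‖`, `q = p^n`.) -/
structure LatticeNorm {Λ : Type*} [AddCommGroup Λ] (p q : ℕ) (ν : Λ → ℝ) (r : ℝ) : Prop where
  nonneg : ∀ x, 0 ≤ ν x
  eq_zero : ∀ x, ν x = 0 ↔ x = 0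
  add_le : ∀ x y, ν (x + y) ≤ max (ν x) (ν y)
  neg : ∀ x, ν (-x) = ν x
  smul_coprime : ∀ (a : ℕ) (x : Λ), Nat.Coprime a p → ν (a • x) = ν x
  smul_p : ∀ x, ν (p • x) = ν x ^ q
  le_r : ∀ x, ν x ≤ r
  r1 : r < 1
  /-- elements outside `pΛ` are not small -/
  lower : ∃ ρ₀ : ℝ, 0 < ρ₀ ∧ ∀ x : Λ, (∀ y : Λ, x ≠ p • y) → ρ₀ ≤ ν x

namespace LatticeNorm

variable {Λ : Type*} [AddCommGroup Λ] {p q m : ℕ} {ν : Λ → ℝ} {r : ℝ}

theorem nu_zero (h : LatticeNorm p q ν r) : ν 0 = 0 := (h.eq_zero 0).mpr rfl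

theorem r_nonneg (h : LatticeNorm p q ν r) : 0 ≤ r := by
  have := h.le_r 0
  rwa [h.nu_zero] at this

theorem add_eq_of_lt (h : LatticeNorm p q ν r) {x y : Λ} (hxy : ν y < ν x) : ν (x + y) = ν x := by
  apply le_antisymm
  · exact (h.add_le x y).trans (max_le le_rfl hxy.le)
  · by_contra hlt
    push Not at hlt
    have h1 := h.add_le (x + y) (-y)
    rw [add_neg_cancel_right, h.neg] at h1
    exact absurd h1 (not_le.mpr (max_lt hlt hxy))

theorem sum_le (h : LatticeNorm p q ν r) {ι : Type*} (s : Finset ι) (f : ι → Λ) (M : ℝ)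
    (hM : 0 ≤ M) (hf : ∀ i ∈ s, ν (f i) ≤ M) : ν (∑ i ∈ s, f i) ≤ M := by
  classical
  induction s using Finset.induction_on with
  | empty => simpa [h.nu_zero] using hM
  | insert a s ha ih =>
    rw [Finset.sum_insert ha]
    exact (h.add_le _ _).trans (max_le (hf a (Finset.mem_insert_self _ _))
      (ih fun i hi => hf i (Finset.mem_insert_of_mem hi)))

theorem smul_pow (h : LatticeNorm p q ν r) (t : ℕ) (u : Λ) : ν ((p ^ t) • u) = ν u ^ (q ^ t) := by
  induction t with
  | zero => simp
  | succ t ih =>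
    rw [pow_succ', mul_smul, h.smul_p, ih, ← pow_mul, pow_succ]

/-- Finitely many representatives modulo `p^t`. -/
theorem exists_reps (R₁ : Set Λ) (hR₁ : R₁.Finite) (h1 : ∀ z : Λ, ∃ ρ ∈ R₁, ∃ u : Λ, z = ρ + p • u)
    (t : ℕ) : ∃ S : Set Λ, S.Finite ∧ ∀ z : Λ, ∃ ρ ∈ S, ∃ u : Λ, z = ρ + (p ^ t) • u := by
  induction t with
  | zero => exact ⟨{0}, Set.finite_singleton 0, fun z => ⟨0, rfl, z, by simp⟩⟩
  | succ t ih =>
    obtain ⟨S, hS, hS'⟩ := ih
    refine ⟨Set.image2 (fun ρ r => ρ + (p ^ t) • r) S R₁, Set.Finite.image2 _ hS hR₁, fun z => ?_⟩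
    obtain ⟨ρ, hρ, u, rfl⟩ := hS' z
    obtain ⟨r', hr', u', rfl⟩ := h1 u
    refine ⟨_, Set.mem_image2_of_mem hρ hr', u', ?_⟩
    rw [smul_add, pow_succ, mul_smul, add_assoc]

end LatticeNorm

/-- Independence modulo `p`. -/
def IndepMod {Λ : Type*} [AddCommGroup Λ] (p : ℕ) {m : ℕ} (x : Fin m → Λ) : Prop :=
  ∀ a : Fin m → ℕ, (∃ y : Λ, ∑ i, a i • x i = p • y) → ∀ i, p ∣ a i

theorem exists_indep_elementary_aux {V : Type*} [AddCommGroup V] (p m : ℕ) [Fact p.Prime]
    [Module (ZMod p) V] [Finite V] (hcard : Nat.card V = p ^ m) :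
    ∃ b : Fin m → V, ∀ a : Fin m → ℕ, ∑ i, a i • b i = 0 → ∀ i, p ∣ a i := by
  classical
  have hp : p.Prime := Fact.out
  haveI : Fintype V := Fintype.ofFinite V
  haveI : Module.Finite (ZMod p) V := Module.Finite.of_finite
  have hfr : Module.finrank (ZMod p) V = m := by
    have h1 := Module.card_eq_pow_finrank (K := ZMod p) (V := V)
    rw [ZMod.card] at h1
    have h2 : Fintype.card V = p ^ m := by
      rw [← Nat.card_eq_fintype_card]
      exact hcard
    rw [h2] at h1
    exact (Nat.pow_right_injective hp.two_le h1).symm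
  have b0 := Module.finBasis (ZMod p) V
  have b := b0.reindex (finCongr hfr)
  refine ⟨fun i => b i, fun a ha i => ?_⟩
  have h3 : ∑ j, ((a j : ℕ) : ZMod p) • b j = 0 := by
    simpa only [Nat.cast_smul_eq_nsmul] using ha
  have h6 := (Module.Basis.linearIndependent b)
  have h7 := Fintype.linearIndependent_iff.mp h6 (fun j => ((a j : ℕ) : ZMod p)) h3 i
  exact (ZMod.natCast_eq_zero_iff _ _).mp h7

/-- A finite group of exponent `p` and order `p^m` has `m` independent elements. -/
theorem exists_indep_elementary {V : Type*} [AddCommGroup V] (p m : ℕ) [Fact p.Prime]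
    (hcard : Nat.card V = p ^ m) (hpV : ∀ v : V, p • v = 0) :
    ∃ b : Fin m → V, ∀ a : Fin m → ℕ, ∑ i, a i • b i = 0 → ∀ i, p ∣ a i := by
  have hp : p.Prime := Fact.out
  have hfin : Finite V := Nat.finite_of_card_ne_zero (by
    rw [hcard]; exact pow_ne_zero _ hp.ne_zero)
  letI : Module (ZMod p) V := AddCommGroup.zmodModule hpV
  exact exists_indep_elementary_aux p m hcard

/-- An independent tuple exists. -/
theorem exists_indepMod {Λ : Type*} [AddCommGroup Λ] (p m : ℕ) [Fact p.Prime]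
    (hcard : Nat.card (Λ ⧸ (nsmulAddMonoidHom (α := Λ) p).range) = p ^ m) :
    ∃ x : Fin m → Λ, IndepMod p x := by
  classical
  have hpV : ∀ v : Λ ⧸ (nsmulAddMonoidHom (α := Λ) p).range, p • v = 0 := by
    intro v
    induction v using QuotientAddGroup.induction_on with
    | H z =>
      rw [← QuotientAddGroup.mk_nsmul]
      exact (QuotientAddGroup.eq_zero_iff _).mpr ⟨z, rfl⟩
  obtain ⟨b, hb⟩ := exists_indep_elementary p m hcard hpV
  refine ⟨fun i => Quotient.out (b i), ?_⟩
  rintro a ⟨y, hy⟩ i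
  apply hb a
  have h4 : ∀ j, (QuotientAddGroup.mk (Quotient.out (b j)) :
      Λ ⧸ (nsmulAddMonoidHom (α := Λ) p).range) = b j := fun j => QuotientAddGroup.out_eq' (b j)
  have h5 : (QuotientAddGroup.mk (∑ j, a j • Quotient.out (b j)) :
      Λ ⧸ (nsmulAddMonoidHom (α := Λ) p).range) = 0 := by
    rw [hy]
    exact (QuotientAddGroup.eq_zero_iff _).mpr ⟨y, rfl⟩
  rw [QuotientAddGroup.mk_sum] at h5
  simpa only [QuotientAddGroup.mk_nsmul, h4] using h5

/-- A tuple minimising the total norm among all independent tuples exists. -/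
theorem exists_min_indep {Λ : Type*} [AddCommGroup Λ] (p q m : ℕ) [Fact p.Prime] (hq : 2 ≤ q)
    (ν : Λ → ℝ) (r : ℝ) (hν : LatticeNorm p q ν r)
    (hcard : Nat.card (Λ ⧸ (nsmulAddMonoidHom (α := Λ) p).range) = p ^ m) :
    ∃ x : Fin m → Λ, IndepMod p x ∧ ∀ x' : Fin m → Λ, IndepMod p x' →
      ∑ i, ν (x i) ≤ ∑ i, ν (x' i) := by
  classical
  have hp : p.Prime := Fact.out
  obtain ⟨ρ₀, hρ₀, hlow⟩ := hν.lower
  have hr0 := hν.r_nonneg
  have hr1 := hν.r1
  -- a depth `t`
  obtain ⟨n₀, hn₀⟩ : ∃ n₀ : ℕ, r ^ n₀ < ρ₀ := exists_pow_lt_of_lt_one hρ₀ hr1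
  have hq1 : 1 < q := by omega
  have hle : n₀ ≤ q ^ (n₀ + 1) := by
    have h1 : n₀ + 1 < q ^ (n₀ + 1) := Nat.lt_pow_self hq1
    omega
  set t := n₀ + 1 with ht
  have hsmall : ∀ u : Λ, ν ((p ^ t) • u) < ρ₀ := by
    intro u
    rw [hν.smul_pow]
    calc ν u ^ (q ^ t) ≤ r ^ (q ^ t) := pow_le_pow_left₀ (hν.nonneg u) (hν.le_r u) _
      _ ≤ r ^ n₀ := pow_le_pow_of_le_one hr0 hr1.le hle
      _ < ρ₀ := hn₀
  -- representatives
  let s : AddSubgroup Λ := (nsmulAddMonoidHom (α := Λ) p).range
  have hfin : Finite (Λ ⧸ s) := Nat.finite_of_card_ne_zero (by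
    change Nat.card (Λ ⧸ (nsmulAddMonoidHom (α := Λ) p).range) ≠ 0
    rw [hcard]; exact pow_ne_zero _ hp.ne_zero)
  let R₁ : Set Λ := Set.range fun v : Λ ⧸ s => Quotient.out v
  have hR₁ : R₁.Finite := Set.finite_range _
  have hR₁' : ∀ z : Λ, ∃ ρ ∈ R₁, ∃ u : Λ, z = ρ + p • u := by
    intro z
    refine ⟨Quotient.out (z : Λ ⧸ s), ⟨_, rfl⟩, ?_⟩
    have h1 : ((Quotient.out (z : Λ ⧸ s) : Λ) : Λ ⧸ s) = (z : Λ ⧸ s) :=
      QuotientAddGroup.out_eq' _
    have h2 := QuotientAddGroup.eq.mp h1
    obtain ⟨u, hu⟩ := h2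
    refine ⟨u, ?_⟩
    have hu' : p • u = -Quotient.out (z : Λ ⧸ s) + z := hu
    rw [hu']
    abel
  obtain ⟨S, hS, hS'⟩ := LatticeNorm.exists_reps (p := p) R₁ hR₁ hR₁' t
  choose rep hrep u hu using hS'
  -- reduction of an independent tuple to representatives
  have hred : ∀ x' : Fin m → Λ, IndepMod p x' → IndepMod p (fun i => rep (x' i)) := by
    intro x' hx' a ⟨y, hy⟩
    apply hx' a
    refine ⟨y + ∑ i, (a i * p ^ n₀) • u (x' i), ?_⟩
    have h1 : ∀ i, x' i = rep (x' i) + (p ^ t) • u (x' i) := fun i => hu (x' i)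
    calc ∑ i, a i • x' i = ∑ i, (a i • rep (x' i) + p • ((a i * p ^ n₀) • u (x' i))) := by
          apply Finset.sum_congr rfl
          intro i _
          conv_lhs => rw [h1 i]
          rw [smul_add, ← mul_smul, ← mul_smul]
          congr 2
          rw [ht, pow_succ]
          ring
      _ = p • (y + ∑ i, (a i * p ^ n₀) • u (x' i)) := by
          rw [Finset.sum_add_distrib, hy, smul_add, Finset.smul_sum]
  have hnorm : ∀ x' : Fin m → Λ, IndepMod p x' → ∀ i, ν (x' i) = ν (rep (x' i)) := by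
    intro x' hx' i
    have hI := hred x' hx'
    have hlow' : ρ₀ ≤ ν (rep (x' i)) := by
      apply hlow
      intro y hy
      have h2 := hI (fun j => if j = i then 1 else 0) ⟨y, by
        simp only [ite_smul, one_smul, zero_smul, Finset.sum_ite_eq', Finset.mem_univ, if_true]
        exact hy⟩ i
      simp only [if_true] at h2
      exact hp.one_lt.ne' (Nat.dvd_one.mp h2)
    conv_lhs => rw [hu (x' i)]
    exact hν.add_eq_of_lt ((hsmall _).trans_le hlow')
  -- minimise
  let T : Set (Fin m → Λ) := {x | (∀ i, x i ∈ S) ∧ IndepMod p x}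
  have hTfin : T.Finite := by
    apply Set.Finite.subset (Set.Finite.pi' (fun _ : Fin m => hS))
    intro x hx i
    exact hx.1 i
  obtain ⟨x₀, hx₀⟩ := exists_indepMod (Λ := Λ) p m hcard
  have hTne : T.Nonempty := ⟨fun i => rep (x₀ i), fun i => hrep _, hred x₀ hx₀⟩
  obtain ⟨x, hxT, hxmin⟩ := Set.exists_min_image T (fun x => ∑ i, ν (x i)) hTfin hTne
  refine ⟨x, hxT.2, fun x' hx' => ?_⟩
  have h3 := hxmin (fun i => rep (x' i)) ⟨fun i => hrep _, hred x' hx'⟩
  calc ∑ i, ν (x i) ≤ ∑ i, ν (rep (x' i)) := h3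
    _ = ∑ i, ν (x' i) := Finset.sum_congr rfl fun i _ => (hnorm x' hx' i).symm

/-- **Orthogonal basis.** Let `Λ/pΛ` be finite with `p^m` elements. Then there are `x : Fin m → Λ` whose
classes form an `𝔽_p`-basis of `Λ/pΛ` with `ν(∑ a_i x_i) = max ν(a_i x_i)` for all naturals `a_i`.

Proof: take an independent tuple minimising `∑ ν x_i`. If `p ∤ a_j` then replacing `x_j` by
`∑ a_i x_i + p w` keeps independence, so `ν x_j ≤ ν (∑ a_i x_i + p w)`. Then strong induction on `∑ a_i`. -/
theorem exists_orth_basis {Λ : Type*} [AddCommGroup Λ] (p q m : ℕ) [Fact p.Prime] (hq : 2 ≤ q)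
    (hm : 1 ≤ m) (ν : Λ → ℝ) (r : ℝ) (hν : LatticeNorm p q ν r)
    (hcard : Nat.card (Λ ⧸ (nsmulAddMonoidHom (α := Λ) p).range) = p ^ m) :
    ∃ x : Fin m → Λ,
      (∀ a : Fin m → ℕ, (∃ y : Λ, ∑ i, a i • x i = p • y) ↔ ∀ i, p ∣ a i) ∧
      ∀ a : Fin m → ℕ, (∀ i, ν (a i • x i) ≤ ν (∑ i, a i • x i)) ∧
        ∃ i, ν (∑ i, a i • x i) = ν (a i • x i) := by
  classical
  have hp : p.Prime := Fact.out
  obtain ⟨x, hind, hmin⟩ := exists_min_indep p q m hq ν r hν hcard
  -- the replacement lemma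
  have hrepl : ∀ (a : Fin m → ℕ) (j : Fin m), ¬ p ∣ a j → ν (x j) ≤ ν (∑ i, a i • x i) := by
    intro a j hj
    let z : Λ := ∑ i, a i • x i
    have hI : IndepMod p (Function.update x j z) := by
      rintro b ⟨y, hy⟩ i
      -- expand
      let c : Fin m → ℕ := fun i => if i = j then b j * a j else b i + b j * a i
      have hsum : ∑ i, c i • x i = ∑ i, b i • Function.update x j z i := by
        have h1 : ∑ i, b i • Function.update x j z i =
            ∑ i, (if i = j then 0 else b i) • x i + b j • z := by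
          rw [← Finset.add_sum_erase _ _ (Finset.mem_univ j),
            ← Finset.add_sum_erase _ (fun i => (if i = j then 0 else b i) • x i) (Finset.mem_univ j)]
          simp only [Function.update_self, if_true, zero_smul, zero_add]
          rw [add_comm]
          congr 1
          apply Finset.sum_congr rfl
          intro i hi
          have hij : i ≠ j := (Finset.mem_erase.mp hi).1
          simp [hij]
        rw [h1]
        simp only [z, Finset.smul_sum, ← mul_smul]
        rw [← Finset.sum_add_distrib]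
        apply Finset.sum_congr rfl
        intro i _
        simp only [c]
        by_cases hij : i = j
        · simp [hij]
        · simp [hij, add_smul]
      have hc := hind c ⟨y, by rw [hsum, hy]⟩
      have hbj : p ∣ b j := by
        have h2 := hc j
        simp only [c, if_true] at h2
        exact (hp.dvd_mul.mp h2).resolve_right hj
      by_cases hij : i = j
      · rw [hij]; exact hbj
      · have h2 := hc i
        simp only [c, hij, if_false] at h2
        exact (Nat.dvd_add_left (Dvd.dvd.mul_right hbj _)).mp h2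
    have h3 := hmin _ hI
    have h4 : ∑ i, ν (x i) = ν (x j) + ∑ i ∈ Finset.univ.erase j, ν (x i) :=
      (Finset.add_sum_erase _ _ (Finset.mem_univ j)).symm
    have h5 : ∑ i, ν (Function.update x j z i) = ν z + ∑ i ∈ Finset.univ.erase j, ν (x i) := by
      rw [← Finset.add_sum_erase _ _ (Finset.mem_univ j)]
      simp only [Function.update_self]
      congr 1
      apply Finset.sum_congr rfl
      intro i hi
      rw [Function.update_of_ne (Finset.mem_erase.mp hi).1]
    rw [h4, h5] at h3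
    linarith
  -- the main lower bound, by strong induction on `∑ a`
  have hmain : ∀ (N : ℕ) (a : Fin m → ℕ), ∑ i, a i = N → ∀ i, ν (a i • x i) ≤ ν (∑ i, a i • x i) := by
    intro N
    induction N using Nat.strong_induction_on with
    | _ N ih =>
      intro a ha i
      by_cases hai : p ∣ a i
      · by_cases hai0 : a i = 0
        · rw [hai0, zero_smul, hν.nu_zero]
          exact hν.nonneg _
        -- `a_i` divisible by `p`
        let b : Fin m → ℕ := fun j => if p ∣ a j then a j / p else 0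
        have hb_le : ∀ j, b j ≤ a j := by
          intro j
          simp only [b]
          split_ifs
          · exact Nat.div_le_self _ _
          · exact Nat.zero_le _
        have hb_lt : b i < a i := by
          simp only [b, if_pos hai]
          exact Nat.div_lt_self (Nat.pos_of_ne_zero hai0) hp.one_lt
        have hsumlt : ∑ j, b j < N := by
          rw [← ha]
          exact Finset.sum_lt_sum (fun j _ => hb_le j) ⟨i, Finset.mem_univ i, hb_lt⟩
        have hIH := ih _ hsumlt b rfl i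
        -- decomposition
        let y'' : Λ := ∑ j ∈ Finset.univ.filter (fun j => ¬ p ∣ a j), a j • x j
        have hdec : ∑ j, a j • x j = p • (∑ j, b j • x j) + y'' := by
          have h1 : p • (∑ j, b j • x j) = ∑ j ∈ Finset.univ.filter (fun j => p ∣ a j), a j • x j := by
            rw [Finset.smul_sum, Finset.sum_filter]
            apply Finset.sum_congr rfl
            intro j _
            simp only [b]
            split_ifs with hj
            · rw [← mul_smul, Nat.mul_div_cancel' hj]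
            · simp
          rw [h1]
          exact (Finset.sum_filter_add_sum_filter_not _ _ _).symm
        have hy'' : ν y'' ≤ ν (∑ j, a j • x j) := by
          apply hν.sum_le _ _ _ (hν.nonneg _)
          intro j hj
          have hj' : ¬ p ∣ a j := (Finset.mem_filter.mp hj).2
          rw [hν.smul_coprime _ _ ((Nat.Prime.coprime_iff_not_dvd hp).mpr hj').symm]
          exact hrepl a j hj'
        have hy' : ν (p • ∑ j, b j • x j) ≤ ν (∑ j, a j • x j) := by
          have h2 : p • ∑ j, b j • x j = ∑ j, a j • x j + (-y'') := by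
            rw [hdec]; abel
          rw [h2]
          refine (hν.add_le _ _).trans (max_le le_rfl ?_)
          rw [hν.neg]
          exact hy''
        have hai' : a i • x i = p • (b i • x i) := by
          rw [← mul_smul]
          simp only [b, if_pos hai]
          rw [Nat.mul_div_cancel' hai]
        rw [hai', hν.smul_p]
        rw [hν.smul_p] at hy'
        exact (pow_le_pow_left₀ (hν.nonneg _) hIH _).trans hy'
      · rw [hν.smul_coprime _ _ ((Nat.Prime.coprime_iff_not_dvd hp).mpr hai).symm]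
        exact hrepl a i hai
  refine ⟨x, fun a => ⟨hind a, ?_⟩, fun a => ⟨hmain _ a rfl, ?_⟩⟩
  · intro hdvd
    choose c hc using hdvd
    refine ⟨∑ i, c i • x i, ?_⟩
    rw [Finset.smul_sum]
    apply Finset.sum_congr rfl
    intro i _
    rw [hc i, mul_smul]
  · haveI : Nonempty (Fin m) := ⟨⟨0, hm⟩⟩
    obtain ⟨i₀, -, hi₀⟩ := Finset.exists_max_image (Finset.univ : Finset (Fin m))
      (fun i => ν (a i • x i)) Finset.univ_nonempty
    refine ⟨i₀, le_antisymm ?_ (hmain _ a rfl i₀)⟩
    exact hν.sum_le _ _ _ (hν.nonneg _) (fun i hi => hi₀ i hi)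

end

end Crest.Agent.LT
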