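/-
S0351 package CHARP/TORSION: the `p`-torsion of `H(τ)`, `p`-divisibility, the lattice `ker π` with orthogonal
basis, and the Kodaira-Spencer determinant. See BLUEPRINT.md §CP2.
-/
import Crest.Agent.LT.CharP.Pi
import Crest.Agent.LT.CharP.Orth

set_option autoImplicit false

open Crest.LubinTate

namespace Crest.Agent.LT

noncomputable section

variable (p : ℕ) [Fact p.Prime] (h n : ℕ)
variable {C : Type} [NontriviallyNormedField C] [IsUltrametricDist C] [CompleteSpace C]
  [CharP C p] [IsAlgClosed C]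

omit [CharP C p] [IsAlgClosed C] in
/-- One-variable evaluation as a ring hom. -/
private def ev1Hom (y : C) (hy : ‖y‖ < 1) : PowerSeries (OC C) →+* OC C :=
  evHom (σ := Unit) (fun _ => y) (fun _ => hy)

omit [CharP C p] [IsAlgClosed C] in
private theorem coe_ev1Hom (y : C) (hy : ‖y‖ < 1) (f : PowerSeries (OC C)) :
    ((ev1Hom y hy f : OC C) : C) = ev1 f y := by
  rw [ev1_eq_evMv]
  exact coe_evHom (σ := Unit) (fun _ => y) (fun _ => hy) f

omit [CharP C p] [IsAlgClosed C] in
private theorem ev1_sub' (f g : PowerSeries (OC C)) (y : C) (hy : ‖y‖ < 1) :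
    ev1 (f - g) y = ev1 f y - ev1 g y := by
  rw [← coe_ev1Hom y hy, map_sub, ← coe_ev1Hom y hy, ← coe_ev1Hom y hy]; rfl

omit [CharP C p] [IsAlgClosed C] in
private theorem ev1_mul' (f g : PowerSeries (OC C)) (y : C) (hy : ‖y‖ < 1) :
    ev1 (f * g) y = ev1 f y * ev1 g y := by
  rw [← coe_ev1Hom y hy, map_mul, ← coe_ev1Hom y hy, ← coe_ev1Hom y hy]; rfl

omit [CharP C p] [IsAlgClosed C] in
private theorem ev1_C' (c : OC C) (y : C) (hy : ‖y‖ < 1) :
    ev1 (PowerSeries.C c) y = c := by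
  rw [ev1_eq_evMv]
  exact evMv_C (σ := Unit) (fun _ => y) (fun _ => hy) c

omit [CharP C p] [IsAlgClosed C] in
private theorem ev1_X_pow' (e : ℕ) (y : C) (hy : ‖y‖ < 1) :
    ev1 (PowerSeries.X ^ e) y = y ^ e := by
  have h1 : ev1 (PowerSeries.X : PowerSeries (OC C)) y = y := by
    rw [ev1_eq_evMv]
    exact evMv_X (σ := Unit) (fun _ => y) (fun _ => hy) ()
  rw [← coe_ev1Hom y hy, map_pow, SubmonoidClass.coe_pow, coe_ev1Hom, h1]

/-- `(p • w) = ψ(w^P)`. -/
private theorem val_pSmul_HS (hh : 1 ≤ h) (hn : h ≤ n) (τ : Fin (n - h) → OC C)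
    (w : LawPt (HS p h n τ)) :
    (p • w).val = ev1 (psiS p h n τ) (w.val ^ (p ^ h)) := by
  haveI : CharP (OC C) p := charP_OC p
  rw [LawPt.val_nsmul, pSeries_HS p h n hh hn τ]
  have hw := w.norm_lt
  rw [scomp, ev1_subst _ _ (by simp [(Fact.out : p.Prime).pos.ne', (Fact.out : p.Prime).ne_zero]) _ hw, ev1_X_pow' _ _ hw]

theorem pSmul_surjective_HS (hh : 1 ≤ h) (hn : h < n) (τ : Fin (n - h) → OC C)
    (hτ : ∀ j, ‖((τ j : OC C) : C)‖ < 1) (u : LawPt (HS p h n τ)) :
    ∃ w : LawPt (HS p h n τ), p • w = u := by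
  haveI : CharP (OC C) p := charP_OC p
  obtain ⟨hlow, hunit⟩ := psiS_weierstrass p h n hh hn τ hτ
  let u' : OC C := ⟨u.val, u.norm_lt.le⟩
  have hpm : 1 ≤ p ^ (n - h) := Nat.one_le_pow _ _ (Fact.out : p.Prime).pos
  obtain ⟨y, hy, hy0⟩ := exists_zero (psiS p h n τ - PowerSeries.C u') (p ^ (n - h)) hpm
    (by
      intro j hj
      rw [map_sub]
      by_cases hj0 : j = 0
      · subst hj0
        simp only [PowerSeries.coeff_zero_eq_constantCoeff_apply, constantCoeff_psiS, PowerSeries.constantCoeff_C]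
        simpa [u'] using u.norm_lt
      · rw [PowerSeries.coeff_C, if_neg hj0, sub_zero]
        exact hlow j hj)
    (by
      rw [map_sub, PowerSeries.coeff_C, if_neg (by omega), sub_zero]
      exact hunit)
  rw [ev1_sub' _ _ _ hy, ev1_C' _ _ hy, sub_eq_zero] at hy0
  refine ⟨LawPt.mk (pRoot p h y) (norm_pRoot_lt_one p h _ hy), ?_⟩
  apply LawPt.ext'
  rw [val_pSmul_HS p h n hh hn.le]
  show ev1 _ (pRoot p h y ^ p ^ h) = u.val
  rw [pRoot_pow, hy0]

theorem card_pTorsion_HS (hh : 1 ≤ h) (hn : h < n) (τ : Fin (n - h) → OC C)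
    (hτ : ∀ j, ‖((τ j : OC C) : C)‖ < 1) (hτ0 : τ ⟨0, by omega⟩ ≠ 0) :
    Nat.card (nsmulAddMonoidHom (α := LawPt (HS p h n τ)) p).ker = p ^ (n - h) := by
  haveI : CharP (OC C) p := charP_OC p
  obtain ⟨hlow, hunit⟩ := psiS_weierstrass p h n hh hn τ hτ
  have hsimple : ∀ y : C, ‖y‖ < 1 → ev1 (PowerSeries.derivative (OC C) (psiS p h n τ)) y ≠ 0 := by
    intro y hy
    obtain ⟨U, hU, hd⟩ := derivative_hom_eq_unit_mul (psiS_hom p h n hh hn.le τ)
    rw [hd, ev1_mul' _ _ _ hy, ev1_C' _ _ hy, coeff_one_psiS p h n hh hn]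
    refine mul_ne_zero ?_ (ev1_ne_zero_of_isUnit U hU y hy)
    intro h0
    exact hτ0 (Subtype.ext h0)
  have hcard := card_zeros_eq (psiS p h n τ) (p ^ (n - h)) hlow hunit hsimple
  rw [← hcard, ← Nat.card_coe_set_eq]
  refine Nat.card_eq_of_bijective
    (fun w => ⟨w.1.val ^ (p ^ h), ?_, ?_⟩) ⟨?_, ?_⟩
  · have := w.1.norm_lt
    rw [norm_pow]
    exact pow_lt_one₀ (norm_nonneg _) this (pow_ne_zero _ (Fact.out : p.Prime).ne_zero)
  · have h1 : (p • w.1).val = (0 : C) := by
      have : p • w.1 = 0 := w.2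
      rw [this, LawPt.val_zero]
    rwa [val_pSmul_HS p h n hh hn.le] at h1
  · rintro ⟨w, hw⟩ ⟨w', hw'⟩ heq
    simp only [Subtype.mk.injEq] at heq
    apply Subtype.ext
    apply LawPt.ext'
    have := congrArg (pRoot p h) heq
    simpa [pow_pRoot] using this
  · rintro ⟨y, hy, hy0⟩
    refine ⟨⟨LawPt.mk (pRoot p h y) (norm_pRoot_lt_one p h _ hy), ?_⟩, ?_⟩
    · refine AddMonoidHom.mem_ker.2 ?_
      rw [nsmulAddMonoidHom_apply]
      apply LawPt.ext'
      rw [val_pSmul_HS p h n hh hn.le, LawPt.val_zero]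
      show ev1 _ (pRoot p h y ^ p ^ h) = 0
      rw [pRoot_pow, hy0]
    · apply Subtype.ext
      show pRoot p h y ^ p ^ h = y
      rw [pRoot_pow]

/-! ### The lattice -/

section Lattice

variable {p h n}

variable {G H : FormalGroup (OC C)} [G.IsComm] [H.IsComm] {r : ℝ}

/-- The `q`-th root on `G(𝔪_C)`. -/
private def qRoot (n : ℕ) (x : LawPt G) : LawPt G := LawPt.root p n x

private theorem val_qRoot (x : LawPt G) : (qRoot (p := p) n x).val = pRoot p n x.val := rfl

private theorem pSmul_qRoot (S : PiSetup p n G H r) (x : LawPt G) : p • qRoot (p := p) n x = x := by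
  apply LawPt.ext'
  rw [S.val_nsmul_G, val_qRoot, pRoot_pow]

private theorem qRoot_pSmul (S : PiSetup p n G H r) (x : LawPt G) : qRoot (p := p) n (p • x) = x := by
  apply LawPt.ext'
  rw [val_qRoot, S.val_nsmul_G, pow_pRoot]

private theorem pSmul_injective (S : PiSetup p n G H r) :
    Function.Injective (fun x : LawPt G => p • x) := by
  intro x y hxy
  have := congrArg (qRoot (p := p) n) hxy
  simpa [qRoot_pSmul S] using this

/-- The `q`-th root as an additive map. -/
private def qRootHom (S : PiSetup p n G H r) : LawPt G →+ LawPt G :=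
  AddMonoidHom.mk' (qRoot (p := p) n) (by
    intro x y
    apply pSmul_injective S
    show p • _ = p • _
    rw [nsmul_add, pSmul_qRoot S, pSmul_qRoot S, pSmul_qRoot S])

private theorem qRootHom_apply (S : PiSetup p n G H r) (x : LawPt G) :
    qRootHom S x = qRoot (p := p) n x := rfl

/-- `x ↦ π(x^(1/q))`. -/
private def towerHom (S : PiSetup p n G H r) : S.pi.ker →+ LawPt H :=
  S.pi.comp ((qRootHom S).comp S.pi.ker.subtype)

private theorem towerHom_apply (S : PiSetup p n G H r) (x : S.pi.ker) :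
    towerHom S x = S.pi (qRoot (p := p) n x.1) := rfl

private theorem towerHom_ker (S : PiSetup p n G H r) (x : S.pi.ker) :
    towerHom S x = 0 ↔ ∃ y : S.pi.ker, x = p • y := by
  rw [towerHom_apply]
  constructor
  · intro hx
    refine ⟨⟨qRoot (p := p) n x.1, hx⟩, ?_⟩
    apply Subtype.ext
    show x.1 = p • qRoot (p := p) n x.1
    rw [pSmul_qRoot S]
  · rintro ⟨y, rfl⟩
    show S.pi (qRoot (p := p) n (p • y.1)) = 0
    rw [qRoot_pSmul S]
    exact y.2

private theorem towerHom_range (S : PiSetup p n G H r)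
    (hsurj : ∀ u : LawPt H, ∃ w : LawPt H, p • w = u) :
    (towerHom S).range = (nsmulAddMonoidHom (α := LawPt H) p).ker := by
  ext c
  rw [AddMonoidHom.mem_range, AddMonoidHom.mem_ker, nsmulAddMonoidHom_apply]
  constructor
  · rintro ⟨x, rfl⟩
    rw [towerHom_apply, ← map_nsmul, pSmul_qRoot S]
    exact x.2
  · intro hc
    obtain ⟨y, rfl⟩ := S.pi_surjective hsurj c
    refine ⟨⟨p • y, ?_⟩, ?_⟩
    · show S.pi (p • y) = 0
      rw [map_nsmul, hc]
    · rw [towerHom_apply]
      show S.pi (qRoot (p := p) n (p • y)) = _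
      rw [qRoot_pSmul S]

private theorem lattice_card (S : PiSetup p n G H r)
    (hsurj : ∀ u : LawPt H, ∃ w : LawPt H, p • w = u) :
    Nat.card (S.pi.ker ⧸ (nsmulAddMonoidHom (α := S.pi.ker) p).range) =
      Nat.card (nsmulAddMonoidHom (α := LawPt H) p).ker := by
  have h1 : (nsmulAddMonoidHom (α := S.pi.ker) p).range = (towerHom S).ker := by
    ext x
    rw [AddMonoidHom.mem_range, AddMonoidHom.mem_ker, towerHom_ker S]
    constructor
    · rintro ⟨y, rfl⟩; exact ⟨y, rfl⟩
    · rintro ⟨y, rfl⟩; exact ⟨y, rfl⟩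
  rw [h1, ← towerHom_range S hsurj]
  exact Nat.card_congr (QuotientAddGroup.quotientKerEquivRange (towerHom S)).toEquiv

/-- `ν` as a function on the kernel. -/
private def nuK (S : PiSetup p n G H r) (x : S.pi.ker) : ℝ := ‖x.1.val‖

private theorem nu_nsmul_le (S : PiSetup p n G H r) (a : ℕ) (x : S.pi.ker) :
    nuK S (a • x) ≤ nuK S x := by
  induction a with
  | zero =>
    simp only [nuK, zero_smul, AddSubgroup.coe_zero, LawPt.val_zero, norm_zero]
    exact norm_nonneg _
  | succ a ih =>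
    rw [succ_nsmul]
    show ‖(_ + _ : LawPt G).val‖ ≤ _
    rw [LawPt.val_add]
    refine (norm_lawAdd_le G _ _ (LawPt.norm_lt _) (LawPt.norm_lt _)).trans (max_le ?_ le_rfl)
    exact ih

private theorem nu_pSmul (S : PiSetup p n G H r) (x : S.pi.ker) :
    nuK S (p • x) = nuK S x ^ (p ^ n) := by
  show ‖(p • x.1).val‖ = _
  rw [S.val_nsmul_G, norm_pow]
  rfl

private theorem nu_add_le (S : PiSetup p n G H r) (x y : S.pi.ker) :
    nuK S (x + y) ≤ max (nuK S x) (nuK S y) := by
  show ‖(x.1 + y.1 : LawPt G).val‖ ≤ _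
  rw [LawPt.val_add]
  exact norm_lawAdd_le G _ _ (LawPt.norm_lt _) (LawPt.norm_lt _)

private theorem nu_neg (S : PiSetup p n G H r) (x : S.pi.ker) : nuK S (-x) = nuK S x := by
  show ‖(-x.1 : LawPt G).val‖ = _
  rw [LawPt.norm_neg]
  rfl

private theorem nu_coprime (S : PiSetup p n G H r) (hq : 2 ≤ p ^ n) (a : ℕ) (x : S.pi.ker)
    (ha : Nat.Coprime a p) : nuK S (a • x) = nuK S x := by
  have hp1 : 1 < p := (Fact.out : p.Prime).one_lt
  obtain ⟨b, _, hb⟩ := Nat.exists_mul_mod_eq_one_of_coprime ha hp1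
  have hdiv := Nat.div_add_mod (a * b) p
  rw [hb] at hdiv
  set k := a * b / p with hk
  have hx : x = b • (a • x) + -(k • (p • x)) := by
    have h1 : b • (a • x) = (a * b) • x := by rw [smul_smul, mul_comm]
    have h2 : k • (p • x) = (p * k) • x := by rw [smul_smul, mul_comm]
    rw [h1, h2, ← hdiv, add_smul, one_smul]
    abel
  refine le_antisymm (nu_nsmul_le S a x) ?_
  by_contra hlt
  push Not at hlt
  have h0 : 0 < nuK S x := lt_of_le_of_lt (norm_nonneg _) hlt
  have h1 : nuK S x < 1 := LawPt.norm_lt _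
  have h2 : nuK S x ≤ max (nuK S (b • (a • x))) (nuK S (-(k • (p • x)))) := by
    conv_lhs => rw [hx]
    exact nu_add_le S _ _
  have h3 : nuK S (b • (a • x)) ≤ nuK S (a • x) := nu_nsmul_le S b _
  have h4 : nuK S (-(k • (p • x))) ≤ nuK S x ^ (p ^ n) := by
    rw [nu_neg, ← nu_pSmul S]
    exact nu_nsmul_le S k _
  have h5 : nuK S x ^ (p ^ n) < nuK S x := by
    calc nuK S x ^ (p ^ n) < nuK S x ^ 1 := pow_lt_pow_right_of_lt_one₀ h0 h1 (by omega)
      _ = nuK S x := pow_one _
  rcases le_max_iff.1 h2 with h6 | h6 <;> linarith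

private theorem nu_lower (S : PiSetup p n G H r)
    (hfin : Finite (nsmulAddMonoidHom (α := LawPt H) p).ker) :
    ∃ ρ₀ : ℝ, 0 < ρ₀ ∧ ∀ x : S.pi.ker, (∀ y : S.pi.ker, x ≠ p • y) → ρ₀ ≤ nuK S x := by
  rcases S.r0.eq_or_lt with hr | hr
  · refine ⟨1, one_pos, fun x hx => ?_⟩
    exfalso
    have h1 := S.norm_le_of_pi_eq_zero x.1 x.2
    have h2 : x.1.val = 0 := norm_le_zero_iff.1 (h1.trans hr.symm.le)
    refine hx 0 (Subtype.ext (LawPt.ext' ?_))
    rw [h2, smul_zero]
    simp
  -- smallest norm of a nonzero torsion point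
  obtain ⟨t, ht0, ht⟩ : ∃ t : ℝ, 0 < t ∧ ∀ c : LawPt H, p • c = 0 → c ≠ 0 → t ≤ ‖c.val‖ := by
    have hfin' : (Set.range (fun c : (nsmulAddMonoidHom (α := LawPt H) p).ker => ‖c.1.val‖)).Finite :=
      Set.finite_range _
    by_cases hex : ∃ c : LawPt H, p • c = 0 ∧ c ≠ 0
    · let A : Set ℝ := {s | s ∈ Set.range (fun c : (nsmulAddMonoidHom (α := LawPt H) p).ker => ‖c.1.val‖) ∧ 0 < s}
      have hA : A.Finite := hfin'.subset (fun s hs => hs.1)
      have hne : A.Nonempty := by
        obtain ⟨c, hc, hc0⟩ := hex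
        refine ⟨‖c.val‖, ⟨⟨c, AddMonoidHom.mem_ker.2 (by rwa [nsmulAddMonoidHom_apply])⟩, rfl⟩, ?_⟩
        rw [norm_pos_iff]
        intro h0
        exact hc0 (LawPt.ext' (by rw [h0, LawPt.val_zero]))
      obtain ⟨s, hs, hsmin⟩ := Set.exists_min_image A id hA hne
      refine ⟨s, hs.2, fun c hc hc0 => hsmin _ ⟨⟨⟨c, AddMonoidHom.mem_ker.2 (by rwa [nsmulAddMonoidHom_apply])⟩, rfl⟩, ?_⟩⟩
      rw [norm_pos_iff]
      intro h0
      exact hc0 (LawPt.ext' (by rw [h0, LawPt.val_zero]))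
    · refine ⟨1, one_pos, fun c hc hc0 => (hex ⟨c, hc, hc0⟩).elim⟩
  obtain ⟨N, hN⟩ := exists_pow_lt_of_lt_one ht0 S.r1
  set q := p ^ n with hq
  refine ⟨r ^ (q ^ (N + 1)), by positivity, fun x hx => ?_⟩
  by_contra hlt
  push Not at hlt
  apply hx ⟨qRoot (p := p) n x.1, ?_⟩
  · apply Subtype.ext
    show x.1 = p • qRoot (p := p) n x.1
    rw [pSmul_qRoot S]
  · -- `π(x^(1/q)) = 0`
    by_contra hne
    have hq0 : q ≠ 0 := pow_ne_zero _ (Fact.out : p.Prime).ne_zero
    have hroot : ‖(qRoot (p := p) n x.1).val‖ ≤ r ^ (q ^ N) := by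
      have h1 : ‖(qRoot (p := p) n x.1).val‖ ^ q ≤ (r ^ (q ^ N)) ^ q := by
        rw [val_qRoot, norm_pRoot, ← pow_mul, ← pow_succ]
        exact hlt.le
      exact (pow_le_pow_iff_left₀ (norm_nonneg _) (by positivity) hq0).1 h1
    have h2 := S.norm_pi_le_of_small N _ hroot
    have h3 : p • S.pi (qRoot (p := p) n x.1) = 0 := by
      rw [← map_nsmul, pSmul_qRoot S]
      exact x.2
    have h4 := ht _ h3 hne
    have h5 : r ^ (N + 1) ≤ r ^ N := pow_le_pow_of_le_one S.r0 S.r1.le (Nat.le_succ N)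
    linarith

/-- The generic form of the lattice basis statement. -/
private theorem exists_lattice_basis_aux (S : PiSetup p n G H r) (hn : 1 ≤ n) (m : ℕ) (hm : 1 ≤ m)
    (hsurj : ∀ u : LawPt H, ∃ w : LawPt H, p • w = u)
    (hcard : Nat.card (nsmulAddMonoidHom (α := LawPt H) p).ker = p ^ m) :
    ∃ x : Fin m → LawPt G,
      (∀ i, S.pi (x i) = 0) ∧
      (∀ a : Fin m → ℕ, ∑ i, a i • S.tower (x i) 1 = 0 → ∀ i, p ∣ a i) ∧
      ∀ a : Fin m → ℕ, (∀ i, ‖(a i • x i).val‖ ≤ ‖(∑ i, a i • x i).val‖) ∧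
        ∃ i, ‖(∑ i, a i • x i).val‖ = ‖(a i • x i).val‖ := by
  have hp1 : 1 < p := (Fact.out : p.Prime).one_lt
  have hq2 : 2 ≤ p ^ n := by
    calc 2 ≤ p := hp1
      _ = p ^ 1 := (pow_one p).symm
      _ ≤ p ^ n := Nat.pow_le_pow_right (by omega) hn
  have hfin : Finite (nsmulAddMonoidHom (α := LawPt H) p).ker := by
    apply Nat.finite_of_card_ne_zero
    rw [hcard]
    exact pow_ne_zero _ (by omega)
  have hL : LatticeNorm (Λ := S.pi.ker) p (p ^ n) (nuK S) r :=
    { nonneg := fun x => norm_nonneg _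
      eq_zero := fun x => by
        constructor
        · intro h0
          apply Subtype.ext
          apply LawPt.ext'
          rw [norm_eq_zero.1 h0]
          exact (LawPt.val_zero G).symm
        · rintro rfl
          show ‖(0 : LawPt G).val‖ = 0
          rw [LawPt.val_zero, norm_zero]
      add_le := nu_add_le S
      neg := nu_neg S
      smul_coprime := fun a x ha => nu_coprime S hq2 a x ha
      smul_p := nu_pSmul S
      le_r := fun x => S.norm_le_of_pi_eq_zero x.1 x.2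
      r1 := S.r1
      lower := nu_lower S hfin }
  have hcard' : Nat.card (S.pi.ker ⧸ (nsmulAddMonoidHom (α := S.pi.ker) p).range) = p ^ m := by
    rw [lattice_card S hsurj, hcard]
  obtain ⟨x, hx1, hx2⟩ := exists_orth_basis (Λ := S.pi.ker) p (p ^ n) m hq2 hm (nuK S) r hL hcard'
  refine ⟨fun i => (x i).1, fun i => (x i).2, ?_, ?_⟩
  · intro a ha
    refine (hx1 a).1 ?_
    have h1 : towerHom S (∑ i, a i • x i) = 0 := by
      rw [map_sum, ← ha]
      refine Finset.sum_congr rfl fun i _ => ?_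
      rw [map_nsmul, towerHom_apply]
      simp only [PiSetup.tower, mul_one]
      rfl
    exact (towerHom_ker S _).1 h1
  · intro a
    obtain ⟨h1, i, h2⟩ := hx2 a
    have hs : ((∑ i, a i • x i : S.pi.ker) : LawPt G) = ∑ i, a i • (x i).1 := by
      have := map_sum S.pi.ker.subtype (fun i => a i • x i) Finset.univ
      simpa only [AddSubgroup.subtype_apply, map_nsmul] using this
    have hi : ∀ i, ((a i • x i : S.pi.ker) : LawPt G) = a i • (x i).1 := by
      intro i
      exact map_nsmul S.pi.ker.subtype (a i) (x i)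
    refine ⟨fun i => ?_, i, ?_⟩
    · have := h1 i
      simp only [nuK] at this
      rwa [hs, hi] at this
    · have := h2
      simp only [nuK] at this
      rwa [hs, hi] at this

end Lattice

/-- **The orthogonal lattice basis of `ker π`.** `Λ = ker π`, `ν = ‖·‖`, `Λ/pΛ ≅ H[p]` by
`x ↦ π(x^(1/q))` (kernel `pΛ` since `p •_Γ y = y^q`; surjective by `pi_surjective`). `LatticeNorm`:
`le_r` is `norm_le_of_pi_eq_zero`; `lower`: if `‖x‖ ≤ r^(q^(N+1))` then `‖π(x^(1/q))‖ ≤ r^(N+1)`, which is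
below the smallest norm of a nonzero torsion point for large `N`; so `x^(1/q) ∈ Λ`, `x ∈ pΛ`. -/
theorem exists_lattice_basis (hh : 1 ≤ h) (hn : h < n) (τ : Fin (n - h) → OC C)
    (hτ : ∀ j, ‖((τ j : OC C) : C)‖ < 1)
    (hτ0 : τ ⟨0, by omega⟩ ≠ 0) (r : ℝ)
    (S : PiSetup p n (GamC p n C) (HS p h n τ) r) :
    ∃ x : Fin (n - h) → LawPt (GamC p n C),
      (∀ i, S.pi (x i) = 0) ∧
      (∀ a : Fin (n - h) → ℕ, ∑ i, a i • S.tower (x i) 1 = 0 → ∀ i, p ∣ a i) ∧
      ∀ a : Fin (n - h) → ℕ, (∀ i, ‖(a i • x i).val‖ ≤ ‖(∑ i, a i • x i).val‖) ∧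
        ∃ i, ‖(∑ i, a i • x i).val‖ = ‖(a i • x i).val‖ :=
  exists_lattice_basis_aux S (by omega) (n - h) (by omega)
    (pSmul_surjective_HS p h n hh hn τ hτ) (card_pTorsion_HS p h n hh hn τ hτ hτ0)

/-! ### The Kodaira-Spencer matrix -/

/-- `S = 𝒪_C[[A_0..A_{m-1}]]`. -/
abbrev SA (C : Type) [NontriviallyNormedField C] [IsUltrametricDist C] (m : ℕ) : Type :=
  MvPowerSeries (Fin m) (OC C)

/-- The generic parameters `τ + A` over `S`. -/
def tauS (τ : Fin (n - h) → OC C) : Fin (n - h) → SA C (n - h) :=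
  fun j => MvPowerSeries.C (τ j) + MvPowerSeries.X j

/-- The `p`-series of the generic law, over `S`. -/
def PPS (τ : Fin (n - h) → OC C) : PowerSeries (SA C (n - h)) :=
  mulSeries (HS p h n (tauS h n τ)) p

/-- The linear coefficient in `A_e` of the `p`-series: `∂_{A_e} [p]_{H(τ+A)} |_{A=0}`. -/
def dPS (τ : Fin (n - h) → OC C) (e : Fin (n - h)) : PowerSeries (OC C) :=
  PowerSeries.mk fun j =>
    MvPowerSeries.coeff (Finsupp.single e 1) (PowerSeries.coeff j (PPS p h n τ))

section Expansion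

omit [CharP C p] [IsAlgClosed C] in
/-- First-order expansion of the evaluation. -/
private theorem evMv_first_order {m : ℕ} (g : MvPowerSeries (Fin m) (OC C)) (a : Fin m → C) (ρ : ℝ)
    (hρ0 : 0 ≤ ρ) (hρ1 : ρ < 1) (ha : ∀ i, ‖a i‖ ≤ ρ) :
    ‖evMv g a - (cf g 0 + ∑ i, cf g (Finsupp.single i 1) * a i)‖ ≤ ρ ^ 2 := by
  classical
  have ha' : ∀ i, ‖a i‖ < 1 := fun i => (ha i).trans_lt hρ1
  let L : MvPowerSeries (Fin m) (OC C) := MvPowerSeries.C (MvPowerSeries.coeff 0 g) +
    ∑ i, MvPowerSeries.C (MvPowerSeries.coeff (Finsupp.single i 1) g) * MvPowerSeries.X i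
  have hL : evMv L a = cf g 0 + ∑ i, cf g (Finsupp.single i 1) * a i := by
    rw [← coe_evHom a ha']
    simp only [L, map_add, map_sum, map_mul]
    push_cast
    simp only [coe_evHom, evMv_C a ha', evMv_X a ha']
  have hcoef : ∀ d, MvPowerSeries.coeff d L =
      (if d = 0 then MvPowerSeries.coeff 0 g else 0) +
        ∑ i, if d = Finsupp.single i 1 then MvPowerSeries.coeff (Finsupp.single i 1) g else 0 := by
    intro d
    simp only [L, map_add, map_sum, MvPowerSeries.coeff_C_mul, MvPowerSeries.coeff_X,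
      MvPowerSeries.coeff_C]
    congr 1
    refine Finset.sum_congr rfl fun i _ => ?_
    split_ifs <;> simp
  have hR : ∀ d : Fin m →₀ ℕ, d.degree < 2 → MvPowerSeries.coeff d (g - L) = 0 := by
    intro d hd
    rw [map_sub, hcoef, sub_eq_zero]
    obtain h0 | h1 : d.degree = 0 ∨ d.degree = 1 := by omega
    · have hd0 : d = 0 := (Finsupp.degree_eq_zero_iff d).1 h0
      subst hd0
      rw [if_pos rfl, Finset.sum_eq_zero, add_zero]
      intro i _
      rw [if_neg]
      intro h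
      have := congrArg Finsupp.degree h
      simp at this
    · -- `d = single i 1`
      have : ∃ i, d = Finsupp.single i 1 := by
        have hs : d.support.Nonempty := by
          rw [Finsupp.support_nonempty_iff]
          rintro rfl
          simp at h1
        obtain ⟨i, hi⟩ := hs
        refine ⟨i, ?_⟩
        have h2 : d i = 1 := by
          have h3 : d i ≤ d.degree := Finsupp.le_degree i d
          have h4 : d i ≠ 0 := Finsupp.mem_support_iff.1 hi
          omega
        ext j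
        by_cases hj : j = i
        · subst hj; simp [h2]
        · have h5 : d j + d i ≤ d.degree := by
            rw [Finsupp.degree_apply]
            calc d j + d i = ∑ x ∈ {j, i}, d x := by
                  rw [Finset.sum_pair hj]
              _ ≤ ∑ x ∈ d.support ∪ {j, i}, d x := Finset.sum_le_sum_of_subset (by simp)
              _ = ∑ x ∈ d.support, d x := by
                  refine (Finset.sum_subset Finset.subset_union_left ?_).symm
                  intro x _ hx
                  exact Finsupp.notMem_support_iff.1 hx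
          rw [Finsupp.single_apply, if_neg (Ne.symm hj)]
          omega
      obtain ⟨i, rfl⟩ := this
      rw [if_neg, zero_add, Finset.sum_eq_single i]
      · rw [if_pos rfl]
      · intro j _ hj
        rw [if_neg]
        intro h
        exact hj ((Finsupp.single_left_inj one_ne_zero).1 h).symm
      · simp
      · intro h
        have := congrArg Finsupp.degree h
        simp at this
  have hb := norm_evMv_le_of_order (g - L) 2 hR a ρ hρ1 hρ0 ha
  rwa [evMv_sub _ _ a ha', hL] at hb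

omit [IsUltrametricDist C] [CompleteSpace C] [CharP C p] [IsAlgClosed C] [NontriviallyNormedField C] in
private theorem norm_add_le_of_le {K : Type*} [NormedField K] [IsUltrametricDist K] {x y : K} {ε : ℝ}
    (hx : ‖x‖ ≤ ε) (hy : ‖y‖ ≤ ε) : ‖x + y‖ ≤ ε :=
  (IsUltrametricDist.norm_add_le_max x y).trans (max_le hx hy)

/-- The generic law evaluated at a small `a`. -/
private def lawAt (τ : Fin (n - h) → OC C) (a : Fin (n - h) → C) (ha : ∀ i, ‖a i‖ < 1) :
    FormalGroup (OC C) := (HS p h n (tauS h n τ)).map (evHom a ha)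

private instance (τ : Fin (n - h) → OC C) (a : Fin (n - h) → C) (ha : ∀ i, ‖a i‖ < 1) :
    (lawAt p h n τ a ha).IsComm := isComm_map _ _

private theorem lawAt_zero (τ : Fin (n - h) → OC C) :
    lawAt p h n τ (fun _ => 0) (fun _ => by simp) = HS p h n τ := by
  rw [lawAt, HS_map]
  congr 2
  funext j
  apply Subtype.ext
  have ha : ∀ i : Fin (n - h), ‖(fun _ => (0 : C)) i‖ < 1 := fun _ => by simp
  rw [coe_evHom, tauS, evMv_add _ _ _ ha, evMv_C _ ha, evMv_X _ ha, add_zero]

private theorem coeff_mulSeries_lawAt (τ : Fin (n - h) → OC C) (a : Fin (n - h) → C)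
    (ha : ∀ i, ‖a i‖ < 1) (j : ℕ) :
    ((PowerSeries.coeff j (mulSeries (lawAt p h n τ a ha) p) : OC C) : C) =
      evMv (PowerSeries.coeff j (PPS p h n τ)) a := by
  rw [lawAt, mulSeries_map, PowerSeries.coeff_map, coe_evHom]
  rfl

private theorem cf_lawAt (τ : Fin (n - h) → OC C) (a : Fin (n - h) → C)
    (ha : ∀ i, ‖a i‖ < 1) (d : Fin 2 →₀ ℕ) :
    cf (lawAt p h n τ a ha).toPowerSeries d =
      evMv (MvPowerSeries.coeff d (HS p h n (tauS h n τ)).toPowerSeries) a := by
  simp only [cf, lawAt, FormalGroup.map_toPowerSeries, MvPowerSeries.coeff_map, coe_evHom]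

/-- The direction `t e_e`. -/
private def dirA (e : Fin (n - h)) (t : C) : Fin (n - h) → C := fun i => if i = e then t else 0

omit [CompleteSpace C] [IsUltrametricDist C] [CharP C p] [IsAlgClosed C] in
private theorem norm_dirA_le (e : Fin (n - h)) (t : C) (i : Fin (n - h)) : ‖dirA h n e t i‖ ≤ ‖t‖ := by
  unfold dirA
  split_ifs <;> simp

/-- Closeness of the law at `t e_e` to `H(τ)`. -/
private theorem lawAt_close (τ : Fin (n - h) → OC C) (e : Fin (n - h)) (t : C) (ht : ‖t‖ < 1)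
    (ha : ∀ i, ‖dirA h n e t i‖ < 1) (d : Fin 2 →₀ ℕ) :
    ‖cf (lawAt p h n τ (dirA h n e t) ha).toPowerSeries d - cf (HS p h n τ).toPowerSeries d‖ ≤ ‖t‖ := by
  have h0 := lawAt_zero p h n τ
  conv_lhs => rw [← h0]
  rw [cf_lawAt, cf_lawAt]
  refine norm_evMv_sub_le _ _ _ ha (fun _ => by simp) _ (fun i => ?_) (norm_nonneg _)
  simpa using norm_dirA_le h n e t i

/-- First-order expansion of `[p]` in the direction `e`. -/
private theorem pSeries_first_order (τ : Fin (n - h) → OC C) (e : Fin (n - h)) (t : C) (ht : ‖t‖ < 1)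
    (ha : ∀ i, ‖dirA h n e t i‖ < 1) (x : C) (hx : ‖x‖ < 1) :
    ‖ev1 (mulSeries (lawAt p h n τ (dirA h n e t) ha) p) x - ev1 (mulSeries (HS p h n τ) p) x -
      t * ev1 (dPS p h n τ e) x‖ ≤ ‖t‖ ^ 2 := by
  let t' : OC C := ⟨t, ht.le⟩
  have hg : ev1 (mulSeries (HS p h n τ) p + PowerSeries.C t' * dPS p h n τ e) x =
      ev1 (mulSeries (HS p h n τ) p) x + t * ev1 (dPS p h n τ e) x := by
    rw [← coe_ev1Hom x hx, map_add, map_mul]
    push_cast
    rw [coe_ev1Hom, coe_ev1Hom, coe_ev1Hom, ev1_C' _ _ hx]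
  rw [sub_sub, ← hg]
  refine norm_ev1_sub_of_coeff _ _ x hx _ (by positivity) fun j => ?_
  rw [map_add, PowerSeries.coeff_C_mul]
  push_cast
  rw [coeff_mulSeries_lawAt]
  have h0 := lawAt_zero p h n τ
  have h1 : ((PowerSeries.coeff j (mulSeries (HS p h n τ) p) : OC C) : C) =
      evMv (PowerSeries.coeff j (PPS p h n τ)) (fun _ => 0) := by
    conv_lhs => rw [← h0]
    rw [coeff_mulSeries_lawAt]
  have h2 : ((PowerSeries.coeff j (dPS p h n τ e) : OC C) : C) =
      cf (PowerSeries.coeff j (PPS p h n τ)) (Finsupp.single e 1) := by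
    simp [dPS]
  rw [h1, h2]
  set g := PowerSeries.coeff j (PPS p h n τ) with hgdef
  have h3 := evMv_first_order g (dirA h n e t) ‖t‖ (norm_nonneg _) ht (norm_dirA_le h n e t)
  have h4 := evMv_first_order g (fun _ => 0) 0 le_rfl one_pos (fun _ => by simp)
  have h5 : ∑ i, cf g (Finsupp.single i 1) * dirA h n e t i = cf g (Finsupp.single e 1) * t := by
    rw [Finset.sum_eq_single e]
    · simp [dirA]
    · intro i _ hi
      simp [dirA, hi]
    · simp
  rw [h5] at h3
  have h6 : evMv g (fun _ => 0) = cf g 0 := by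
    have h7 : ‖evMv g (fun _ => 0) - cf g 0‖ ≤ 0 := by
      simpa using h4
    exact sub_eq_zero.1 (norm_le_zero_iff.1 h7)
  rw [h6]
  rw [show (t' : C) = t from rfl]
  convert h3 using 2
  ring

end Expansion

/-- `κ_e` on `H[p]` is additive. Proof: `[p]_{F_A}(F_A(y,y')) = F_A([p]_{F_A}y, [p]_{F_A}y')`, in first order in
`A` (i.e. over `S/(A)²`), using `[p]_H'(y'') = 0` (the derivative of a series in `X^P` vanishes) and
`F_A(a,b) = a + b + O(ab)`, `a, b = O(A)`. -/
theorem kappa_additive (hh : 1 ≤ h) (hn : h < n) (τ : Fin (n - h) → OC C)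
    (hτ : ∀ j, ‖((τ j : OC C) : C)‖ < 1) (e : Fin (n - h)) (y y' : LawPt (HS p h n τ))
    (hy : p • y = 0) (hy' : p • y' = 0) :
    ev1 (dPS p h n τ e) (y + y').val = ev1 (dPS p h n τ e) y.val + ev1 (dPS p h n τ e) y'.val := by
  have hP2 : 2 ≤ p ^ h := by
    have hp1 : 1 < p := (Fact.out : p.Prime).one_lt
    calc 2 ≤ p := hp1
      _ = p ^ 1 := (pow_one p).symm
      _ ≤ p ^ h := Nat.pow_le_pow_right (by omega) hh
  set κ : C → C := ev1 (dPS p h n τ e) with hκ
  have hnorm_κ : ∀ x : C, ‖x‖ < 1 → ‖κ x‖ ≤ 1 := by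
    intro x hx
    rw [hκ, ev1_eq_evMv]
    exact norm_evMv_le_one _ _ (fun _ => hx)
  have key : ∀ t : C, t ≠ 0 → ‖t‖ < 1 →
      ‖κ (y + y').val - (κ y.val + κ y'.val)‖ ≤ ‖t‖ := by
    intro t ht0 ht
    have ha : ∀ i, ‖dirA h n e t i‖ < 1 := fun i => (norm_dirA_le h n e t i).trans_lt ht
    set F := lawAt p h n τ (dirA h n e t) ha with hF
    have ht2 : ‖t‖ ^ 2 ≤ ‖t‖ := by
      rw [pow_two]
      exact mul_le_of_le_one_left (norm_nonneg _) ht.le
    -- points of `F`
    let yt : LawPt F := LawPt.mk y.val y.norm_lt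
    let yt' : LawPt F := LawPt.mk y'.val y'.norm_lt
    set A : C := (p • yt).val with hA
    set B : C := (p • yt').val with hB
    have hAB : ev1 (mulSeries F p) (yt + yt').val = lawAdd F A B := by
      rw [← LawPt.val_nsmul, nsmul_add, LawPt.val_add]
    have hfo := fun x hx => pSeries_first_order p h n τ e t ht ha x hx
    -- expansion at the torsion points
    have h1 : ‖A - t * κ y.val‖ ≤ ‖t‖ ^ 2 := by
      have := hfo y.val y.norm_lt
      rw [← LawPt.val_nsmul, hy, LawPt.val_zero, sub_zero] at this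
      rw [hA, LawPt.val_nsmul]
      exact this
    have h2 : ‖B - t * κ y'.val‖ ≤ ‖t‖ ^ 2 := by
      have := hfo y'.val y'.norm_lt
      rw [← LawPt.val_nsmul, hy', LawPt.val_zero, sub_zero] at this
      rw [hB, LawPt.val_nsmul]
      exact this
    have hsmall : ∀ x : C, ‖x‖ < 1 → ∀ D : C, ‖D - t * κ x‖ ≤ ‖t‖ ^ 2 → ‖D‖ ≤ ‖t‖ := by
      intro x hx D hD
      have h3 : ‖t * κ x‖ ≤ ‖t‖ := by
        rw [norm_mul]
        exact mul_le_of_le_one_right (norm_nonneg _) (hnorm_κ x hx)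
      have h4 : D = (D - t * κ x) + t * κ x := by ring
      rw [h4]
      exact norm_add_le_of_le (hD.trans ht2) h3
    have hA' := hsmall _ y.norm_lt _ h1
    have hB' := hsmall _ y'.norm_lt _ h2
    have hAlt : ‖A‖ < 1 := LawPt.norm_lt _
    have hBlt : ‖B‖ < 1 := LawPt.norm_lt _
    have h3 : ‖lawAdd F A B - (A + B)‖ ≤ ‖t‖ ^ 2 := by
      refine (norm_lawAdd_sub_add_le F A B hAlt hBlt).trans ?_
      rw [pow_two]
      exact mul_le_mul hA' hB' (norm_nonneg _) (norm_nonneg _)
    -- closeness of the sum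
    set Z : C := (yt + yt').val with hZ
    set y2 : C := (y + y').val with hy2
    have hZlt : ‖Z‖ < 1 := LawPt.norm_lt _
    have hy2lt : ‖y2‖ < 1 := LawPt.norm_lt _
    have h4 : ‖Z - y2‖ ≤ ‖t‖ := by
      rw [hZ, hy2, LawPt.val_add, LawPt.val_add]
      exact norm_evMv_sub_of_coeff _ _ _ (norm_ball_pair y.norm_lt y'.norm_lt) _ (norm_nonneg _)
        (lawAt_close p h n τ e t ht ha)
    -- `[p]_H` at `Z`
    haveI : CharP (OC C) p := charP_OC p
    have h5 : ‖ev1 (mulSeries (HS p h n τ) p) Z‖ ≤ ‖t‖ ^ 2 := by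
      have hpZ : ev1 (mulSeries (HS p h n τ) p) Z = ev1 (psiS p h n τ) (Z ^ p ^ h) := by
        have := val_pSmul_HS p h n hh hn.le τ (LawPt.mk Z hZlt)
        rwa [LawPt.val_nsmul] at this
      have hpy : ev1 (psiS p h n τ) (y2 ^ p ^ h) = 0 := by
        rw [hy2, ← val_pSmul_HS p h n hh hn.le, nsmul_add, hy, hy', add_zero, LawPt.val_zero]
      rw [hpZ, ← sub_zero (ev1 (psiS p h n τ) (Z ^ p ^ h)), ← hpy]
      have hlt : ∀ x : C, ‖x‖ < 1 → ‖x ^ p ^ h‖ < 1 := by
        intro x hx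
        rw [norm_pow]
        exact pow_lt_one₀ (norm_nonneg _) hx (by omega)
      refine (norm_ev1_sub_le _ _ _ (hlt _ hZlt) (hlt _ hy2lt)).trans ?_
      rw [← sub_pow_char_pow, norm_pow]
      calc ‖Z - y2‖ ^ p ^ h ≤ ‖t‖ ^ p ^ h := pow_le_pow_left₀ (norm_nonneg _) h4 _
        _ ≤ ‖t‖ ^ 2 := pow_le_pow_of_le_one (norm_nonneg _) ht.le hP2
    have h6 : ‖t * κ y2 - t * κ Z‖ ≤ ‖t‖ ^ 2 := by
      rw [← mul_sub, norm_mul, pow_two]
      refine mul_le_mul_of_nonneg_left ?_ (norm_nonneg _)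
      rw [hκ]
      refine (norm_ev1_sub_le _ _ _ hy2lt hZlt).trans ?_
      rw [norm_sub_rev]
      exact h4
    have h7 := hfo Z hZlt
    rw [hAB] at h7
    have hdecomp : t * (κ y2 - (κ y.val + κ y'.val)) =
        (t * κ y2 - t * κ Z) + (-(lawAdd F A B - ev1 (mulSeries (HS p h n τ) p) Z - t * κ Z)) +
          (-ev1 (mulSeries (HS p h n τ) p) Z) + (lawAdd F A B - (A + B)) +
          (A - t * κ y.val) + (B - t * κ y'.val) := by
      ring
    have hfinal : ‖t * (κ y2 - (κ y.val + κ y'.val))‖ ≤ ‖t‖ ^ 2 := by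
      rw [hdecomp]
      refine norm_add_le_of_le (norm_add_le_of_le (norm_add_le_of_le (norm_add_le_of_le
        (norm_add_le_of_le h6 ?_) ?_) h3) h1) h2
      · rwa [norm_neg]
      · rwa [norm_neg]
    rw [norm_mul, pow_two] at hfinal
    exact le_of_mul_le_mul_left hfinal (norm_pos_iff.2 ht0)
  have hzero : ‖κ (y + y').val - (κ y.val + κ y'.val)‖ ≤ 0 := by
    refine le_of_forall_pos_le_add fun ε hε => ?_
    obtain ⟨t, ht0, ht⟩ := NormedField.exists_norm_lt C (lt_min hε one_pos)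
    rw [zero_add]
    refine (key t (norm_pos_iff.1 ht0) (ht.trans_le (min_le_right _ _))).trans ?_
    exact ht.le.trans (min_le_left _ _)
  exact sub_eq_zero.1 (norm_le_zero_iff.1 hzero)

section Triangular

/-- Low coefficients of a sum with a token of high order. -/
private theorem coeff_subst_low {R : Type*} [CommRing R] (F : FormalGroup R) (a : PowerSeries R)
    (ha : PowerSeries.HasSubst a) (c : R) (N j : ℕ) (hN : N ≠ 0) (hj : j < N) :
    PowerSeries.coeff j (F.toPowerSeries.subst ![a, PowerSeries.C c * PowerSeries.X ^ N] : PowerSeries R) =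
      PowerSeries.coeff j a := by
  have hb : PowerSeries.HasSubst (PowerSeries.C c * PowerSeries.X ^ N : PowerSeries R) := by
    refine PowerSeries.HasSubst.of_constantCoeff_zero' ?_
    simp [hN]
  have h0 : PowerSeries.HasSubst (0 : PowerSeries R) := PowerSeries.HasSubst.zero
  have hsub1 : MvPowerSeries.HasSubst ![a, PowerSeries.C c * PowerSeries.X ^ N] :=
    MvPowerSeries.hasSubst_of_constantCoeff_nilpotent fun s => by
      fin_cases s
      · exact ha
      · exact hb
  have hsub2 : MvPowerSeries.HasSubst ![a, (0 : PowerSeries R)] :=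
    MvPowerSeries.hasSubst_of_constantCoeff_nilpotent fun s => by
      fin_cases s
      · exact ha
      · exact h0
  conv_rhs => rw [← F.add_zero (σ := Unit) ha]
  rw [PowerSeries.coeff, MvPowerSeries.coeff_subst hsub1, MvPowerSeries.coeff_subst hsub2]
  refine finsum_congr fun d => ?_
  congr 1
  rw [Finsupp.prod_fintype _ _ (by simp), Finsupp.prod_fintype _ _ (by simp), Fin.prod_univ_two,
    Fin.prod_univ_two]
  simp only [Matrix.cons_val_zero, Matrix.cons_val_one, Matrix.cons_val_fin_one]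
  by_cases hd : d 1 = 0
  · simp [hd]
  · rw [zero_pow hd, mul_zero, LinearMap.map_zero]
    rw [mul_pow, ← pow_mul, ← map_pow, ← mul_assoc]
    change PowerSeries.coeff j (_ * PowerSeries.X ^ _) = 0
    rw [PowerSeries.coeff_mul_X_pow', if_neg]
    have : N ≤ N * d 1 := Nat.le_mul_of_pos_right _ (Nat.pos_of_ne_zero hd)
    omega

omit [CharP C p] [IsAlgClosed C] [CompleteSpace C] in
private theorem coeff_zero_mul' {m : ℕ} (a b : SA C m) :
    cf (a * b) 0 = cf a 0 * cf b 0 := by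
  simp only [cf, MvPowerSeries.coeff_mul, Finsupp.antidiagonal_zero, Finset.sum_singleton]
  push_cast
  rfl

omit [CharP C p] [IsAlgClosed C] [CompleteSpace C] in
private theorem coeff_single_mul' {m : ℕ} (e : Fin m) (a b : SA C m) :
    cf (a * b) (Finsupp.single e 1) =
      cf a 0 * cf b (Finsupp.single e 1) + cf a (Finsupp.single e 1) * cf b 0 := by
  simp only [cf, MvPowerSeries.coeff_mul, Finsupp.antidiagonal_single, Finset.sum_map,
    Finset.Nat.antidiagonal_succ, Finset.Nat.antidiagonal_zero]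
  simp
  
/-- The ideal of series with small constant and `A_e`-coefficients. -/
private def idealI {m : ℕ} (e : Fin m) : Ideal (SA C m) where
  carrier := {g | ‖cf g 0‖ < 1 ∧ ‖cf g (Finsupp.single e 1)‖ < 1}
  add_mem' := by
    rintro a b ⟨ha0, ha1⟩ ⟨hb0, hb1⟩
    constructor
    · simp only [cf, map_add]
      push_cast
      exact (IsUltrametricDist.norm_add_le_max _ _).trans_lt (max_lt ha0 hb0)
    · simp only [cf, map_add]
      push_cast
      exact (IsUltrametricDist.norm_add_le_max _ _).trans_lt (max_lt ha1 hb1)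
  zero_mem' := by simp [cf]
  smul_mem' := by
    rintro a b ⟨hb0, hb1⟩
    have h0 : ∀ d, ‖cf a d‖ ≤ 1 := fun d => norm_cf_le a d
    have h1 : ∀ d, ‖cf b d‖ ≤ 1 := fun d => norm_cf_le b d
    constructor
    · rw [smul_eq_mul, coeff_zero_mul', norm_mul]
      exact mul_lt_one_of_nonneg_of_lt_one_right (h0 _) (norm_nonneg _) hb0
    · rw [smul_eq_mul, coeff_single_mul']
      refine (IsUltrametricDist.norm_add_le_max _ _).trans_lt (max_lt ?_ ?_)
      · rw [norm_mul]
        exact mul_lt_one_of_nonneg_of_lt_one_right (h0 _) (norm_nonneg _) hb1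
      · rw [norm_mul]
        exact mul_lt_one_of_nonneg_of_lt_one_right (h0 _) (norm_nonneg _) hb0

/-- `dPS` is a series in `X^P`, `dPS e = f_e(X^P)`, and modulo `𝔪_C` we have `f_e = Y^(p^e) · (unit series)`:
over `S̄ = (𝒪_C/𝔪_C)[A]/(A)²`, `[p]_F = X^q + (∑_e A_e X^(p^(h+e))) · Γ₂(X^q, 0)`, from `hzv_pSeries_charP`
(`F(a, ε) = a + ε F₂(a,0)` when `ε A = 0`, and products of `A`s vanish). -/
theorem dPS_triangular (hh : 1 ≤ h) (hn : h < n) (τ : Fin (n - h) → OC C)
    (hτ : ∀ j, ‖((τ j : OC C) : C)‖ < 1) (e : Fin (n - h)) :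
    ∃ f : PowerSeries (OC C), dPS p h n τ e = scomp f (PowerSeries.X ^ (p ^ h)) ∧
      (∀ j, j < p ^ (e : ℕ) → ‖((PowerSeries.coeff j f : OC C) : C)‖ < 1) ∧
      ‖((PowerSeries.coeff (p ^ (e : ℕ)) f : OC C) : C)‖ = 1 := by
  classical
  have hp0 : 0 < p := (Fact.out : p.Prime).pos
  have hp1 : 1 < p := (Fact.out : p.Prime).one_lt
  have hP0 : p ^ h ≠ 0 := pow_ne_zero _ hp0.ne'
  haveI hOC : CharP (OC C) p := charP_OC p
  haveI hS : CharP (SA C (n - h)) p :=
    charP_of_injective_ringHom (f := MvPowerSeries.C) (MvPowerSeries.C_injective) p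
  -- the `p`-series over `S` is a series in `X^P`
  have hPPS : PPS p h n τ = scomp (psiS p h n (tauS h n τ)) (PowerSeries.X ^ (p ^ h)) :=
    pSeries_HS p h n hh hn.le _
  have hcoefS : ∀ k, ¬ p ^ h ∣ k → PowerSeries.coeff k (PPS p h n τ) = 0 := by
    intro k hk
    rw [hPPS, scomp, PowerSeries.coeff_subst_X_pow hP0, if_neg hk]
  -- the candidate
  let f : PowerSeries (OC C) := PowerSeries.mk fun j => PowerSeries.coeff (p ^ h * j) (dPS p h n τ e)
  have hf : ∀ j, PowerSeries.coeff j f =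
      MvPowerSeries.coeff (Finsupp.single e 1) (PowerSeries.coeff (p ^ h * j) (PPS p h n τ)) := by
    intro j
    simp [f, dPS]
  have hfact : dPS p h n τ e = scomp f (PowerSeries.X ^ (p ^ h)) := by
    refine PowerSeries.ext fun k => ?_
    rw [scomp, PowerSeries.coeff_subst_X_pow hP0]
    split_ifs with hk
    · simp only [f, PowerSeries.coeff_mk, Nat.mul_div_cancel' hk, Algebra.algebraMap_self, RingHom.id_apply]
    · simp [dPS, hcoefS k hk]
  -- reduction
  let I : Ideal (SA C (n - h)) := idealI e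
  have h1I : (1 : SA C (n - h)) ∉ I := by
    intro hmem
    have := hmem.1
    simp [cf, MvPowerSeries.coeff_one] at this
  haveI hTnt : Nontrivial (SA C (n - h) ⧸ I) :=
    Ideal.Quotient.nontrivial_iff.2 (fun htop => h1I (htop ▸ Submodule.mem_top))
  let φ : SA C (n - h) →+* (SA C (n - h) ⧸ I) := Ideal.Quotient.mk I
  haveI hT : CharP (SA C (n - h) ⧸ I) p := by
    have hz : ((p : ℕ) : SA C (n - h) ⧸ I) = 0 := by
      have : ((p : ℕ) : SA C (n - h)) = 0 := CharP.cast_eq_zero _ p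
      rw [← map_natCast φ, this, map_zero]
    exact (CharP.charP_iff_prime_eq_zero (Fact.out : p.Prime)).2 hz
  set ε : SA C (n - h) ⧸ I := φ (MvPowerSeries.X e) with hε
  have hvne : ∀ j, j ≠ e → φ (tauS h n τ j) = 0 := by
    intro j hj
    refine Ideal.Quotient.eq_zero_iff_mem.2 ⟨?_, ?_⟩
    · simpa [tauS, cf, MvPowerSeries.coeff_C, MvPowerSeries.coeff_X] using hτ j
    · have h2 : Finsupp.single e 1 ≠ (0 : Fin (n - h) →₀ ℕ) := by simp
      have h3 : (Finsupp.single e 1 : Fin (n - h) →₀ ℕ) ≠ Finsupp.single j 1 := by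
        intro h4
        exact hj ((Finsupp.single_left_inj one_ne_zero).1 h4).symm
      simp [tauS, cf, MvPowerSeries.coeff_C, MvPowerSeries.coeff_X, h2, h3]
  have hve : φ (tauS h n τ e) = ε := by
    rw [hε, tauS, map_add, add_eq_right]
    refine Ideal.Quotient.eq_zero_iff_mem.2 ⟨?_, ?_⟩
    · simpa [cf, MvPowerSeries.coeff_C] using hτ e
    · simp [cf, MvPowerSeries.coeff_C]
  set v : Fin (n - h) → (SA C (n - h) ⧸ I) := fun j => φ (tauS h n τ j) with hv
  -- coefficient of the `p`-series over `T`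
  have hcoefT : ∀ j, φ (PowerSeries.coeff (p ^ h * j) (PPS p h n τ)) =
      PowerSeries.coeff j (psiS p h n v) := by
    intro j
    have h2 : mulSeries (HS p h n v) p = PowerSeries.map φ (PPS p h n τ) := by
      rw [PPS, ← mulSeries_map, HS_map]
    have h3 := pSeries_HS p h n hh hn.le v
    rw [h2] at h3
    have h4 := congrArg (PowerSeries.coeff (p ^ h * j)) h3
    rw [PowerSeries.coeff_map, scomp, PowerSeries.coeff_subst_X_pow hP0,
      if_pos (Dvd.intro _ rfl), Nat.mul_div_cancel_left _ (Nat.pos_of_ne_zero hP0)] at h4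
    exact h4
  -- the token sum over `T`
  have he' : (e : ℕ) < n - h := e.2
  have hpsi : ∀ j, j < p ^ (n - h) →
      PowerSeries.coeff j (psiS p h n v) = if j = p ^ (e : ℕ) then ε else 0 := by
    intro j hj
    let F := HS p h n v
    let tk : ℕ → F.Point Unit := fun i => tokenPt F (vStr h n v i) (p ^ (i + 1 - h))
      (pow_ne_zero _ hp0.ne')
    have hval1 : vStr h n v (h + e - 1) = ε := by
      have h5 : h ≤ h + (e : ℕ) - 1 + 1 ∧ h + (e : ℕ) - 1 + 1 < n := by omega
      simp only [vStr, dif_pos h5]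
      have h6 : (⟨h + (e : ℕ) - 1 + 1 - h, by omega⟩ : Fin (n - h)) = e := by
        apply Fin.ext
        show h + (e : ℕ) - 1 + 1 - h = e
        omega
      rw [h6]
      exact hve
    have hval2 : vStr h n v (n - 1) = 1 := by
      have h5 : ¬ (h ≤ n - 1 + 1 ∧ n - 1 + 1 < n) := by omega
      have h6 : n - 1 + 1 = n := by omega
      simp only [vStr, dif_neg h5, if_pos h6]
    have hother : ∀ i ∈ Finset.Ico (h - 1) n, i ≠ h + e - 1 ∧ i ≠ n - 1 → tk i = 0 := by
      rintro i hi ⟨hi1, hi2⟩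
      have hi' := Finset.mem_Ico.1 hi
      have h5 : h ≤ i + 1 ∧ i + 1 < n := by omega
      have h6 : vStr h n v i = 0 := by
        simp only [vStr, dif_pos h5]
        apply hvne
        intro h7
        apply hi1
        have := congrArg Fin.val h7
        simp only at this
        omega
      apply Subtype.ext
      show PowerSeries.C (vStr h n v i) * _ = 0
      rw [h6]
      simp
    have hsum : (∑ i ∈ Finset.Ico (h - 1) n, tk i) = tk (h + e - 1) + tk (n - 1) := by
      refine Finset.sum_eq_add _ _ (by omega) hother ?_ ?_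
      · intro h5
        exact absurd (Finset.mem_Ico.2 ⟨by omega, by omega⟩) h5
      · intro h5
        exact absurd (Finset.mem_Ico.2 ⟨by omega, by omega⟩) h5
    have hval0 : (tk (h + e - 1)).val = PowerSeries.C ε * PowerSeries.X ^ (p ^ (e : ℕ)) := by
      show PowerSeries.C (vStr h n v (h + e - 1)) * PowerSeries.X ^ (p ^ (h + (e : ℕ) - 1 + 1 - h)) = _
      rw [hval1]
      congr 3
      omega
    have hval3 : (tk (n - 1)).val = PowerSeries.C 1 * PowerSeries.X ^ (p ^ (n - h)) := by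
      show PowerSeries.C (vStr h n v (n - 1)) * PowerSeries.X ^ (p ^ (n - 1 + 1 - h)) = _
      rw [hval2]
      congr 3
      omega
    have hpsi' : psiS p h n v = F.toPowerSeries.subst ![(tk (h + e - 1)).val, (tk (n - 1)).val] := by
      show (∑ i ∈ Finset.Ico (h - 1) n, tk i).val = _
      rw [hsum]
      rfl
    rw [hpsi', hval3]
    rw [coeff_subst_low F _ (tk (h + e - 1)).prop 1 (p ^ (n - h)) j (pow_ne_zero _ hp0.ne') hj, hval0,
      PowerSeries.coeff_C_mul, PowerSeries.coeff_X_pow]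
    split_ifs <;> simp
  have hpow_lt : p ^ (e : ℕ) < p ^ (n - h) := Nat.pow_lt_pow_right hp1 he'
  refine ⟨f, hfact, ?_, ?_⟩
  · intro j hj
    rw [hf]
    have h2 : φ (PowerSeries.coeff (p ^ h * j) (PPS p h n τ)) = 0 := by
      rw [hcoefT, hpsi j (hj.trans hpow_lt), if_neg hj.ne]
    exact (Ideal.Quotient.eq_zero_iff_mem.1 h2).2
  · rw [hf]
    have h2 : φ (PowerSeries.coeff (p ^ h * p ^ (e : ℕ)) (PPS p h n τ) - MvPowerSeries.X e) = 0 := by
      rw [map_sub, hcoefT, hpsi _ hpow_lt, if_pos rfl, sub_self]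
    have h3 := (Ideal.Quotient.eq_zero_iff_mem.1 h2).2
    simp only [cf, map_sub, MvPowerSeries.coeff_X, if_true] at h3
    push_cast at h3
    set w : C := ((MvPowerSeries.coeff (Finsupp.single e 1) (PowerSeries.coeff (p ^ h * p ^ (e : ℕ)) (PPS p h n τ)) : OC C) : C) with hw
    have h4 : w = (w - 1) + 1 := by ring
    show ‖w‖ = 1
    rw [h4, IsUltrametricDist.norm_add_eq_max_of_norm_ne_norm (by rw [norm_one]; exact h3.ne),
      norm_one]
    exact max_eq_right h3.le

end Triangular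

omit [CompleteSpace C] [CharP C p] [IsAlgClosed C] in
private theorem norm_sum_lt_one {ι : Type*} (s : Finset ι) (u : ι → C) (hu : ∀ i ∈ s, ‖u i‖ < 1) :
    ‖∑ i ∈ s, u i‖ < 1 := by
  classical
  induction s using Finset.induction_on with
  | empty => simp
  | insert a s ha ih =>
    rw [Finset.sum_insert ha]
    refine (IsUltrametricDist.norm_add_le_max _ _).trans_lt (max_lt ?_ ?_)
    · exact hu a (Finset.mem_insert_self _ _)
    · exact ih fun i hi => hu i (Finset.mem_insert_of_mem hi)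

/-- **Kodaira-Spencer.** For an `𝔽_p`-basis `c` of `H[p]` the matrix `(κ_e(c_i))` is invertible. Otherwise
some nonzero `λ` (scaled: `max ‖λ_e‖ = 1`) has `∑ λ_e κ_e = 0` on `H[p]` (additivity). `e₀` the smallest index with
`‖λ_e₀‖ = 1`: `∑ λ_e f_e` has first unit coefficient at degree `p^(e₀) ≤ p^(m-1)`, so at most `p^(m-1)` zeros
(`card_zeros_le`), but it vanishes at the `p^m` points `c^P`. -/
theorem det_kappa_ne_zero (hh : 1 ≤ h) (hn : h < n) (τ : Fin (n - h) → OC C)
    (hτ : ∀ j, ‖((τ j : OC C) : C)‖ < 1) (hτ0 : τ ⟨0, by omega⟩ ≠ 0)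
    (c : Fin (n - h) → LawPt (HS p h n τ)) (hc : ∀ i, p • c i = 0)
    (hind : ∀ a : Fin (n - h) → ℕ, ∑ i, a i • c i = 0 → ∀ i, p ∣ a i) :
    (Matrix.of fun (i e : Fin (n - h)) => ev1 (dPS p h n τ e) (c i).val).det ≠ 0 := by
  classical
  intro hdet
  have hp0 : 0 < p := (Fact.out : p.Prime).pos
  have hp1 : 1 < p := (Fact.out : p.Prime).one_lt
  obtain ⟨v, hv0, hv⟩ := Matrix.exists_mulVec_eq_zero_iff.2 hdet
  haveI hne : Nonempty (Fin (n - h)) := ⟨⟨0, by omega⟩⟩
  obtain ⟨e₁, -, he₁⟩ := Finset.exists_max_image Finset.univ (fun e => ‖v e‖) Finset.univ_nonempty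
  have hve₁ : v e₁ ≠ 0 := by
    intro h0
    apply hv0
    funext e
    have := he₁ e (Finset.mem_univ _)
    rw [h0, norm_zero] at this
    simpa using norm_le_zero_iff.1 this
  have hlam : ∀ e, ‖v e / v e₁‖ ≤ 1 := by
    intro e
    rw [norm_div]
    exact div_le_one_of_le₀ (he₁ e (Finset.mem_univ _)) (norm_nonneg _)
  let lam : Fin (n - h) → OC C := fun e => ⟨v e / v e₁, hlam e⟩
  have hlam_coe : ∀ e, ((lam e : OC C) : C) = v e / v e₁ := fun _ => rfl
  have hlam1 : ‖((lam e₁ : OC C) : C)‖ = 1 := by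
    rw [hlam_coe, div_self hve₁, norm_one]
  have hlam_le : ∀ e, ‖((lam e : OC C) : C)‖ ≤ 1 := hlam
  -- the torsion group
  let T := (nsmulAddMonoidHom (α := LawPt (HS p h n τ)) p).ker
  have hmemT : ∀ w : LawPt (HS p h n τ), p • w = 0 → w ∈ T := fun w hw =>
    AddMonoidHom.mem_ker.2 (by rwa [nsmulAddMonoidHom_apply])
  have hT : ∀ w : T, p • w.1 = 0 := fun w => by
    have := AddMonoidHom.mem_ker.1 w.2
    rwa [nsmulAddMonoidHom_apply] at this
  -- additive functional
  let Φ : T →+ C := AddMonoidHom.mk' (fun w => ∑ e, ((lam e : OC C) : C) * ev1 (dPS p h n τ e) w.1.val) (by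
    intro w w'
    show ∑ e, _ * ev1 _ (w.1 + w'.1).val = _
    rw [← Finset.sum_add_distrib]
    refine Finset.sum_congr rfl fun e _ => ?_
    rw [kappa_additive p h n hh hn τ hτ e w.1 w'.1 (hT w) (hT w'), mul_add])
  have hΦ : ∀ w : T, Φ w = ∑ e, ((lam e : OC C) : C) * ev1 (dPS p h n τ e) w.1.val := fun _ => rfl
  have hΦc : ∀ i, Φ ⟨c i, hmemT _ (hc i)⟩ = 0 := by
    intro i
    rw [hΦ]
    have h1 := congrFun hv i
    simp only [Matrix.mulVec, dotProduct, Matrix.of_apply, Pi.zero_apply] at h1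
    have h2 : ∑ e, ev1 (dPS p h n τ e) (c i).val * (v e / v e₁) = 0 := by
      have : ∑ e, ev1 (dPS p h n τ e) (c i).val * (v e / v e₁) =
          (∑ e, ev1 (dPS p h n τ e) (c i).val * v e) / v e₁ := by
        rw [Finset.sum_div]
        refine Finset.sum_congr rfl fun e _ => ?_
        ring
      rw [this, h1, zero_div]
    rw [← h2]
    refine Finset.sum_congr rfl fun e _ => ?_
    rw [hlam_coe, mul_comm]
  -- `Φ` vanishes on the whole of `H[p]`
  let ζ : (Fin (n - h) → Fin p) → T := fun a => ∑ i, ((a i : ℕ)) • (⟨c i, hmemT _ (hc i)⟩ : T)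
  have hζ : ∀ a, (ζ a).1 = ∑ i, (a i : ℕ) • c i := by
    intro a
    simp [ζ]
  have hζinj : Function.Injective ζ := by
    intro a a' haa
    have h1 : ∑ i, (a i : ℕ) • c i = ∑ i, (a' i : ℕ) • c i := by
      rw [← hζ, ← hζ, haa]
    have h2 : ∑ i, ((a i : ℕ) + (p - (a' i : ℕ))) • c i = 0 := by
      have h3 : ∀ i, ((a i : ℕ) + (p - (a' i : ℕ))) • c i = (a i : ℕ) • c i - (a' i : ℕ) • c i := by
        intro i
        have h4 : (p - (a' i : ℕ)) • c i + (a' i : ℕ) • c i = 0 := by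
          rw [← add_smul, Nat.sub_add_cancel (a' i).2.le, hc i]
        rw [add_smul, eq_sub_iff_add_eq, add_assoc, h4, add_zero]
      simp only [h3, Finset.sum_sub_distrib, h1, sub_self]
    have h5 := hind _ h2
    funext i
    apply Fin.ext
    obtain ⟨k, hk⟩ := h5 i
    have hai := (a i).2
    have hai' := (a' i).2
    have hk1 : k = 1 := by
      rcases k with _ | _ | k
      · simp at hk; omega
      · rfl
      · exfalso
        have : p * (k + 1 + 1) = p * k + 2 * p := by ring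
        omega
    subst hk1
    omega
  have hcardT : Nat.card T = p ^ (n - h) := card_pTorsion_HS p h n hh hn τ hτ hτ0
  haveI hfinT : Finite T := by
    apply Nat.finite_of_card_ne_zero
    rw [hcardT]
    exact pow_ne_zero _ hp0.ne'
  have hζsurj : Function.Surjective ζ := by
    refine (hζinj.bijective_of_nat_card_le ?_).2
    rw [hcardT, Nat.card_fun, Nat.card_eq_fintype_card, Fintype.card_fin, Nat.card_eq_fintype_card, Fintype.card_fin]
  have hΦ0 : ∀ w : T, Φ w = 0 := by
    intro w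
    obtain ⟨a, rfl⟩ := hζsurj w
    simp only [ζ, map_sum, map_nsmul, hΦc, smul_zero, Finset.sum_const_zero]
  -- the series
  choose f hf1 hf2 hf3 using fun e => dPS_triangular p h n hh hn τ hτ e
  have hP0 : p ^ h ≠ 0 := pow_ne_zero _ hp0.ne'
  have hXP : PowerSeries.constantCoeff (PowerSeries.X ^ (p ^ h) : PowerSeries (OC C)) = 0 := by
    simp [hp0.ne']
  have hev : ∀ e, ∀ w : C, ‖w‖ < 1 → ev1 (dPS p h n τ e) w = ev1 (f e) (w ^ p ^ h) := by
    intro e w hw
    rw [hf1 e, scomp, ev1_subst _ _ hXP _ hw, ev1_X_pow' _ _ hw]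
  let g : PowerSeries (OC C) := ∑ e, PowerSeries.C (lam e) * f e
  have hgev : ∀ y : C, ‖y‖ < 1 → ev1 g y = ∑ e, ((lam e : OC C) : C) * ev1 (f e) y := by
    intro y hy
    rw [← coe_ev1Hom y hy]
    simp only [g, map_sum, map_mul]
    push_cast
    refine Finset.sum_congr rfl fun e _ => ?_
    rw [coe_ev1Hom, coe_ev1Hom, ev1_C' _ _ hy]
  have hgcoef : ∀ j, ((PowerSeries.coeff j g : OC C) : C) =
      ∑ e, ((lam e : OC C) : C) * ((PowerSeries.coeff j (f e) : OC C) : C) := by
    intro j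
    simp only [g, map_sum, PowerSeries.coeff_C_mul]
    push_cast
    rfl
  -- the minimal index
  obtain ⟨e₀, he₀, hmin⟩ := Finset.exists_min_image
    (Finset.univ.filter fun e : Fin (n - h) => ‖((lam e : OC C) : C)‖ = 1) id ⟨e₁, by simp [hlam1]⟩
  have he₀1 : ‖((lam e₀ : OC C) : C)‖ = 1 := (Finset.mem_filter.1 he₀).2
  have hlt_of_lt : ∀ e, e < e₀ → ‖((lam e : OC C) : C)‖ < 1 := by
    intro e he
    refine lt_of_le_of_ne (hlam_le e) fun h1 => ?_
    have := hmin e (by simp [h1])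
    exact absurd he (not_lt.2 this)
  have hcf_le : ∀ (e : Fin (n - h)) j, ‖((PowerSeries.coeff j (f e) : OC C) : C)‖ ≤ 1 :=
    fun e j => (PowerSeries.coeff j (f e)).2
  have hpowlt : ∀ {a b : ℕ}, a < b → p ^ a < p ^ b := fun hab => Nat.pow_lt_pow_right hp1 hab
  have hlow : ∀ j, j < p ^ (e₀ : ℕ) → ‖((PowerSeries.coeff j g : OC C) : C)‖ < 1 := by
    intro j hj
    rw [hgcoef]
    refine norm_sum_lt_one _ _ fun e _ => ?_
    rw [norm_mul]
    rcases lt_or_ge e e₀ with he | he
    · exact mul_lt_one_of_nonneg_of_lt_one_left (norm_nonneg _) (hlt_of_lt e he) (hcf_le e j)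
    · have h1 : j < p ^ (e : ℕ) := hj.trans_le (Nat.pow_le_pow_right hp0 (by exact_mod_cast he))
      exact mul_lt_one_of_nonneg_of_lt_one_right (hlam_le e) (norm_nonneg _) (hf2 e j h1)
  have htop : ‖((PowerSeries.coeff (p ^ (e₀ : ℕ)) g : OC C) : C)‖ = 1 := by
    rw [hgcoef, ← Finset.add_sum_erase _ _ (Finset.mem_univ e₀)]
    have h1 : ‖((lam e₀ : OC C) : C) * ((PowerSeries.coeff (p ^ (e₀ : ℕ)) (f e₀) : OC C) : C)‖ = 1 := by
      rw [norm_mul, he₀1, hf3, one_mul]
    have h2 : ‖∑ e ∈ Finset.univ.erase e₀, ((lam e : OC C) : C) * ((PowerSeries.coeff (p ^ (e₀ : ℕ)) (f e) : OC C) : C)‖ < 1 := by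
      refine norm_sum_lt_one _ _ fun e he => ?_
      have hne' : e ≠ e₀ := (Finset.mem_erase.1 he).1
      rw [norm_mul]
      rcases lt_or_gt_of_ne hne' with he' | he'
      · exact mul_lt_one_of_nonneg_of_lt_one_left (norm_nonneg _) (hlt_of_lt e he') (hcf_le e _)
      · exact mul_lt_one_of_nonneg_of_lt_one_right (hlam_le e) (norm_nonneg _)
          (hf2 e _ (hpowlt (by exact_mod_cast he')))
    rw [IsUltrametricDist.norm_add_eq_max_of_norm_ne_norm (by rw [h1]; exact h2.ne'), h1]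
    exact max_eq_left h2.le
  obtain ⟨hZfin, hZcard⟩ := card_zeros_le g (p ^ (e₀ : ℕ)) hlow htop
  haveI := hZfin.to_subtype
  -- `w ↦ w^P` injects `H[p]` into the zeros of `g`
  have hle : Nat.card T ≤ Nat.card {y : C | ‖y‖ < 1 ∧ ev1 g y = 0} := by
    refine Nat.card_le_card_of_injective
      (fun w : T => ⟨w.1.val ^ (p ^ h), ?_, ?_⟩) ?_
    · rw [norm_pow]
      exact pow_lt_one₀ (norm_nonneg _) w.1.norm_lt hP0
    · have hlt : ‖w.1.val ^ p ^ h‖ < 1 := by
        rw [norm_pow]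
        exact pow_lt_one₀ (norm_nonneg _) w.1.norm_lt hP0
      rw [hgev _ hlt, ← hΦ0 w, hΦ]
      refine Finset.sum_congr rfl fun e _ => ?_
      rw [hev e _ w.1.norm_lt]
    · rintro ⟨w, hw⟩ ⟨w', hw'⟩ heq
      simp only [Subtype.mk.injEq] at heq
      apply Subtype.ext
      apply LawPt.ext'
      have := congrArg (pRoot p h) heq
      simpa [pow_pRoot] using this
  rw [hcardT, Nat.card_coe_set_eq] at hle
  have hlt : p ^ (e₀ : ℕ) < p ^ (n - h) := hpowlt e₀.2
  omega

end

end Crest.Agent.LT
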