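/-
S0351 package CHARP/CHART: the asymptotic chart `θ_δ(π'_δ(x)) ≈ polynomial in A_δ`. See BLUEPRINT.md §CP3.
-/
import Crest.Agent.LT.CharP.Jets
import Crest.Agent.LT.CharP.Torsion
import Crest.Agent.LT.NegSeries

set_option autoImplicit false
set_option linter.unusedSectionVars false

open Crest.LubinTate

namespace Crest.Agent.LT

noncomputable section

/-! ### Generic facts on one-variable series -/
section Series

variable {R : Type*} [CommRing R]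

theorem chart_coeff_pow_eq_zero (a : PowerSeries R) (ha : PowerSeries.constantCoeff a = 0)
    {k j : ℕ} (hkj : k < j) : PowerSeries.coeff k (a ^ j) = 0 := by
  obtain ⟨b, rfl⟩ := PowerSeries.X_dvd_iff.mpr ha
  rw [mul_pow, PowerSeries.coeff_X_pow_mul', if_neg (by omega)]

theorem chart_coeff_pow_self (a : PowerSeries R) (ha : PowerSeries.constantCoeff a = 0) (k : ℕ) :
    PowerSeries.coeff k (a ^ k) = (PowerSeries.coeff 1 a) ^ k := by
  obtain ⟨b, rfl⟩ := PowerSeries.X_dvd_iff.mpr ha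
  rw [mul_pow, PowerSeries.coeff_X_pow_mul', if_pos le_rfl, Nat.sub_self]
  have : PowerSeries.coeff 1 (PowerSeries.X * b) = PowerSeries.coeff 0 b := PowerSeries.coeff_succ_X_mul 0 b
  rw [this]
  simp

/-- Coefficients of a composition as a finite sum. -/
theorem chart_coeff_scomp (f a : PowerSeries R) (ha : PowerSeries.constantCoeff a = 0) (k : ℕ) :
    PowerSeries.coeff k (scomp f a) =
      ∑ j ∈ Finset.range (k + 1), PowerSeries.coeff j f * PowerSeries.coeff k (a ^ j) := by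
  have hs : PowerSeries.HasSubst a := PowerSeries.HasSubst.of_constantCoeff_zero' ha
  rw [scomp, PowerSeries.coeff_subst' hs]
  rw [finsum_eq_sum_of_support_subset (s := Finset.range (k + 1))]
  · simp [smul_eq_mul]
  · intro j hj
    simp only [Function.mem_support, ne_eq] at hj
    simp only [Finset.coe_range, Set.mem_Iio]
    by_contra hlt
    apply hj
    rw [chart_coeff_pow_eq_zero a ha (by omega), smul_zero]

theorem chart_scomp_X_pow_inj {P : ℕ} (hP : P ≠ 0) {f g : PowerSeries R}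
    (h : scomp f (PowerSeries.X ^ P) = scomp g (PowerSeries.X ^ P)) : f = g := by
  ext m
  have := congrArg (PowerSeries.coeff (P * m)) h
  simpa [scomp, PowerSeries.coeff_subst_X_pow hP, Nat.mul_div_cancel_left _ (Nat.pos_of_ne_zero hP)]
    using this

/-- Coefficientwise `P`-th power. -/
def chartFrob (P : ℕ) (f : PowerSeries R) : PowerSeries R :=
  PowerSeries.mk fun j => PowerSeries.coeff j f ^ P

@[simp] theorem coeff_chartFrob (P j : ℕ) (f : PowerSeries R) :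
    PowerSeries.coeff j (chartFrob P f) = PowerSeries.coeff j f ^ P := by
  simp [chartFrob]

theorem chart_pow_char (p : ℕ) [Fact p.Prime] [CharP R p] (h : ℕ) (f : PowerSeries R) :
    f ^ (p ^ h) = scomp (chartFrob (p ^ h) f) (PowerSeries.X ^ (p ^ h)) := by
  have hp0 : p ≠ 0 := (Fact.out : p.Prime).ne_zero
  have : ExpChar R p := ExpChar.prime (Fact.out : p.Prime)
  have h1 := MvPowerSeries.map_iterateFrobenius_expand p hp0 f h
  have h2 : (f ^ p ^ h : PowerSeries R) =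
      scomp (chartFrob (p ^ h) f) (PowerSeries.X ^ (p ^ h)) := by
    rw [← show _ = (f ^ p ^ h : PowerSeries R) from h1]
    ext k
    rw [scomp, PowerSeries.coeff_subst_X_pow (pow_ne_zero h hp0)]
    have h3 : PowerSeries.coeff k (MvPowerSeries.map (iterateFrobenius R p h)
        (MvPowerSeries.expand (p ^ h) (pow_ne_zero h hp0) f) : PowerSeries R) =
        iterateFrobenius R p h (PowerSeries.coeff k (PowerSeries.expand (p ^ h) (pow_ne_zero h hp0) f)) := rfl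
    rw [h3, PowerSeries.coeff_expand]
    split_ifs with hd
    · simp [iterateFrobenius_def]
    · simp
  exact h2

end Series


/-! ### Jet utilities -/
section JetUtil

variable {C : Type} [NontriviallyNormedField C] [IsUltrametricDist C] [CompleteSpace C]
variable {ι : Type*} {m : ℕ} {𝓕 : Filter ι} {A : ι → Fin m → C}

theorem Jet.congr_ev {u v : ι → C} {c : C} {ℓ : Fin m → C} (h : ∀ᶠ δ in 𝓕, u δ = v δ)
    (hu : Jet 𝓕 A u c ℓ) : Jet 𝓕 A v c ℓ := by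
  intro N
  obtain ⟨Q, h0, h1, K, hK⟩ := hu N
  refine ⟨Q, h0, h1, K, ?_⟩
  filter_upwards [h, hK] with δ h1 h2
  rwa [← h1]

theorem Jet.of_approx {u : ι → C} {c : C} {ℓ : Fin m → C}
    (H : ∀ N : ℕ, ∃ v : ι → C, Jet 𝓕 A v c ℓ ∧ ∃ K : ℝ, ∀ᶠ δ in 𝓕, ‖u δ - v δ‖ ≤ K * ‖A δ‖ ^ (N + 1)) :
    Jet 𝓕 A u c ℓ := by
  intro N
  obtain ⟨v, hv, K, hK⟩ := H N
  obtain ⟨Q, h0, h1, K', hK'⟩ := hv N
  refine ⟨Q, h0, h1, K + K', ?_⟩
  filter_upwards [hK, hK'] with δ h2 h3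
  calc ‖u δ - MvPolynomial.eval (A δ) Q‖
      = ‖(u δ - v δ) + (v δ - MvPolynomial.eval (A δ) Q)‖ := by congr 1; ring
    _ ≤ ‖u δ - v δ‖ + ‖v δ - MvPolynomial.eval (A δ) Q‖ := norm_add_le _ _
    _ ≤ K * ‖A δ‖ ^ (N + 1) + K' * ‖A δ‖ ^ (N + 1) := add_le_add h2 h3
    _ = (K + K') * ‖A δ‖ ^ (N + 1) := by ring

theorem Jet.sum2 {κ : Type*} (s : Finset κ) (hA : Filter.Tendsto A 𝓕 (nhds 0)) (u : κ → ι → C) (c : κ → C)
    (ℓ : κ → Fin m → C) (hu : ∀ i ∈ s, Jet 𝓕 A (u i) (c i) (ℓ i)) :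
    Jet 𝓕 A (fun δ => ∑ i ∈ s, u i δ) (∑ i ∈ s, c i) (∑ i ∈ s, ℓ i) := by
  classical
  induction s using Finset.induction_on with
  | empty =>
    simpa using (Jet.const (𝓕 := 𝓕) hA (0 : C))
  | insert a s ha ih =>
    simp only [Finset.sum_insert ha]
    exact Jet.add (hu a (Finset.mem_insert_self a s))
      (ih fun i hi => hu i (Finset.mem_insert_of_mem hi))

/-- A jet with an unspecified linear part. -/
def HasJ (𝓕 : Filter ι) (A : ι → Fin m → C) (u : ι → C) (c : C) : Prop := ∃ ℓ, Jet 𝓕 A u c ℓ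

theorem HasJ.const (hA : Filter.Tendsto A 𝓕 (nhds 0)) (c : C) : HasJ 𝓕 A (fun _ => c) c :=
  ⟨0, Jet.const hA c⟩

theorem HasJ.add {u v : ι → C} {c d : C} (hu : HasJ 𝓕 A u c) (hv : HasJ 𝓕 A v d) :
    HasJ 𝓕 A (fun δ => u δ + v δ) (c + d) := by
  obtain ⟨ℓ, h⟩ := hu; obtain ⟨ℓ', h'⟩ := hv; exact ⟨_, h.add h'⟩

theorem HasJ.neg {u : ι → C} {c : C} (hu : HasJ 𝓕 A u c) : HasJ 𝓕 A (fun δ => - u δ) (-c) := by
  obtain ⟨ℓ, h⟩ := hu; exact ⟨_, h.neg⟩

theorem HasJ.sub {u v : ι → C} {c d : C} (hu : HasJ 𝓕 A u c) (hv : HasJ 𝓕 A v d) :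
    HasJ 𝓕 A (fun δ => u δ - v δ) (c - d) := by
  simpa [sub_eq_add_neg] using hu.add hv.neg

theorem HasJ.mul (hA : Filter.Tendsto A 𝓕 (nhds 0)) {u v : ι → C} {c d : C} (hu : HasJ 𝓕 A u c)
    (hv : HasJ 𝓕 A v d) : HasJ 𝓕 A (fun δ => u δ * v δ) (c * d) := by
  obtain ⟨ℓ, h⟩ := hu; obtain ⟨ℓ', h'⟩ := hv; exact ⟨_, h.mul hA h'⟩

theorem HasJ.pow (hA : Filter.Tendsto A 𝓕 (nhds 0)) {u : ι → C} {c : C} (hu : HasJ 𝓕 A u c) (e : ℕ) :
    HasJ 𝓕 A (fun δ => u δ ^ e) (c ^ e) := by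
  obtain ⟨ℓ, h⟩ := hu; exact ⟨_, h.pow hA e⟩

theorem HasJ.inv (hA : Filter.Tendsto A 𝓕 (nhds 0)) {u : ι → C} {c : C} (hu : HasJ 𝓕 A u c)
    (hc : c ≠ 0) : HasJ 𝓕 A (fun δ => (u δ)⁻¹) c⁻¹ := by
  obtain ⟨ℓ, h⟩ := hu; exact ⟨_, h.inv hA hc⟩

theorem HasJ.sum {κ : Type*} (s : Finset κ) (hA : Filter.Tendsto A 𝓕 (nhds 0)) (u : κ → ι → C) (c : κ → C)
    (hu : ∀ i ∈ s, HasJ 𝓕 A (u i) (c i)) :
    HasJ 𝓕 A (fun δ => ∑ i ∈ s, u i δ) (∑ i ∈ s, c i) := by
  classical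
  choose! ℓ hℓ using hu
  exact ⟨_, Jet.sum2 s hA u c ℓ hℓ⟩

theorem HasJ.congr_ev {u v : ι → C} {c : C} (h : ∀ᶠ δ in 𝓕, u δ = v δ) (hu : HasJ 𝓕 A u c) :
    HasJ 𝓕 A v c := by
  obtain ⟨ℓ, hh⟩ := hu; exact ⟨ℓ, hh.congr_ev h⟩

/-- Over the trivial filter everything has every jet. -/
theorem Jet.of_bot (hA : Filter.Tendsto A 𝓕 (nhds 0)) (h𝓕 : 𝓕 = ⊥) (u : ι → C) (c : C) :
    Jet 𝓕 A u c 0 := by
  intro N
  obtain ⟨Q, h0, h1, K, _⟩ := Jet.const (𝓕 := 𝓕) hA c N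
  exact ⟨Q, h0, h1, K, by simp [h𝓕]⟩

/-- Coefficient of a series family, seen in `C`. -/
abbrev cC (f : PowerSeries (OC C)) (j : ℕ) : C := ((PowerSeries.coeff j f : OC C) : C)

theorem cC_mul_sum (f g : PowerSeries (OC C)) (k : ℕ) :
    cC (f * g) k = ∑ q ∈ Finset.HasAntidiagonal.antidiagonal k, cC f q.1 * cC g q.2 := by
  simp [cC, PowerSeries.coeff_mul]

/-- Jets of coefficients of powers, below the known range. -/
theorem hasJ_coeff_pow_lt (hA : Filter.Tendsto A 𝓕 (nhds 0)) (a : ι → PowerSeries (OC C)) (k : ℕ)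
    (ha : ∀ i, i < k → ∃ c, HasJ 𝓕 A (fun δ => cC (a δ) i) c) (j : ℕ) :
    ∀ i, i < k → ∃ c, HasJ 𝓕 A (fun δ => cC (a δ ^ j) i) c := by
  induction j with
  | zero =>
    intro i _
    refine ⟨cC (1 : PowerSeries (OC C)) i, ?_⟩
    simpa using HasJ.const hA (cC (1 : PowerSeries (OC C)) i)
  | succ j ih =>
    intro i hi
    have hk : ∀ q ∈ Finset.HasAntidiagonal.antidiagonal i, ∃ c, HasJ 𝓕 A
        (fun δ => cC (a δ ^ j) q.1 * cC (a δ) q.2) c := by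
      intro q hq
      have hq' := Finset.HasAntidiagonal.mem_antidiagonal.mp hq
      obtain ⟨c, hc⟩ := ih q.1 (by omega)
      obtain ⟨d, hd⟩ := ha q.2 (by omega)
      exact ⟨c * d, hc.mul hA hd⟩
    choose! c hc using hk
    refine ⟨∑ q ∈ Finset.HasAntidiagonal.antidiagonal i, c q, ?_⟩
    have := HasJ.sum (Finset.HasAntidiagonal.antidiagonal i) hA _ c hc
    refine this.congr_ev (Filter.Eventually.of_forall fun δ => ?_)
    rw [pow_succ, cC_mul_sum]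

/-- Jets of `(a^j)_k`, `j ≥ 2`, only need jets of `a_i`, `i < k`. -/
theorem hasJ_coeff_pow_self (hA : Filter.Tendsto A 𝓕 (nhds 0)) (a : ι → PowerSeries (OC C)) (k : ℕ)
    (ha0 : ∀ δ, PowerSeries.constantCoeff (a δ) = 0)
    (ha : ∀ i, i < k → ∃ c, HasJ 𝓕 A (fun δ => cC (a δ) i) c) (j : ℕ) (hj : 2 ≤ j) :
    ∃ c, HasJ 𝓕 A (fun δ => cC (a δ ^ j) k) c := by
  obtain ⟨j, rfl⟩ : ∃ j', j = j' + 1 := ⟨j - 1, by omega⟩
  have hk : ∀ q ∈ Finset.HasAntidiagonal.antidiagonal k, ∃ c, HasJ 𝓕 A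
      (fun δ => cC (a δ ^ j) q.1 * cC (a δ) q.2) c := by
    intro q hq
    have hq' := Finset.HasAntidiagonal.mem_antidiagonal.mp hq
    by_cases h0 : q.2 = 0
    · refine ⟨0, (HasJ.const hA 0).congr_ev (Filter.Eventually.of_forall fun δ => ?_)⟩
      simp [h0, ha0, cC]
    by_cases h1 : q.1 = 0
    · refine ⟨0, (HasJ.const hA 0).congr_ev (Filter.Eventually.of_forall fun δ => ?_)⟩
      have : PowerSeries.coeff 0 (a δ ^ j) = 0 := chart_coeff_pow_eq_zero _ (ha0 δ) (by omega)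
      simp [h1, cC, this]
    obtain ⟨c, hc⟩ := hasJ_coeff_pow_lt hA a k ha j q.1 (by omega)
    obtain ⟨d, hd⟩ := ha q.2 (by omega)
    exact ⟨c * d, hc.mul hA hd⟩
  choose! c hc using hk
  refine ⟨∑ q ∈ Finset.HasAntidiagonal.antidiagonal k, c q, ?_⟩
  have := HasJ.sum (Finset.HasAntidiagonal.antidiagonal k) hA _ c hc
  refine this.congr_ev (Filter.Eventually.of_forall fun δ => ?_)
  rw [pow_succ, cC_mul_sum]

end JetUtil

/-! ### The generic family and the functional equation -/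
section Family

variable (p : ℕ) [Fact p.Prime] (h n : ℕ)

/-- `ψ` commutes with ring maps. -/
theorem psiS_map_chart {R S : Type*} [CommRing R] [CommRing S] [CharP R p] [CharP S p] (hh : 1 ≤ h)
    (hn : h ≤ n) (φ : R →+* S) (τ : Fin (n - h) → R) :
    PowerSeries.map φ (psiS p h n τ) = psiS p h n (fun j => φ (τ j)) := by
  have hP : p ^ h ≠ 0 := pow_ne_zero _ (Fact.out : p.Prime).ne_zero
  apply chart_scomp_X_pow_inj hP
  rw [← pSeries_HS p h n hh hn (fun j => φ (τ j)), ← HS_map, mulSeries_map, pSeries_HS p h n hh hn τ,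
    map_scomp _ _ _ (by simp [(Fact.out : p.Prime).ne_zero])]
  simp

/-- The functional equation `θ ∘ ψ' = ψ ∘ θ^(P)`. -/
theorem theta_psi_fe {R : Type*} [CommRing R] [CharP R p] (hh : 1 ≤ h) (hn : h ≤ n)
    (τ τ' : Fin (n - h) → R) (θ : PowerSeries R) (hθ : IsFGHom (HS p h n τ') (HS p h n τ) θ) :
    scomp θ (psiS p h n τ') = scomp (psiS p h n τ) (chartFrob (p ^ h) θ) := by
  have hP : p ^ h ≠ 0 := pow_ne_zero _ (Fact.out : p.Prime).ne_zero
  have hX : PowerSeries.constantCoeff (PowerSeries.X ^ (p ^ h) : PowerSeries R) = 0 := by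
    rw [map_pow, PowerSeries.constantCoeff_X, zero_pow hP]
  have hθ0 : PowerSeries.constantCoeff θ = 0 := hθ.1
  have hF0 : PowerSeries.constantCoeff (chartFrob (p ^ h) θ) = 0 := by
    rw [← PowerSeries.coeff_zero_eq_constantCoeff_apply, coeff_chartFrob,
      PowerSeries.coeff_zero_eq_constantCoeff_apply, hθ0, zero_pow hP]
  apply chart_scomp_X_pow_inj hP
  rw [scomp_assoc _ _ _ (constantCoeff_psiS p h n τ') hX, ← pSeries_HS p h n hh hn τ',
    fgHom_comp_mulSeries hθ, pSeries_HS p h n hh hn τ, scomp_assoc _ _ _ hX hθ0,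
    scomp_assoc _ _ _ hF0 hX, ← chart_pow_char p h θ]
  congr 1
  rw [scomp, PowerSeries.subst_pow (PowerSeries.HasSubst.of_constantCoeff_zero' hθ0),
    PowerSeries.subst_X (PowerSeries.HasSubst.of_constantCoeff_zero' hθ0)]

end Family

/-! ### Jets of the coefficients of `θ` -/

variable (p : ℕ) [Fact p.Prime] (h n : ℕ)
variable {C : Type} [NontriviallyNormedField C] [IsUltrametricDist C] [CompleteSpace C]
  [CharP C p] [IsAlgClosed C]
variable {ι : Type*}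

/-- The family data. `τ'` = parameters of `H' δ`, `A δ = τ' δ - τ`, `θ δ : H' δ → H`. -/
structure ChartFamily (𝓕 : Filter ι) (τ : Fin (n - h) → OC C) (r : ℝ) where
  τ' : ι → Fin (n - h) → OC C
  θ : ι → PowerSeries (OC C)
  S : PiSetup p n (GamC p n C) (HS p h n τ) r
  S' : ∀ δ, PiSetup p n (GamC p n C) (HS p h n (τ' δ)) r
  hθ : ∀ δ, IsFGHom (HS p h n (τ' δ)) (HS p h n τ) (θ δ)
  hA : Filter.Tendsto (fun δ (j : Fin (n - h)) => ((τ' δ j : OC C) : C) - ((τ j : OC C) : C)) 𝓕 (nhds 0)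
  hθlim : ∀ j : ℕ, Filter.Tendsto (fun δ => ((PowerSeries.coeff j (θ δ) : OC C) : C)) 𝓕
    (nhds (if j = 1 then 1 else 0))

namespace ChartFamily

variable {p h n} {𝓕 : Filter ι} {τ : Fin (n - h) → OC C} {r : ℝ}

/-- `A δ = τ' δ - τ`. -/
def A (F : ChartFamily p h n 𝓕 τ r) (δ : ι) (j : Fin (n - h)) : C :=
  ((F.τ' δ j : OC C) : C) - ((τ j : OC C) : C)

theorem hA' (F : ChartFamily p h n 𝓕 τ r) : Filter.Tendsto F.A 𝓕 (nhds 0) := F.hA

theorem A_small (F : ChartFamily p h n 𝓕 τ r) : ∀ᶠ δ in 𝓕, ∀ j, ‖F.A δ j‖ < 1 := by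
  have h1 : ∀ᶠ δ in 𝓕, ‖F.A δ‖ < 1 := by
    have := F.hA'.norm
    simp only [norm_zero] at this
    exact this.eventually (gt_mem_nhds one_pos)
  filter_upwards [h1] with δ hδ j
  exact lt_of_le_of_lt (norm_le_pi_norm (F.A δ) j) hδ

omit [CompleteSpace C] [IsAlgClosed C] in
theorem tau'_eq (F : ChartFamily p h n 𝓕 τ r) (δ : ι) (j : Fin (n - h)) :
    ((F.τ' δ j : OC C) : C) = (τ j : C) + F.A δ j := by
  simp [A]

/-- The evaluation map of the generic parameters. -/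
theorem evHom_tauS (F : ChartFamily p h n 𝓕 τ r) (δ : ι) (ha : ∀ j, ‖F.A δ j‖ < 1) :
    (fun j => evHom (F.A δ) ha (tauS h n τ j)) = F.τ' δ := by
  funext j
  apply Subtype.ext
  rw [coe_evHom, tauS, tau'_eq]
  have h1 : evMv (MvPowerSeries.C (τ j) + MvPowerSeries.X j : SA C (n - h)) (F.A δ) =
      ((evHom (F.A δ) ha (MvPowerSeries.C (τ j)) : OC C) : C) +
        ((evHom (F.A δ) ha (MvPowerSeries.X j) : OC C) : C) := by
    rw [← coe_evHom _ ha, map_add]; rfl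
  rw [h1, coe_evHom, coe_evHom, evMv_C _ ha, evMv_X _ ha]

omit [IsAlgClosed C] in
theorem charP_SA (m : ℕ) : CharP (SA C m) p := by
  have : CharP (OC C) p := charP_OC p
  exact charP_of_injective_ringHom (f := (MvPowerSeries.C : OC C →+* SA C m))
    MvPowerSeries.C_injective p

/-- Coefficients of `ψ'` have jets. -/
theorem hasJ_psi (hh : 1 ≤ h) (hn : h < n) (F : ChartFamily p h n 𝓕 τ r) (k : ℕ) :
    ∃ c, HasJ 𝓕 F.A (fun δ => cC (psiS p h n (F.τ' δ)) k) c := by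
  have : CharP (OC C) p := charP_OC p
  have : CharP (SA C (n - h)) p := charP_SA (n - h)
  let G : SA C (n - h) := PowerSeries.coeff k (psiS p h n (tauS h n τ))
  have hJ := Jet.evMv F.hA' G (fun s δ => F.A δ s) (fun _ => 0) (fun s => Pi.single s 1)
    (by simp) (fun s => Jet.coord s)
  refine ⟨_, _, hJ.congr_ev ?_⟩
  filter_upwards [F.A_small] with δ hδ
  have h1 := coe_evHom (F.A δ) hδ G
  have h2 : evHom (F.A δ) hδ G = PowerSeries.coeff k (PowerSeries.map (evHom (F.A δ) hδ) (psiS p h n (tauS h n τ))) := by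
    simp [G]
  have h3 := psiS_map_chart p h n hh hn.le (evHom (F.A δ) hδ) (tauS h n τ)
  rw [F.evHom_tauS δ hδ] at h3
  rw [h3] at h2
  change evMv G (F.A δ) = _
  rw [← h1, h2]


/-- `τ'_0 ≠ 0` eventually. -/
theorem tau0_ne (hn : h < n) (hτ0 : τ ⟨0, by omega⟩ ≠ 0) (F : ChartFamily p h n 𝓕 τ r) :
    ∀ᶠ δ in 𝓕, (F.τ' δ ⟨0, by omega⟩ : OC C) ≠ 0 := by
  have h1 : ∀ᶠ δ in 𝓕, ‖F.A δ ⟨0, by omega⟩‖ < ‖((τ ⟨0, by omega⟩ : OC C) : C)‖ := by
    have h2 : Filter.Tendsto (fun δ => F.A δ ⟨0, by omega⟩) 𝓕 (nhds 0) := by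
      have := (continuous_apply (⟨0, by omega⟩ : Fin (n - h))).tendsto (0 : Fin (n - h) → C)
      exact this.comp F.hA'
    have h3 : 0 < ‖((τ ⟨0, by omega⟩ : OC C) : C)‖ := by
      rw [norm_pos_iff]
      intro h0
      exact hτ0 (Subtype.ext h0)
    have := h2.norm
    simp only [norm_zero] at this
    exact this.eventually (gt_mem_nhds h3)
  filter_upwards [h1] with δ hδ h0
  have h2 := F.tau'_eq δ ⟨0, by omega⟩
  rw [h0] at h2
  have h3 : ((τ ⟨0, by omega⟩ : OC C) : C) = - F.A δ ⟨0, by omega⟩ := by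
    have h4 : ((0 : OC C) : C) = 0 := rfl
    rw [h4] at h2
    linear_combination -h2
  rw [h3, norm_neg] at hδ
  exact lt_irrefl _ hδ

/-- The jet of the parameter `τ'_0`. -/
theorem hasJ_tau0 (hn : h < n) (F : ChartFamily p h n 𝓕 τ r) :
    HasJ 𝓕 F.A (fun δ => ((F.τ' δ ⟨0, by omega⟩ : OC C) : C)) ((τ ⟨0, by omega⟩ : OC C) : C) := by
  have h1 : HasJ 𝓕 F.A (fun δ => ((τ ⟨0, by omega⟩ : OC C) : C) + F.A δ ⟨0, by omega⟩)
      (((τ ⟨0, by omega⟩ : OC C) : C) + 0) :=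
    (HasJ.const F.hA' _).add ⟨_, Jet.coord _⟩
  rw [add_zero] at h1
  refine h1.congr_ev (Filter.Eventually.of_forall fun δ => ?_)
  rw [F.tau'_eq]

/-- The coefficient identity for `k ≥ 2`. -/
theorem coeff_identity (hh : 1 ≤ h) (hn : h < n) (τ τ' : Fin (n - h) → OC C) (θ : PowerSeries (OC C))
    (hθ : IsFGHom (HS p h n τ') (HS p h n τ) θ) (k : ℕ) (hk : 2 ≤ k) :
    cC θ k * ((τ' ⟨0, by omega⟩ : OC C) : C) ^ k +
        ∑ j ∈ Finset.range k, cC θ j * cC (psiS p h n τ' ^ j) k =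
      ((τ ⟨0, by omega⟩ : OC C) : C) * cC θ k ^ (p ^ h) +
        ∑ j ∈ Finset.Ico 2 (k + 1), cC (psiS p h n τ) j * cC (chartFrob (p ^ h) θ ^ j) k := by
  have : CharP (OC C) p := charP_OC p
  have hP : p ^ h ≠ 0 := pow_ne_zero _ (Fact.out : p.Prime).ne_zero
  have hθ0 : PowerSeries.constantCoeff θ = 0 := hθ.1
  have hF0 : PowerSeries.constantCoeff (chartFrob (p ^ h) θ) = 0 := by
    rw [← PowerSeries.coeff_zero_eq_constantCoeff_apply, coeff_chartFrob,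
      PowerSeries.coeff_zero_eq_constantCoeff_apply, hθ0, zero_pow hP]
  have hfe := congrArg (PowerSeries.coeff k) (theta_psi_fe p h n hh hn.le τ τ' θ hθ)
  rw [chart_coeff_scomp _ _ (constantCoeff_psiS p h n τ') k, chart_coeff_scomp _ _ hF0 k,
    Finset.sum_range_succ, chart_coeff_pow_self _ (constantCoeff_psiS p h n τ') k,
    coeff_one_psiS p h n hh hn τ'] at hfe
  have hR : ∑ j ∈ Finset.range (k + 1), PowerSeries.coeff j (psiS p h n τ) *
        PowerSeries.coeff k (chartFrob (p ^ h) θ ^ j) =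
      τ ⟨0, by omega⟩ * PowerSeries.coeff k θ ^ (p ^ h) +
        ∑ j ∈ Finset.Ico 2 (k + 1), PowerSeries.coeff j (psiS p h n τ) *
          PowerSeries.coeff k (chartFrob (p ^ h) θ ^ j) := by
    rw [Finset.range_eq_Ico, Finset.sum_eq_sum_Ico_succ_bot (by omega),
      Finset.sum_eq_sum_Ico_succ_bot (by omega)]
    simp only [zero_add, pow_one, coeff_chartFrob, coeff_one_psiS p h n hh hn τ,
      PowerSeries.coeff_zero_eq_constantCoeff_apply, constantCoeff_psiS, zero_mul]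
  rw [hR] at hfe
  have h2 := congrArg (fun x : OC C => (x : C)) hfe
  simp only [Subring.coe_add, Subring.coe_mul, Subring.coe_pow, AddSubmonoidClass.coe_finsetSum] at h2
  simp only [cC]
  linear_combination h2

/-- **Jets of the coefficients of `θ`.** From `θ ∘ ψ' = ψ ∘ θ^(P)` (compare `θ [p]_H' = [p]_H θ`,
`[p] = ψ(X^P)`), coefficient of `Y^k`: `θ_k ψ'_1^k + ∑_{j<k} θ_j (ψ'^j)_k = ψ_1 θ_k^P + ∑_{2≤j≤k} ψ_j ((θ^(P))^j)_k`.
Induct on `k`, with `ψ'_1 = τ'_0`, `ψ_1 = τ_0 ≠ 0`: the coefficients of `ψ'` are jets (series in `A`), `1/ψ'_1` is a jet.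
`k = 1`: `s = θ_1 - 1`, `r = ψ'_1/ψ_1`: `s = (r⁻¹ - 1) + r⁻¹ s^P`. `k ≥ 2`: `θ_k = ψ'_1^(-k)(ψ_1 θ_k^P - R_k)`.
Apply `Jet.artin_schreier`. Constant terms: limits given by `hθlim`. -/
theorem theta_jet (hh : 1 ≤ h) (hn : h < n) (hτ0 : τ ⟨0, by omega⟩ ≠ 0)
    (hτ : ∀ j, ‖((τ j : OC C) : C)‖ < 1) (F : ChartFamily p h n 𝓕 τ r) (k : ℕ) :
    ∃ ℓ : Fin (n - h) → C, Jet 𝓕 F.A (fun δ => ((PowerSeries.coeff k (F.θ δ) : OC C) : C))
      (if k = 1 then 1 else 0) ℓ := by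
  have : CharP (OC C) p := charP_OC p
  have hP : p ^ h ≠ 0 := pow_ne_zero _ (Fact.out : p.Prime).ne_zero
  have hA := F.hA'
  rcases 𝓕.eq_or_neBot with hbot | hne
  · exact ⟨0, Jet.of_bot hA hbot _ _⟩
  have hτ0' : ((τ ⟨0, by omega⟩ : OC C) : C) ≠ 0 := fun h0 => hτ0 (Subtype.ext h0)
  have hinv : HasJ 𝓕 F.A (fun δ => (((F.τ' δ ⟨0, by omega⟩ : OC C) : C))⁻¹)
      (((τ ⟨0, by omega⟩ : OC C) : C))⁻¹ := (hasJ_tau0 hn F).inv hA hτ0'
  have hne0 : ∀ᶠ δ in 𝓕, ((F.τ' δ ⟨0, by omega⟩ : OC C) : C) ≠ 0 := by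
    filter_upwards [tau0_ne hn hτ0 F] with δ hδ h0
    exact hδ (Subtype.ext h0)
  induction k using Nat.strong_induction_on with
  | _ k IH =>
  rcases k with _ | _ | k
  · -- `k = 0`
    refine ⟨0, (Jet.const hA 0).congr_ev (Filter.Eventually.of_forall fun δ => ?_)⟩
    have h0 : PowerSeries.constantCoeff (F.θ δ) = 0 := (F.hθ δ).1
    simp [h0]
  · -- `k = 1`
    simp only [zero_add, if_true]
    set ρ : ι → C := fun δ => ((τ ⟨0, by omega⟩ : OC C) : C) * (((F.τ' δ ⟨0, by omega⟩ : OC C) : C))⁻¹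
      with hρ
    have hρJ : HasJ 𝓕 F.A ρ 1 := by
      have := (HasJ.const hA ((τ ⟨0, by omega⟩ : OC C) : C)).mul hA hinv
      rwa [mul_inv_cancel₀ hτ0'] at this
    obtain ⟨ℓρ, hρℓ⟩ := hρJ
    have hα : Jet 𝓕 F.A (fun δ => ρ δ + - 1) (1 + -1) (ℓρ + -0) := hρℓ.add (Jet.const hA 1).neg
    rw [add_neg_cancel] at hα
    have hu0 : Filter.Tendsto (fun δ => cC (F.θ δ) 1 - 1) 𝓕 (nhds 0) := by
      have := (F.hθlim 1).sub_const (1 : C)
      simpa using this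
    have hfe : ∀ᶠ δ in 𝓕, cC (F.θ δ) 1 - 1 = (ρ δ + -1) + ρ δ * (cC (F.θ δ) 1 - 1) ^ (p ^ h) := by
      filter_upwards [hne0] with δ hδ
      have h1 := congrArg (PowerSeries.coeff 1) (theta_psi_fe p h n hh hn.le τ (F.τ' δ) (F.θ δ) (F.hθ δ))
      have hF0 : PowerSeries.constantCoeff (chartFrob (p ^ h) (F.θ δ)) = 0 := by
        rw [← PowerSeries.coeff_zero_eq_constantCoeff_apply, coeff_chartFrob,
          PowerSeries.coeff_zero_eq_constantCoeff_apply, (F.hθ δ).1, zero_pow hP]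
      rw [coeff_one_scomp _ _ (F.hθ δ).1 (constantCoeff_psiS p h n _),
        coeff_one_scomp _ _ (constantCoeff_psiS p h n _) hF0, coeff_one_psiS p h n hh hn,
        coeff_one_psiS p h n hh hn, coeff_chartFrob] at h1
      have h2 := congrArg (fun x : OC C => (x : C)) h1
      simp only [Subring.coe_mul, Subring.coe_pow] at h2
      have h3 : (cC (F.θ δ) 1 - 1) ^ (p ^ h) = cC (F.θ δ) 1 ^ (p ^ h) - 1 := by
        rw [sub_pow_char_pow, one_pow]
      rw [h3]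
      simp only [hρ]
      simp only [cC]
      field_simp
      linear_combination h2
    have hs := Jet.artin_schreier p h hh hA hu0 hfe hα 1 ℓρ hρℓ
    have := hs.add (Jet.const hA (1 : C))
    rw [zero_add] at this
    exact ⟨_, this.congr_ev (Filter.Eventually.of_forall fun δ => by simp [cC])⟩
  · -- `k ≥ 2`
    set k' := k + 1 + 1 with hk'
    have hk2 : 2 ≤ k' := by omega
    simp only [show k' ≠ 1 by omega, if_false]
    have hlow : ∀ i, i < k' → ∃ c, HasJ 𝓕 F.A (fun δ => cC (F.θ δ) i) c := by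
      intro i hi
      by_cases h1 : i = 1
      · obtain ⟨ℓ, hℓ⟩ := IH i hi
        exact ⟨_, ℓ, hℓ⟩
      · obtain ⟨ℓ, hℓ⟩ := IH i hi
        exact ⟨_, ℓ, hℓ⟩
    have hlowF : ∀ i, i < k' → ∃ c, HasJ 𝓕 F.A (fun δ => cC (chartFrob (p ^ h) (F.θ δ)) i) c := by
      intro i hi
      obtain ⟨c, hc⟩ := hlow i hi
      refine ⟨c ^ (p ^ h), (hc.pow hA (p ^ h)).congr_ev (Filter.Eventually.of_forall fun δ => ?_)⟩
      simp [cC]
    have hF00 : ∀ δ, PowerSeries.constantCoeff (chartFrob (p ^ h) (F.θ δ)) = 0 := by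
      intro δ
      rw [← PowerSeries.coeff_zero_eq_constantCoeff_apply, coeff_chartFrob,
        PowerSeries.coeff_zero_eq_constantCoeff_apply, (F.hθ δ).1, zero_pow hP]
    -- `R`
    have hR : ∃ c, HasJ 𝓕 F.A (fun δ => ∑ j ∈ Finset.Ico 2 (k' + 1),
        cC (psiS p h n τ) j * cC (chartFrob (p ^ h) (F.θ δ) ^ j) k') c := by
      have h1 : ∀ j ∈ Finset.Ico 2 (k' + 1), ∃ c, HasJ 𝓕 F.A
          (fun δ => cC (psiS p h n τ) j * cC (chartFrob (p ^ h) (F.θ δ) ^ j) k') c := by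
        intro j hj
        obtain ⟨c, hc⟩ := hasJ_coeff_pow_self hA (fun δ => chartFrob (p ^ h) (F.θ δ)) k' hF00 hlowF j
          (Finset.mem_Ico.mp hj).1
        exact ⟨_, (HasJ.const hA _).mul hA hc⟩
      choose! c hc using h1
      exact ⟨_, HasJ.sum _ hA _ c hc⟩
    -- `L`
    have hL : ∃ c, HasJ 𝓕 F.A (fun δ => ∑ j ∈ Finset.range k',
        cC (F.θ δ) j * cC (psiS p h n (F.τ' δ) ^ j) k') c := by
      have h1 : ∀ j ∈ Finset.range k', ∃ c, HasJ 𝓕 F.A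
          (fun δ => cC (F.θ δ) j * cC (psiS p h n (F.τ' δ) ^ j) k') c := by
        intro j hj
        obtain ⟨c, hc⟩ := hlow j (Finset.mem_range.mp hj)
        obtain ⟨d, hd⟩ := hasJ_coeff_pow_lt hA (fun δ => psiS p h n (F.τ' δ)) (k' + 1)
          (fun i _ => hasJ_psi hh hn F i) j k' (Nat.lt_succ_self _)
        exact ⟨_, hc.mul hA hd⟩
      choose! c hc using h1
      exact ⟨_, HasJ.sum _ hA _ c hc⟩
    obtain ⟨cR, hR⟩ := hR
    obtain ⟨cL, hL⟩ := hL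
    -- `α`, `β`
    set tinv : ι → C := fun δ => (((F.τ' δ ⟨0, by omega⟩ : OC C) : C))⁻¹ with htinv
    have hα : HasJ 𝓕 F.A (fun δ => tinv δ ^ k' * ((∑ j ∈ Finset.Ico 2 (k' + 1),
        cC (psiS p h n τ) j * cC (chartFrob (p ^ h) (F.θ δ) ^ j) k') -
        ∑ j ∈ Finset.range k', cC (F.θ δ) j * cC (psiS p h n (F.τ' δ) ^ j) k'))
        ((((τ ⟨0, by omega⟩ : OC C) : C))⁻¹ ^ k' * (cR - cL)) :=
      (hinv.pow hA k').mul hA (hR.sub hL)
    have hβ : HasJ 𝓕 F.A (fun δ => tinv δ ^ k' * ((τ ⟨0, by omega⟩ : OC C) : C))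
        ((((τ ⟨0, by omega⟩ : OC C) : C))⁻¹ ^ k' * ((τ ⟨0, by omega⟩ : OC C) : C)) :=
      (hinv.pow hA k').mul hA (HasJ.const hA _)
    obtain ⟨ℓα, hαJ⟩ := hα
    obtain ⟨ℓβ, hβJ⟩ := hβ
    have hu0 : Filter.Tendsto (fun δ => cC (F.θ δ) k') 𝓕 (nhds 0) := by
      have := F.hθlim k'
      simpa [show k' ≠ 1 by omega] using this
    have hfe : ∀ᶠ δ in 𝓕, cC (F.θ δ) k' = (tinv δ ^ k' * ((∑ j ∈ Finset.Ico 2 (k' + 1),
        cC (psiS p h n τ) j * cC (chartFrob (p ^ h) (F.θ δ) ^ j) k') -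
        ∑ j ∈ Finset.range k', cC (F.θ δ) j * cC (psiS p h n (F.τ' δ) ^ j) k')) +
        (tinv δ ^ k' * ((τ ⟨0, by omega⟩ : OC C) : C)) * cC (F.θ δ) k' ^ (p ^ h) := by
      filter_upwards [hne0] with δ hδ
      have h1 := coeff_identity hh hn τ (F.τ' δ) (F.θ δ) (F.hθ δ) k' hk2
      have h2 : tinv δ ^ k' * ((F.τ' δ ⟨0, by omega⟩ : OC C) : C) ^ k' = 1 := by
        rw [htinv, ← mul_pow, inv_mul_cancel₀ hδ, one_pow]
      linear_combination (tinv δ ^ k') * h1 - (cC (F.θ δ) k') * h2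
    -- the constant term vanishes
    have hc0 : ((((τ ⟨0, by omega⟩ : OC C) : C))⁻¹ ^ k' * (cR - cL)) = 0 := by
      have h1 := hαJ.tendsto hA
      have h2 := hβJ.tendsto hA
      have h3 : Filter.Tendsto (fun δ => cC (F.θ δ) k' -
          (tinv δ ^ k' * ((τ ⟨0, by omega⟩ : OC C) : C)) * cC (F.θ δ) k' ^ (p ^ h)) 𝓕
          (nhds (0 - (((τ ⟨0, by omega⟩ : OC C) : C))⁻¹ ^ k' * ((τ ⟨0, by omega⟩ : OC C) : C) * 0 ^ (p ^ h))) :=
        hu0.sub (h2.mul (hu0.pow _))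
      rw [zero_pow hP, mul_zero, sub_zero] at h3
      refine tendsto_nhds_unique (h1.congr' ?_) h3
      filter_upwards [hfe] with δ hδ
      rw [sub_eq_iff_eq_add.mpr hδ.symm.symm]
    rw [hc0] at hαJ
    exact ⟨ℓα, Jet.artin_schreier p h hh hA hu0 hfe hαJ _ ℓβ hβJ⟩

end ChartFamily

/-! ### Evaluation at the origin, derivatives of flat series -/
section Zero

variable {C : Type} [NontriviallyNormedField C] [IsUltrametricDist C] [CompleteSpace C]

theorem evMv_at_zero {σ : Type} [Fintype σ] (f : MvPowerSeries σ (OC C)) :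
    evMv f (0 : σ → C) = ((MvPowerSeries.constantCoeff f : OC C) : C) := by
  classical
  unfold evMv
  rw [tsum_eq_single (0 : σ →₀ ℕ)]
  · simp [cf]
  · intro d hd
    obtain ⟨i, hi⟩ := Finsupp.ne_iff.mp hd
    have hmem : i ∈ d.support := by simpa using hi
    rw [Finsupp.prod, Finset.prod_eq_zero hmem (by simpa using hi), mul_zero]

theorem evMv_mvDeriv_at_zero {σ : Type} [Fintype σ] [DecidableEq σ] (s : σ) (f : MvPowerSeries σ (OC C)) :
    evMv (mvDeriv s f) (0 : σ → C) = cf f (Finsupp.single s 1) := by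
  rw [evMv_at_zero]
  have : MvPowerSeries.constantCoeff (mvDeriv s f) = MvPowerSeries.coeff (Finsupp.single s 1) f := by
    rw [← MvPowerSeries.coeff_zero_eq_constantCoeff_apply]
    change (((0 : σ →₀ ℕ) s + 1 : ℕ) : OC C) * MvPowerSeries.coeff ((0 : σ →₀ ℕ) + Finsupp.single s 1) f = _
    simp
  rw [this]

variable {ι : Type*} {m : ℕ} {𝓕 : Filter ι} {A : ι → Fin m → C}

/-- The jet of a flat series. -/
theorem jet_flat {τ' : Type} [Fintype τ'] [DecidableEq τ'] (hA : Filter.Tendsto A 𝓕 (nhds 0))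
    (Φ : MvPowerSeries τ' (MvPowerSeries (Fin m) (OC C))) (u : τ' → ι → C) (c : τ' → C)
    (ℓ : τ' → Fin m → C) (hc : ∀ s, ‖c s‖ < 1) (hu : ∀ s, Jet 𝓕 A (u s) (c s) (ℓ s)) :
    Jet 𝓕 A (fun δ => evMv (flat Φ) (Sum.elim (A δ) (fun s => u s δ)))
      (evMv (flat Φ) (Sum.elim 0 c))
      (fun k => evMv (mvDeriv (Sum.inl k) (flat Φ)) (Sum.elim 0 c) +
        ∑ s, evMv (mvDeriv (Sum.inr s) (flat Φ)) (Sum.elim 0 c) * ℓ s k) := by
  have hJ := Jet.evMv hA (flat Φ) (Sum.elim (fun e δ => A δ e) u) (Sum.elim 0 c)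
    (Sum.elim (fun e => Pi.single e 1) ℓ)
    (by rintro (e | s); · simp
        · exact hc s)
    (by rintro (e | s)
        · exact Jet.coord e
        · exact hu s)
  have h1 : (fun δ => evMv (flat Φ) (fun s => Sum.elim (fun e δ => A δ e) u s δ)) =
      fun δ => evMv (flat Φ) (Sum.elim (A δ) (fun s => u s δ)) := by
    funext δ
    congr 1
    funext s
    rcases s with e | s <;> rfl
  rw [h1] at hJ
  convert hJ using 2 with k
  rw [Fintype.sum_sum_type]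
  simp only [Sum.elim_inl, Sum.elim_inr]
  congr 1
  rw [Finset.sum_eq_single k]
  · simp
  · intro b _ hb
    simp [hb.symm]
  · simp

theorem sumEquiv_add_single {σ τ' : Type} [DecidableEq σ] [DecidableEq τ'] (D : σ ⊕ τ' →₀ ℕ) (k : σ) :
    Finsupp.sumFinsuppEquivProdFinsupp (D + Finsupp.single (Sum.inl k) 1) =
      ((Finsupp.sumFinsuppEquivProdFinsupp D).1 + Finsupp.single k 1,
        (Finsupp.sumFinsuppEquivProdFinsupp D).2) := by
  apply Prod.ext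
  · ext i
    simp [Finsupp.single_apply]
  · ext i
    simp

/-- The derivative in a parameter of a flat series, at parameter `0`. -/
theorem evMv_mvDeriv_flat {τ' : Type} [Fintype τ'] [DecidableEq τ']
    (Φ : MvPowerSeries τ' (MvPowerSeries (Fin m) (OC C))) (k : Fin m) (y : τ' → C) (hy : ∀ i, ‖y i‖ < 1) :
    evMv (mvDeriv (Sum.inl k) (flat Φ)) (Sum.elim 0 y) =
      evMv (σ := τ') (fun e => MvPowerSeries.coeff (Finsupp.single k 1) (MvPowerSeries.coeff e Φ)) y := by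
  classical
  let Φ' : MvPowerSeries τ' (MvPowerSeries (Fin m) (OC C)) :=
    fun e => mvDeriv k (MvPowerSeries.coeff e Φ)
  have h1 : mvDeriv (Sum.inl k) (flat Φ) = flat Φ' := by
    funext D
    change ((D (Sum.inl k) + 1 : ℕ) : OC C) *
      MvPowerSeries.coeff (D + Finsupp.single (Sum.inl k) 1) (flat Φ) = _
    rw [coeff_flat, sumEquiv_add_single]
    change _ = MvPowerSeries.coeff (Finsupp.sumFinsuppEquivProdFinsupp D).1
      (mvDeriv k (MvPowerSeries.coeff (Finsupp.sumFinsuppEquivProdFinsupp D).2 Φ))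
    change _ = (((Finsupp.sumFinsuppEquivProdFinsupp D).1 k + 1 : ℕ) : OC C) *
      MvPowerSeries.coeff ((Finsupp.sumFinsuppEquivProdFinsupp D).1 + Finsupp.single k 1)
        (MvPowerSeries.coeff (Finsupp.sumFinsuppEquivProdFinsupp D).2 Φ)
    rw [Finsupp.fst_sumFinsuppEquivProdFinsupp]
  have ha0 : ∀ i : Fin m, ‖(0 : Fin m → C) i‖ < 1 := by simp
  rw [h1, evMv_flat Φ' 0 ha0 y hy]
  congr 1
  funext e
  apply Subtype.ext
  have h3 : (MvPowerSeries.map (evHom (0 : Fin m → C) ha0) Φ') e =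
      evHom (0 : Fin m → C) ha0 (mvDeriv k (MvPowerSeries.coeff e Φ)) := by
    change MvPowerSeries.coeff e (MvPowerSeries.map (evHom (0 : Fin m → C) ha0) Φ') = _
    rw [MvPowerSeries.coeff_map]
    rfl
  rw [h3, coe_evHom, evMv_mvDeriv_at_zero]

end Zero

/-- `(-z).val` is the value of the negation series. -/
theorem LawPt.val_neg_eq {C : Type} [NontriviallyNormedField C] [IsUltrametricDist C] [CompleteSpace C]
    {F : FormalGroup (OC C)} [F.IsComm] (z : LawPt F) : (-z).val = ev1 (negSeries F) z.val := by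
  have hn : ‖ev1 (negSeries F) z.val‖ < 1 :=
    (norm_ev1_le_of_constantCoeff _ (constantCoeff_negSeries F) _ z.norm_lt).trans_lt z.norm_lt
  let t : LawPt F := LawPt.mk _ hn
  have h1 : z + t = 0 := by
    apply LawPt.ext'
    rw [LawPt.val_add, LawPt.val_zero]
    have h2 := ev1_lawAdd_subst F PowerSeries.X (negSeries F) PowerSeries.constantCoeff_X
      (constantCoeff_negSeries F) z.val z.norm_lt
    rw [subst_negSeries, ev1_zero _ z.norm_lt, ev1_X _ z.norm_lt] at h2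
    exact h2.symm
  have h2 : t = -z := eq_neg_of_add_eq_zero_right h1
  rw [← h2]
  rfl

/-- Tail estimate of a one-variable series. -/
theorem norm_ev1_sub_sum_le {C : Type} [NontriviallyNormedField C] [IsUltrametricDist C] [CompleteSpace C]
    (f : PowerSeries (OC C)) (x : C) (hx : ‖x‖ < 1) (M : ℕ) :
    ‖ev1 f x - ∑ k ∈ Finset.range M, cC f k * x ^ k‖ ≤ ‖x‖ ^ M := by
  have hs : Summable (fun k : ℕ => ((PowerSeries.coeff k f : OC C) : C) * x ^ k) := by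
    refine Summable.of_norm_bounded (g := fun k => ‖x‖ ^ k) (summable_geometric_of_lt_one (norm_nonneg _) hx)
      (fun k => ?_)
    rw [norm_mul, norm_pow]
    have h1 : ‖((PowerSeries.coeff k f : OC C) : C)‖ ≤ 1 := (PowerSeries.coeff k f : OC C).2
    calc _ ≤ 1 * ‖x‖ ^ k := by gcongr
      _ = _ := one_mul _
  unfold ev1
  rw [← hs.sum_add_tsum_nat_add M, add_sub_cancel_left]
  refine IsUltrametricDist.norm_tsum_le_of_forall_le_of_nonneg (by positivity) (fun k => ?_)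
  rw [norm_mul, norm_pow]
  have h1 : ‖((PowerSeries.coeff (k + M) f : OC C) : C)‖ ≤ 1 := (PowerSeries.coeff (k + M) f : OC C).2
  have h2 : ‖x‖ ^ (k + M) ≤ ‖x‖ ^ M := pow_le_pow_of_le_one (norm_nonneg _) hx.le (by omega)
  calc _ ≤ 1 * ‖x‖ ^ (k + M) := by gcongr
    _ ≤ _ := by rw [one_mul]; exact h2

/-! ### Jets of the laws `H(τ + A)` at fixed or moving points -/
section FamilyJets

variable {C : Type} [NontriviallyNormedField C] [IsUltrametricDist C] [CompleteSpace C]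
variable {ι : Type*} {m : ℕ} {𝓕 : Filter ι} {A : ι → Fin m → C}

theorem ev_small (hA : Filter.Tendsto A 𝓕 (nhds 0)) : ∀ᶠ δ in 𝓕, ∀ j, ‖A δ j‖ < 1 := by
  have h1 : ∀ᶠ δ in 𝓕, ‖A δ‖ < 1 := by
    have := hA.norm
    simp only [norm_zero] at this
    exact this.eventually (gt_mem_nhds one_pos)
  filter_upwards [h1] with δ hδ j
  exact lt_of_le_of_lt (norm_le_pi_norm (A δ) j) hδ

/-- One-variable family with a fixed argument. -/
theorem jet_family1 (hA : Filter.Tendsto A 𝓕 (nhds 0)) (Φ : PowerSeries (MvPowerSeries (Fin m) (OC C)))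
    (g : ι → PowerSeries (OC C)) (g0 : PowerSeries (OC C))
    (hg : ∀ δ (ha : ∀ j, ‖A δ j‖ < 1), g δ = PowerSeries.map (evHom (A δ) ha) Φ)
    (hg0 : ∀ ha0 : ∀ j : Fin m, ‖(0 : Fin m → C) j‖ < 1, g0 = PowerSeries.map (evHom 0 ha0) Φ)
    (w : C) (hw : ‖w‖ < 1) :
    Jet 𝓕 A (fun δ => ev1 (g δ) w) (ev1 g0 w) (fun k => ev1 (PowerSeries.mk fun j =>
      MvPowerSeries.coeff (Finsupp.single k 1) (PowerSeries.coeff j Φ)) w) := by
  have ha0 : ∀ j : Fin m, ‖(0 : Fin m → C) j‖ < 1 := by simp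
  have hJ := jet_flat hA (τ' := Unit) (Φ : MvPowerSeries Unit (MvPowerSeries (Fin m) (OC C)))
    (fun _ _ => w) (fun _ => w) (fun _ => 0) (fun _ => hw) (fun _ => Jet.const hA w)
  have hc : evMv (flat (τ' := Unit) Φ) (Sum.elim (0 : Fin m → C) fun _ => w) = ev1 g0 w := by
    rw [evMv_flat (τ' := Unit) Φ 0 ha0 _ (fun _ => hw), hg0 ha0, ev1_eq_evMv]
    rfl
  have hl : (fun k => evMv (mvDeriv (Sum.inl k) (flat (τ' := Unit) Φ)) (Sum.elim (0 : Fin m → C) fun _ => w) +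
      ∑ s : Unit, evMv (mvDeriv (Sum.inr s) (flat (τ' := Unit) Φ)) (Sum.elim (0 : Fin m → C) fun _ => w) *
        (0 : Fin m → C) k) =
      (fun k => ev1 (PowerSeries.mk fun j =>
        MvPowerSeries.coeff (Finsupp.single k 1) (PowerSeries.coeff j Φ)) w) := by
    funext k
    rw [evMv_mvDeriv_flat (τ' := Unit) Φ k _ (fun _ => hw), ev1_eq_evMv]
    simp only [Pi.zero_apply, mul_zero, Finset.sum_const_zero, add_zero]
    congr 1
    funext e
    have he : e = Finsupp.single () (e ()) := by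
      ext
      simp
    change MvPowerSeries.coeff (Finsupp.single k 1) (MvPowerSeries.coeff e Φ) =
      MvPowerSeries.coeff e (PowerSeries.mk fun j =>
        MvPowerSeries.coeff (Finsupp.single k 1) (PowerSeries.coeff j Φ))
    conv_rhs => rw [he]
    change _ = PowerSeries.coeff (e ()) (PowerSeries.mk fun j =>
        MvPowerSeries.coeff (Finsupp.single k 1) (PowerSeries.coeff j Φ))
    rw [PowerSeries.coeff_mk]
    conv_lhs => rw [he]
    rfl
  rw [hc, hl] at hJ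
  refine hJ.congr_ev ?_
  filter_upwards [ev_small hA] with δ hδ
  rw [evMv_flat (τ' := Unit) Φ _ hδ _ (fun _ => hw), hg δ hδ, ev1_eq_evMv]
  rfl

/-- Two-variable family at moving arguments. -/
theorem jet_family2 (hA : Filter.Tendsto A 𝓕 (nhds 0)) (Φ : MvPowerSeries (Fin 2) (MvPowerSeries (Fin m) (OC C)))
    (g : ι → MvPowerSeries (Fin 2) (OC C)) (g0 : MvPowerSeries (Fin 2) (OC C))
    (hg : ∀ δ (ha : ∀ j, ‖A δ j‖ < 1), g δ = MvPowerSeries.map (evHom (A δ) ha) Φ)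
    (hg0 : ∀ ha0 : ∀ j : Fin m, ‖(0 : Fin m → C) j‖ < 1, g0 = MvPowerSeries.map (evHom 0 ha0) Φ)
    (x y : ι → C) (cx cy : C) (ℓx ℓy : Fin m → C) (hcx : ‖cx‖ < 1) (hcy : ‖cy‖ < 1)
    (hx : Jet 𝓕 A x cx ℓx) (hy : Jet 𝓕 A y cy ℓy) :
    ∃ ℓ, Jet 𝓕 A (fun δ => evMv (g δ) ![x δ, y δ]) (evMv g0 ![cx, cy]) ℓ := by
  have ha0 : ∀ j : Fin m, ‖(0 : Fin m → C) j‖ < 1 := by simp
  have hc2 : ∀ s, ‖(![cx, cy] : Fin 2 → C) s‖ < 1 := by
    intro s; fin_cases s
    · exact hcx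
    · exact hcy
  have hJ := jet_flat hA Φ (fun s : Fin 2 => (![x, y] : Fin 2 → ι → C) s) ![cx, cy] ![ℓx, ℓy] hc2
    (by intro s; fin_cases s
        · exact hx
        · exact hy)
  have hc : evMv (flat Φ) (Sum.elim (0 : Fin m → C) ![cx, cy]) = evMv g0 ![cx, cy] := by
    rw [evMv_flat Φ 0 ha0 _ hc2, hg0 ha0]
  rw [hc] at hJ
  refine ⟨_, hJ.congr_ev ?_⟩
  have hxs : ∀ᶠ δ in 𝓕, ‖x δ‖ < 1 := by
    have := (hx.tendsto hA).norm
    exact this.eventually (gt_mem_nhds hcx)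
  have hys : ∀ᶠ δ in 𝓕, ‖y δ‖ < 1 := by
    have := (hy.tendsto hA).norm
    exact this.eventually (gt_mem_nhds hcy)
  filter_upwards [ev_small hA, hxs, hys] with δ hδ h1 h2
  have h3 : (fun s : Fin 2 => (![x, y] : Fin 2 → ι → C) s δ) = ![x δ, y δ] := by
    funext s; fin_cases s <;> rfl
  rw [h3, evMv_flat Φ _ hδ _ (by intro s; fin_cases s
                                 · exact h1
                                 · exact h2), hg δ hδ]

end FamilyJets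

namespace ChartFamily

variable {p h n} {𝓕 : Filter ι} {τ : Fin (n - h) → OC C} {r : ℝ}

theorem evHom_zero_tauS (τ : Fin (n - h) → OC C)
    (ha0 : ∀ j : Fin (n - h), ‖(0 : Fin (n - h) → C) j‖ < 1) :
    (fun j => evHom (0 : Fin (n - h) → C) ha0 (tauS h n τ j)) = τ := by
  funext j
  apply Subtype.ext
  rw [coe_evHom, evMv_at_zero, tauS]
  simp

theorem law_map_A (F : ChartFamily p h n 𝓕 τ r) (δ : ι) (ha : ∀ j, ‖F.A δ j‖ < 1) :
    (HS p h n (tauS h n τ)).map (evHom (F.A δ) ha) = HS p h n (F.τ' δ) := by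
  rw [HS_map, F.evHom_tauS δ ha]

theorem law_map_zero (τ : Fin (n - h) → OC C)
    (ha0 : ∀ j : Fin (n - h), ‖(0 : Fin (n - h) → C) j‖ < 1) :
    (HS p h n (tauS h n τ)).map (evHom (0 : Fin (n - h) → C) ha0) = HS p h n τ := by
  rw [HS_map, evHom_zero_tauS]

/-- The jet of `[p]_{H(τ + A)}` at a fixed point. -/
theorem jet_mulSeries (F : ChartFamily p h n 𝓕 τ r) (w : C) (hw : ‖w‖ < 1) :
    Jet 𝓕 F.A (fun δ => ev1 (mulSeries (HS p h n (F.τ' δ)) p) w) (ev1 (mulSeries (HS p h n τ) p) w)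
      (fun k => ev1 (dPS p h n τ k) w) :=
  jet_family1 F.hA' (PPS p h n τ) _ _
    (fun δ ha => by rw [PPS, ← mulSeries_map, F.law_map_A δ ha])
    (fun ha0 => by rw [PPS, ← mulSeries_map, law_map_zero τ ha0]) w hw

/-- The jet of the negation series at a fixed point. -/
theorem jet_negSeries (F : ChartFamily p h n 𝓕 τ r) (w : C) (hw : ‖w‖ < 1) :
    ∃ ℓ, Jet 𝓕 F.A (fun δ => ev1 (negSeries (HS p h n (F.τ' δ))) w) (ev1 (negSeries (HS p h n τ)) w) ℓ :=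
  ⟨_, jet_family1 F.hA' (negSeries (HS p h n (tauS h n τ))) _ _
    (fun δ ha => by rw [← negSeries_map, F.law_map_A δ ha])
    (fun ha0 => by rw [← negSeries_map, law_map_zero τ ha0]) w hw⟩

/-- The jet of the law at moving points. -/
theorem jet_lawAdd (F : ChartFamily p h n 𝓕 τ r) (x y : ι → C) (cx cy : C) (ℓx ℓy : Fin (n - h) → C)
    (hcx : ‖cx‖ < 1) (hcy : ‖cy‖ < 1) (hx : Jet 𝓕 F.A x cx ℓx) (hy : Jet 𝓕 F.A y cy ℓy) :
    ∃ ℓ, Jet 𝓕 F.A (fun δ => lawAdd (HS p h n (F.τ' δ)) (x δ) (y δ)) (lawAdd (HS p h n τ) cx cy) ℓ :=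
  jet_family2 F.hA' (HS p h n (tauS h n τ)).toPowerSeries _ _
    (fun δ ha => by rw [← F.law_map_A δ ha]; rfl)
    (fun ha0 => by rw [← law_map_zero τ ha0]; rfl) x y cx cy ℓx ℓy hcx hcy hx hy

/-- `d_j` in `H'`. -/
def Dpt (F : ChartFamily p h n 𝓕 τ r) (y : ℕ → LawPt (HS p h n τ)) (δ : ι) (j : ℕ) :
    LawPt (HS p h n (F.τ' δ)) :=
  p • (LawPt.cast (y (j + 1)) : LawPt (HS p h n (F.τ' δ))) -
    (LawPt.cast (y j) : LawPt (HS p h n (F.τ' δ)))

/-- `θ_δ(d_j)` in `H`. -/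
def Ept (F : ChartFamily p h n 𝓕 τ r) (y : ℕ → LawPt (HS p h n τ)) (δ : ι) (j : ℕ) :
    LawPt (HS p h n τ) :=
  homPt (F.θ δ) (F.hθ δ) (F.Dpt y δ j)

theorem Dpt_val (F : ChartFamily p h n 𝓕 τ r) (y : ℕ → LawPt (HS p h n τ)) (δ : ι) (j : ℕ) :
    (F.Dpt y δ j).val = lawAdd (HS p h n (F.τ' δ)) (ev1 (mulSeries (HS p h n (F.τ' δ)) p) (y (j + 1)).val)
      (ev1 (negSeries (HS p h n (F.τ' δ))) (y j).val) := by
  rw [Dpt, sub_eq_add_neg, LawPt.val_add, LawPt.val_nsmul, LawPt.val_neg_eq, LawPt.val_cast, LawPt.val_cast]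

/-- The uniform bound `‖d_j‖ ≤ ‖A‖`. -/
theorem norm_Dpt_le (F : ChartFamily p h n 𝓕 τ r) (y : ℕ → LawPt (HS p h n τ))
    (hy : ∀ j, p • y (j + 1) = y j) (δ : ι) (ha : ∀ j, ‖F.A δ j‖ < 1) (j : ℕ) :
    ‖(F.Dpt y δ j).val‖ ≤ ‖F.A δ‖ := by
  have ha0 : ∀ j : Fin (n - h), ‖(0 : Fin (n - h) → C) j‖ < 1 := by simp
  rw [Dpt, LawPt.norm_sub_eq, LawPt.val_nsmul, LawPt.val_cast, LawPt.val_cast]
  have h1 : (y j).val = ev1 (mulSeries (HS p h n τ) p) (y (j + 1)).val := by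
    rw [← hy j, LawPt.val_nsmul]
  rw [h1, ev1_eq_evMv, ev1_eq_evMv]
  refine norm_evMv_sub_of_coeff (σ := Unit) _ _ _ (fun _ => (y (j + 1)).norm_lt) _ (norm_nonneg _) ?_
  intro d
  have h2 : (mulSeries (HS p h n (F.τ' δ)) p : PowerSeries (OC C)) =
      PowerSeries.map (evHom (F.A δ) ha) (PPS p h n τ) := by
    rw [PPS, ← mulSeries_map, F.law_map_A δ ha]
  have h3 : (mulSeries (HS p h n τ) p : PowerSeries (OC C)) =
      PowerSeries.map (evHom (0 : Fin (n - h) → C) ha0) (PPS p h n τ) := by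
    rw [PPS, ← mulSeries_map, law_map_zero τ ha0]
  rw [h2, h3]
  have h4 : ∀ (a : Fin (n - h) → C) (hh : ∀ j, ‖a j‖ < 1),
      cf (σ := Unit) (PowerSeries.map (evHom a hh) (PPS p h n τ)) d =
        evMv (MvPowerSeries.coeff d (PPS p h n τ : MvPowerSeries Unit (SA C (n - h)))) a := by
    intro a hh
    rw [← coe_evHom a hh]
    congr 1
  rw [h4, h4]
  refine norm_evMv_sub_le _ _ _ ha ha0 _ (fun i => ?_) (norm_nonneg _)
  simpa using norm_le_pi_norm (F.A δ) i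

/-- The jet of `d_j`. -/
theorem jet_Dpt (F : ChartFamily p h n 𝓕 τ r) (y : ℕ → LawPt (HS p h n τ))
    (hy : ∀ j, p • y (j + 1) = y j) (j : ℕ) :
    ∃ ℓ, Jet 𝓕 F.A (fun δ => (F.Dpt y δ j).val) 0 ℓ := by
  obtain ⟨ℓn, hn'⟩ := F.jet_negSeries (y j).val (y j).norm_lt
  have h1 := F.jet_mulSeries (y (j + 1)).val (y (j + 1)).norm_lt
  have hm0 : ‖ev1 (mulSeries (HS p h n τ) p) (y (j + 1)).val‖ < 1 := by
    rw [← LawPt.val_nsmul]
    exact LawPt.norm_lt _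
  have hn0 : ‖ev1 (negSeries (HS p h n τ)) (y j).val‖ < 1 := by
    rw [← LawPt.val_neg_eq]
    exact LawPt.norm_lt _
  obtain ⟨ℓ, hℓ⟩ := F.jet_lawAdd _ _ _ _ _ _ hm0 hn0 h1 hn'
  have h0 : lawAdd (HS p h n τ) (ev1 (mulSeries (HS p h n τ) p) (y (j + 1)).val)
      (ev1 (negSeries (HS p h n τ)) (y j).val) = 0 := by
    rw [← LawPt.val_nsmul, ← LawPt.val_neg_eq, ← LawPt.val_add, hy j, add_neg_cancel, LawPt.val_zero]
  rw [h0] at hℓ
  refine ⟨ℓ, hℓ.congr_ev (Filter.Eventually.of_forall fun δ => ?_)⟩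
  rw [F.Dpt_val]

/-- The jet of `d_0`, with its linear part. -/
theorem jet_Dpt_zero (F : ChartFamily p h n 𝓕 τ r) (y : ℕ → LawPt (HS p h n τ))
    (hy : ∀ j, p • y (j + 1) = y j) (hy0 : y 0 = 0) :
    Jet 𝓕 F.A (fun δ => (F.Dpt y δ 0).val) 0 (fun k => ev1 (dPS p h n τ k) (y 1).val) := by
  have h1 := F.jet_mulSeries (y 1).val (y 1).norm_lt
  have h0 : ev1 (mulSeries (HS p h n τ) p) (y 1).val = 0 := by
    rw [← LawPt.val_nsmul, hy 0, hy0, LawPt.val_zero]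
  rw [h0] at h1
  refine h1.congr_ev (Filter.Eventually.of_forall fun δ => ?_)
  have h2 : (LawPt.cast (y 0) : LawPt (HS p h n (F.τ' δ))) = 0 := by
    apply LawPt.ext'
    rw [LawPt.val_cast, hy0, LawPt.val_zero, LawPt.val_zero]
  rw [Dpt, h2, sub_zero, LawPt.val_nsmul, LawPt.val_cast]

/-- `θ` composed with a small jet. -/
theorem jet_theta_comp (hh : 1 ≤ h) (hn : h < n) (hτ0 : τ ⟨0, by omega⟩ ≠ 0)
    (hτ : ∀ j, ‖((τ j : OC C) : C)‖ < 1) (F : ChartFamily p h n 𝓕 τ r) (v : ι → C) (ℓ : Fin (n - h) → C)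
    (hv : Jet 𝓕 F.A v 0 ℓ) (hb : ∀ᶠ δ in 𝓕, ‖v δ‖ ≤ ‖F.A δ‖) :
    Jet 𝓕 F.A (fun δ => ev1 (F.θ δ) (v δ)) 0 ℓ := by
  have hA := F.hA'
  have hA1 : ∀ᶠ δ in 𝓕, ‖F.A δ‖ < 1 := by
    have := hA.norm
    simp only [norm_zero] at this
    exact this.eventually (gt_mem_nhds one_pos)
  refine Jet.of_approx fun N => ?_
  -- terms
  have hterm : ∀ k ∈ Finset.range (N + 2), Jet 𝓕 F.A (fun δ => cC (F.θ δ) k * v δ ^ k) 0
      (if k = 1 then ℓ else 0) := by
    intro k _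
    rcases k with _ | _ | k
    · refine (Jet.const hA 0).congr_ev (Filter.Eventually.of_forall fun δ => ?_)
      have h0 : PowerSeries.constantCoeff (F.θ δ) = 0 := (F.hθ δ).1
      simp [cC, h0]
    · obtain ⟨ℓ1, h1⟩ := theta_jet hh hn hτ0 hτ F 1
      have h2 := h1.mul hA (by simpa using hv.pow hA 1 : Jet 𝓕 F.A (fun δ => v δ ^ 1) 0 ℓ)
      simpa using h2
    · obtain ⟨ℓ1, h1⟩ := theta_jet hh hn hτ0 hτ F (k + 1 + 1)
      have h2 := h1.mul hA (hv.pow hA (k + 1 + 1))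
      simpa using h2
  have hsum := Jet.sum (Finset.range (N + 2)) _ _ _ hterm
  have hc0 : ∑ i ∈ Finset.range (N + 2), (0 : C) = 0 := by simp
  have hl : ∑ i ∈ Finset.range (N + 2), (if i = 1 then ℓ else 0) = ℓ := by
    rw [Finset.sum_ite_eq' (Finset.range (N + 2)) 1 (fun _ => ℓ)]
    simp
  rw [hc0, hl] at hsum
  refine ⟨_, hsum, 1, ?_⟩
  filter_upwards [hb, hA1] with δ h1 h2
  have hv1 : ‖v δ‖ < 1 := h1.trans_lt h2
  have h3 := norm_ev1_sub_sum_le (F.θ δ) (v δ) hv1 (N + 2)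
  rw [one_mul]
  refine h3.trans ?_
  calc ‖v δ‖ ^ (N + 2) ≤ ‖F.A δ‖ ^ (N + 2) := by gcongr
    _ ≤ ‖F.A δ‖ ^ (N + 1) := pow_le_pow_of_le_one (norm_nonneg _) h2.le (by omega)

end ChartFamily

namespace ChartFamily

variable {p h n} {𝓕 : Filter ι} {τ : Fin (n - h) → OC C} {r : ℝ}

/-- `p^J •` kills the linear part, `J ≥ 1`. -/
theorem jet_pow_smul (F : ChartFamily p h n 𝓕 τ r) (z : ι → LawPt (HS p h n τ)) (ℓ : Fin (n - h) → C)
    (hz : Jet 𝓕 F.A (fun δ => (z δ).val) 0 ℓ) (J : ℕ) (hJ : 1 ≤ J) :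
    Jet 𝓕 F.A (fun δ => ((p ^ J) • z δ).val) 0 0 := by
  have : CharP (OC C) p := charP_OC p
  have h1 := Jet.evMv F.hA' (σ := Unit) (mulSeries (HS p h n τ) (p ^ J)) (fun _ δ => (z δ).val)
    (fun _ => 0) (fun _ => ℓ) (by simp) (fun _ => hz)
  have h2 : (fun _ : Unit => (0 : C)) = (0 : Unit → C) := rfl
  rw [h2, evMv_at_zero] at h1
  have h3 : MvPowerSeries.constantCoeff (σ := Unit) (mulSeries (HS p h n τ) (p ^ J)) = 0 :=
    constantCoeff_mulSeries _ _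
  rw [h3] at h1
  have h4 : (fun k => ∑ s : Unit, evMv (mvDeriv s (mulSeries (HS p h n τ) (p ^ J) : MvPowerSeries Unit (OC C)))
      (0 : Unit → C) * ℓ k) = 0 := by
    funext k
    simp only [Fintype.univ_unit, Finset.sum_singleton]
    rw [evMv_mvDeriv_at_zero]
    have h5 : cf (σ := Unit) (mulSeries (HS p h n τ) (p ^ J)) (Finsupp.single () 1) =
        ((PowerSeries.coeff 1 (mulSeries (HS p h n τ) (p ^ J)) : OC C) : C) := rfl
    rw [h5, coeff_one_mulSeries]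
    have h6 : ((p ^ J : ℕ) : OC C) = 0 := by
      rw [Nat.cast_pow, CharP.cast_eq_zero, zero_pow (by omega)]
    rw [h6]
    simp
  rw [h4] at h1
  refine h1.congr_ev (Filter.Eventually.of_forall fun δ => ?_)
  rw [LawPt.val_nsmul, ev1_eq_evMv]

/-- The sum in `H`. -/
theorem jet_add_H (F : ChartFamily p h n 𝓕 τ r) (x y : ι → LawPt (HS p h n τ)) (ℓx ℓy : Fin (n - h) → C)
    (hx : Jet 𝓕 F.A (fun δ => (x δ).val) 0 ℓx) (hy : Jet 𝓕 F.A (fun δ => (y δ).val) 0 ℓy) :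
    Jet 𝓕 F.A (fun δ => (x δ + y δ).val) 0 (ℓx + ℓy) := by
  have h1 := Jet.evMv F.hA' (σ := Fin 2) (HS p h n τ).toPowerSeries
    (fun s δ => (![fun δ => (x δ).val, fun δ => (y δ).val] : Fin 2 → ι → C) s δ)
    (fun _ => 0) (![ℓx, ℓy]) (by simp)
    (by intro s; fin_cases s
        · exact hx
        · exact hy)
  have h2 : (fun _ : Fin 2 => (0 : C)) = (0 : Fin 2 → C) := rfl
  rw [h2, evMv_at_zero, (HS p h n τ).zero_constantCoeff] at h1
  have h4 : (fun k => ∑ s : Fin 2, evMv (mvDeriv s (HS p h n τ).toPowerSeries) (0 : Fin 2 → C) *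
      (![ℓx, ℓy] : Fin 2 → Fin (n - h) → C) s k) = ℓx + ℓy := by
    funext k
    rw [Fin.sum_univ_two, evMv_mvDeriv_at_zero, evMv_mvDeriv_at_zero]
    have h5 : cf (HS p h n τ).toPowerSeries (Finsupp.single 0 1) = 1 := by
      simp [cf, (HS p h n τ).lin_coeff_X]
    have h6 : cf (HS p h n τ).toPowerSeries (Finsupp.single 1 1) = 1 := by
      simp [cf, (HS p h n τ).lin_coeff_Y]
    rw [h5, h6]
    simp
  rw [h4] at h1
  refine h1.congr_ev (Filter.Eventually.of_forall fun δ => ?_)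
  rw [LawPt.val_add]
  have h7 : (fun s : Fin 2 => (![fun δ => (x δ).val, fun δ => (y δ).val] : Fin 2 → ι → C) s δ) =
      ![(x δ).val, (y δ).val] := by
    funext s; fin_cases s <;> rfl
  rw [h7]
  rfl

/-- Partial sums. -/
theorem jet_partial (hh : 1 ≤ h) (hn : h < n) (hτ0 : τ ⟨0, by omega⟩ ≠ 0)
    (hτ : ∀ j, ‖((τ j : OC C) : C)‖ < 1) (F : ChartFamily p h n 𝓕 τ r) (y : ℕ → LawPt (HS p h n τ))
    (hy : ∀ j, p • y (j + 1) = y j) (hy0 : y 0 = 0) (J : ℕ) :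
    Jet 𝓕 F.A (fun δ => (∑ j ∈ Finset.range (J + 1), (p ^ j) • F.Ept y δ j : LawPt (HS p h n τ)).val) 0
      (fun k => ev1 (dPS p h n τ k) (y 1).val) := by
  have hb : ∀ j, ∀ᶠ δ in 𝓕, ‖(F.Dpt y δ j).val‖ ≤ ‖F.A δ‖ := by
    intro j
    filter_upwards [F.A_small] with δ hδ
    exact F.norm_Dpt_le y hy δ hδ j
  induction J with
  | zero =>
    have h1 := jet_theta_comp hh hn hτ0 hτ F _ _ (F.jet_Dpt_zero y hy hy0) (hb 0)
    refine h1.congr_ev (Filter.Eventually.of_forall fun δ => ?_)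
    rw [Finset.sum_range_one, pow_zero, one_smul]
    rfl
  | succ J ih =>
    obtain ⟨ℓ, hℓ⟩ := F.jet_Dpt y hy (J + 1)
    have h1 : Jet 𝓕 F.A (fun δ => (F.Ept y δ (J + 1)).val) 0 ℓ :=
      jet_theta_comp hh hn hτ0 hτ F _ _ hℓ (hb (J + 1))
    have h2 := F.jet_pow_smul (fun δ => F.Ept y δ (J + 1)) ℓ h1 (J + 1) (by omega)
    have h3 := F.jet_add_H _ _ _ _ ih h2
    rw [add_zero] at h3
    refine h3.congr_ev (Filter.Eventually.of_forall fun δ => ?_)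
    rw [Finset.sum_range_succ _ (J + 1)]

/-- `‖p • z‖ ≤ ‖z‖²` in `H`. -/
theorem norm_pSmul_le_sq (hh : 1 ≤ h) (hn : h < n) (τ : Fin (n - h) → OC C) (z : LawPt (HS p h n τ)) :
    ‖(p • z).val‖ ≤ ‖z.val‖ ^ 2 := by
  have : CharP (OC C) p := charP_OC p
  have hP : p ^ h ≠ 0 := pow_ne_zero _ (Fact.out : p.Prime).ne_zero
  have hX : PowerSeries.constantCoeff (PowerSeries.X ^ (p ^ h) : PowerSeries (OC C)) = 0 := by
    rw [map_pow, PowerSeries.constantCoeff_X, zero_pow hP]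
  have hz := z.norm_lt
  rw [LawPt.val_nsmul, pSeries_HS p h n hh hn.le τ, scomp, ev1_subst _ _ hX _ hz]
  have h1 : ev1 (PowerSeries.X ^ (p ^ h) : PowerSeries (OC C)) z.val = z.val ^ (p ^ h) := by
    rw [ev1_eq_evMv]
    have h2 := evMv_pow (σ := Unit) (PowerSeries.X : PowerSeries (OC C)) (p ^ h) (fun _ => z.val)
      (fun _ => hz)
    rw [h2, ← ev1_eq_evMv, ev1_X _ hz]
  rw [h1]
  have h2 : ‖z.val ^ (p ^ h)‖ < 1 := by
    rw [norm_pow]
    exact pow_lt_one₀ (norm_nonneg _) hz hP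
  refine (norm_ev1_le_of_constantCoeff _ (constantCoeff_psiS p h n τ) _ h2).trans ?_
  rw [norm_pow]
  have hP2 : 2 ≤ p ^ h := by
    have hp2 : 2 ≤ p := (Fact.out : p.Prime).two_le
    calc 2 ≤ p := hp2
      _ = p ^ 1 := (pow_one p).symm
      _ ≤ p ^ h := Nat.pow_le_pow_right (by omega) hh
  exact pow_le_pow_of_le_one (norm_nonneg _) hz.le hP2

theorem norm_pow_smul_le (hh : 1 ≤ h) (hn : h < n) (τ : Fin (n - h) → OC C) (z : LawPt (HS p h n τ)) (j : ℕ) :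
    ‖((p ^ j) • z).val‖ ≤ ‖z.val‖ ^ (j + 1) := by
  have hz := z.norm_lt
  induction j with
  | zero => simp
  | succ j ih =>
    have h1 : (p ^ (j + 1)) • z = p • ((p ^ j) • z) := by
      rw [pow_succ', mul_smul]
    rw [h1]
    refine (norm_pSmul_le_sq hh hn τ _).trans ?_
    calc ‖((p ^ j) • z).val‖ ^ 2 ≤ (‖z.val‖ ^ (j + 1)) ^ 2 := by gcongr
      _ = ‖z.val‖ ^ ((j + 1) * 2) := (pow_mul _ _ _).symm
      _ ≤ ‖z.val‖ ^ (j + 1 + 1) := pow_le_pow_of_le_one (norm_nonneg _) hz.le (by omega)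

/-- **The chart.** For `x ∈ ker π`, `b δ = θ_δ(π'_δ(x))` has a jet with constant term `0` and linear part
`k ↦ κ_k(c)`, `c = π(x^(1/q))`.

Proof. `π'(x) = lim_N ∑^{H'}_{j<N} [p^j]_H'(d_j)` (`tendsto_formula`); applying the hom. `θ`:
`b = lim_N ∑^H_{j<N} [p^j]_H(θ(d_j))`. Here `d_j = [p]_H'(c^(j+1)) -_H' c^(j)` are values at `(A, c^(j+1), c^(j))` of fixed
series: (`flat` of `mulSeries`, `negSeries`, law over `𝒪_C[[A]]`), vanish at `A = 0`, so `‖d_j‖ ≤ ‖A‖` uniformly in `j`, and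
have jets by `Jet.evMv`. `θ(d_j) = ∑_k θ_k d_j^k`: truncate at `k ≤ N` (tail `≤ ‖A‖^(N+1)`), use `theta_jet`. Also
`‖[p^j]_H(u)‖ ≤ ‖u‖^(P^j)` as `[p]_H = ψ(X^P)`, so only `j` with `P^j ≤ N` matter. `Jet.evMv` with fixed series
`mulSeries H (p^j)`, and `H` for the finite `H`-sum. Linear part: `j ≥ 1` contributes `0`: `[p^j]_H` has order `≥ P ≥ 2`; `θ_1 d_0`
has linear part that of `d_0 = [p]_H'(c)`, which is `κ(c)` by definition of `dPS`. -/
theorem chart (hh : 1 ≤ h) (hn : h < n) (hτ0 : τ ⟨0, by omega⟩ ≠ 0)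
    (hτ : ∀ j, ‖((τ j : OC C) : C)‖ < 1) (F : ChartFamily p h n 𝓕 τ r)
    (x : LawPt (GamC p n C)) (hx : F.S.pi x = 0) :
    Jet 𝓕 F.A (fun δ => (homPt (F.θ δ) (F.hθ δ) ((F.S' δ).pi x)).val) 0
      (fun k => ev1 (dPS p h n τ k) (F.S.tower x 1).val) := by
  set y : ℕ → LawPt (HS p h n τ) := F.S.tower x with hydef
  have hy : ∀ j, p • y (j + 1) = y j := F.S.pSmul_tower x
  have hy0 : y 0 = 0 := F.S.tower_zero x hx
  refine Jet.of_approx fun N => ⟨_, jet_partial hh hn hτ0 hτ F y hy hy0 N, 1, ?_⟩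
  have hA1 : ∀ᶠ δ in 𝓕, ‖F.A δ‖ < 1 := by
    have := F.hA'.norm
    simp only [norm_zero] at this
    exact this.eventually (gt_mem_nhds one_pos)
  filter_upwards [hA1, F.A_small] with δ hδ hδ'
  rw [one_mul]
  -- the limit
  have hlim := F.S.tendsto_formula (F.S' δ) x hx
  have hlim2 : Filter.Tendsto (fun M : ℕ => (∑ j ∈ Finset.range M, (p ^ j) • F.Ept y δ j :
      LawPt (HS p h n τ)).val) Filter.atTop (nhds (homPt (F.θ δ) (F.hθ δ) ((F.S' δ).pi x)).val) := by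
    rw [Metric.tendsto_atTop] at hlim ⊢
    intro ε hε
    obtain ⟨M₀, hM₀⟩ := hlim ε hε
    refine ⟨M₀, fun M hM => ?_⟩
    have h1 := hM₀ M hM
    rw [dist_eq_norm] at h1 ⊢
    have h2 : (∑ j ∈ Finset.range M, (p ^ j) • F.Ept y δ j : LawPt (HS p h n τ)) =
        homPt (F.θ δ) (F.hθ δ) (∑ j ∈ Finset.range M, (p ^ j) • F.Dpt y δ j) := by
      rw [map_sum]
      refine Finset.sum_congr rfl fun j _ => ?_
      rw [map_nsmul]
      rfl
    rw [h2, homPt_val, homPt_val]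
    exact (norm_ev1_sub_le _ _ _ (LawPt.norm_lt _) (LawPt.norm_lt _)).trans_lt h1
  -- the Cauchy estimate
  have hsmall : ∀ j, N ≤ j → ‖((p ^ j) • F.Ept y δ j).val‖ ≤ ‖F.A δ‖ ^ (N + 1) := by
    intro j hj
    refine (norm_pow_smul_le hh hn τ _ j).trans ?_
    have h1 : ‖(F.Ept y δ j).val‖ ≤ ‖F.A δ‖ := by
      refine (norm_ev1_le_of_constantCoeff _ (F.hθ δ).1 _ (LawPt.norm_lt _)).trans ?_
      exact F.norm_Dpt_le y hy δ hδ' j
    calc ‖(F.Ept y δ j).val‖ ^ (j + 1) ≤ ‖F.A δ‖ ^ (j + 1) := by gcongr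
      _ ≤ ‖F.A δ‖ ^ (N + 1) := pow_le_pow_of_le_one (norm_nonneg _) hδ.le (by omega)
  have hcauchy : ∀ M, N + 1 ≤ M →
      ‖(∑ j ∈ Finset.range M, (p ^ j) • F.Ept y δ j : LawPt (HS p h n τ)).val -
        (∑ j ∈ Finset.range (N + 1), (p ^ j) • F.Ept y δ j : LawPt (HS p h n τ)).val‖ ≤
        ‖F.A δ‖ ^ (N + 1) := by
    intro M hM
    induction M, hM using Nat.le_induction with
    | base => simp
    | succ M hM ih =>
      have h1 : ‖(∑ j ∈ Finset.range (M + 1), (p ^ j) • F.Ept y δ j : LawPt (HS p h n τ)).val -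
          (∑ j ∈ Finset.range M, (p ^ j) • F.Ept y δ j : LawPt (HS p h n τ)).val‖ ≤ ‖F.A δ‖ ^ (N + 1) := by
        rw [← LawPt.norm_sub_eq, Finset.sum_range_succ, add_sub_cancel_left]
        exact hsmall M (by omega)
      have h2 := IsUltrametricDist.norm_add_le_max
        ((∑ j ∈ Finset.range (M + 1), (p ^ j) • F.Ept y δ j : LawPt (HS p h n τ)).val -
          (∑ j ∈ Finset.range M, (p ^ j) • F.Ept y δ j : LawPt (HS p h n τ)).val)
        ((∑ j ∈ Finset.range M, (p ^ j) • F.Ept y δ j : LawPt (HS p h n τ)).val -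
          (∑ j ∈ Finset.range (N + 1), (p ^ j) • F.Ept y δ j : LawPt (HS p h n τ)).val)
      rw [sub_add_sub_cancel] at h2
      exact h2.trans (max_le h1 ih)
  have hlim3 := hlim2.sub_const
    (∑ j ∈ Finset.range (N + 1), (p ^ j) • F.Ept y δ j : LawPt (HS p h n τ)).val
  refine le_of_tendsto hlim3.norm ?_
  filter_upwards [Filter.eventually_ge_atTop (N + 1)] with M hM
  exact hcauchy M hM

end ChartFamily

end

end Crest.Agent.LT
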