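/-
S0351 package CHARP/RHO: the homomorphism `ρ : H(τ) → H₀` over `𝒪_C` to Honda's law of height `h`, `ρ_1 ≠ 0`.
See BLUEPRINT.md §CP4.
-/
import Crest.Agent.LT.CharP.Setup
import Crest.Agent.LT.Abstract.FS
import Crest.Agent.LT.Lazard

set_option autoImplicit false
set_option linter.style.haveILetI false
set_option linter.unnecessarySimpa false
set_option linter.unusedSectionVars false

open Crest.LubinTate

namespace Crest.Agent.LT

noncomputable section

namespace RhoAux

/-! ### Strong recursion by choice -/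

/-- The sequence defined by strong recursion from a step function. -/
def seqOf {α : Type*} [Inhabited α] (step : ℕ → (ℕ → α) → α) : ℕ → α
  | k => step k (fun j => if _h : j < k then seqOf step j else default)
termination_by k => k
decreasing_by exact _h

theorem seqOf_eq {α : Type*} [Inhabited α] (step : ℕ → (ℕ → α) → α) (k : ℕ) :
    seqOf step k = step k (fun j => if _h : j < k then seqOf step j else default) := by
  rw [seqOf]

/-- Existence of a sequence satisfying a recursive condition which only depends on the earlier terms. -/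
theorem exists_seq {α : Type*} [Inhabited α] (Q : ℕ → (ℕ → α) → α → Prop)
    (hstep : ∀ k a, ∃ x, Q k a x)
    (hdep : ∀ k a b x, (∀ j, j < k → a j = b j) → Q k a x → Q k b x) :
    ∃ s : ℕ → α, ∀ k, Q k s (s k) := by
  choose step hs using hstep
  refine ⟨seqOf step, fun k => ?_⟩
  have h1 := hs k (fun j => if _h : j < k then seqOf step j else default)
  rw [← seqOf_eq step k] at h1
  refine hdep k _ _ _ (fun j hj => ?_) h1
  simp [hj]

/-! ### Coefficients of powers and compositions -/

section Coeff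

variable {R : Type*} [CommRing R]

theorem coeff_pow_of_lt (ψ : PowerSeries R) (h0 : PowerSeries.constantCoeff ψ = 0) {j k : ℕ}
    (hk : k < j) : PowerSeries.coeff k (ψ ^ j) = 0 := by
  have h1 : (PowerSeries.X : PowerSeries R) ∣ ψ := PowerSeries.X_dvd_iff.2 h0
  have h2 : (PowerSeries.X : PowerSeries R) ^ j ∣ ψ ^ j := pow_dvd_pow_of_dvd h1 j
  exact PowerSeries.X_pow_dvd_iff.1 h2 k hk

theorem coeff_pow_self (ψ : PowerSeries R) (h0 : PowerSeries.constantCoeff ψ = 0) (k : ℕ) :
    PowerSeries.coeff k (ψ ^ k) = (PowerSeries.coeff 1 ψ) ^ k := by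
  obtain ⟨φ, rfl⟩ : (PowerSeries.X : PowerSeries R) ∣ ψ := PowerSeries.X_dvd_iff.2 h0
  rw [mul_pow]
  have h1 : PowerSeries.coeff k ((PowerSeries.X : PowerSeries R) ^ k * φ ^ k)
      = PowerSeries.coeff 0 (φ ^ k) := by
    have := PowerSeries.coeff_X_pow_mul (φ ^ k) k 0
    simpa using this
  rw [h1]
  have h2 : PowerSeries.coeff 1 ((PowerSeries.X : PowerSeries R) * φ) = PowerSeries.coeff 0 φ := by
    have := PowerSeries.coeff_succ_X_mul 0 φ
    simpa using this
  rw [h2, PowerSeries.coeff_zero_eq_constantCoeff_apply, map_pow,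
    PowerSeries.coeff_zero_eq_constantCoeff_apply]

theorem coeff_scomp_eq_sum (ρ ψ : PowerSeries R) (h0 : PowerSeries.constantCoeff ψ = 0) (k : ℕ) :
    PowerSeries.coeff k (scomp ρ ψ) =
      ∑ j ∈ Finset.range (k + 1), PowerSeries.coeff j ρ * PowerSeries.coeff k (ψ ^ j) := by
  have hs : PowerSeries.HasSubst ψ := PowerSeries.HasSubst.of_constantCoeff_zero' h0
  rw [PowerSeries.coeff_subst' hs, finsum_eq_sum_of_support_subset (s := Finset.range (k + 1))]
  · simp
  · intro j hj
    simp only [Function.mem_support] at hj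
    by_contra hcon
    have hj' : k < j := by
      simp only [Finset.coe_range, Set.mem_Iio] at hcon
      omega
    exact hj (by rw [coeff_pow_of_lt ψ h0 hj', smul_zero])

/-- Frobenius identity: `f ^ (p ^ e) = f^{(p^e)}(X ^ (p ^ e))`. -/
theorem pow_eq_scomp_frob (p : ℕ) [Fact p.Prime] [CharP R p] (e : ℕ) (f : PowerSeries R) :
    f ^ (p ^ e) =
      scomp (PowerSeries.mk fun j => PowerSeries.coeff j f ^ (p ^ e)) (PowerSeries.X ^ (p ^ e)) := by
  have hp : p ≠ 0 := (Fact.out : p.Prime).ne_zero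
  haveI : ExpChar R p := ExpChar.prime Fact.out
  have h1 := MvPowerSeries.map_iterateFrobenius_expand (σ := Unit) (R := R) p hp f e
  have hP : p ^ e ≠ 0 := pow_ne_zero _ hp
  rw [← h1]
  ext k
  rw [PowerSeries.coeff_subst_X_pow hP]
  have h2 : PowerSeries.coeff k (MvPowerSeries.map (iterateFrobenius R p e)
      (MvPowerSeries.expand (p ^ e) (pow_ne_zero e hp) f) : PowerSeries R)
      = iterateFrobenius R p e (PowerSeries.coeff k
        (PowerSeries.expand (p ^ e) hP f)) := rfl
  rw [h2, PowerSeries.coeff_expand]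
  split_ifs with hd
  · simp [iterateFrobenius_def]
  · simp

end Coeff

/-! ### Reflecting laws and homomorphisms along injective ring homomorphisms -/

section Reflect

variable {K L : Type*} [CommRing K] [CommRing L] (i : K →+* L)

theorem map_mv_injective {σ : Type*} (hi : Function.Injective i) :
    Function.Injective (MvPowerSeries.map (σ := σ) i) := by
  intro f g hfg
  ext d
  apply hi
  have := congrArg (MvPowerSeries.coeff d) hfg
  simpa using this

/-- Descent of a formal group law along an injective ring homomorphism. -/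
theorem exists_descend (hi : Function.Injective i) (G : FormalGroup L)
    (f : MvPowerSeries (Fin 2) K) (hf : MvPowerSeries.map i f = G.toPowerSeries) :
    ∃ G' : FormalGroup K, G'.toPowerSeries = f ∧ G'.map i = G := by
  have hc0 : MvPowerSeries.constantCoeff f = 0 := by
    apply hi
    rw [map_zero, ← MvPowerSeries.coeff_zero_eq_constantCoeff_apply,
      ← MvPowerSeries.coeff_map, hf, MvPowerSeries.coeff_zero_eq_constantCoeff_apply,
      G.zero_constantCoeff]
  have hX : MvPowerSeries.coeff (Finsupp.single 0 1) f = 1 := by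
    apply hi
    rw [map_one, ← MvPowerSeries.coeff_map, hf, G.lin_coeff_X]
  have hY : MvPowerSeries.coeff (Finsupp.single 1 1) f = 1 := by
    apply hi
    rw [map_one, ← MvPowerSeries.coeff_map, hf, G.lin_coeff_Y]
  have hassoc : f.subst ![f.subst ![(MvPowerSeries.X 0 : MvPowerSeries (Fin 3) K),
        MvPowerSeries.X 1], MvPowerSeries.X 2]
      = f.subst ![MvPowerSeries.X 0, f.subst ![(MvPowerSeries.X 1 : MvPowerSeries (Fin 3) K),
        MvPowerSeries.X 2]] := by
    apply map_mv_injective i hi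
    have this (g₁ g₂ : MvPowerSeries (Fin 3) K) : ![g₁.map i, g₂.map i] =
        fun j => (![g₁, g₂] j).map i := by
      ext1 j
      fin_cases j <;> simp
    have hG := G.assoc
    rw [← hf] at hG
    simp_rw [(MvPowerSeries.map_X i _).symm, this, ← MvPowerSeries.map_subst MvPowerSeries.HasSubst.X_X,
      this, ← MvPowerSeries.map_subst
        (MvPowerSeries.HasSubst.cons_subst_zero_left (0 : Fin 3) 1 2 hc0),
      ← MvPowerSeries.map_subst
        (MvPowerSeries.HasSubst.cons_subst_zero_right (0 : Fin 3) 1 2 hc0)] at hG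
    exact hG
  refine ⟨⟨f, hc0, hX, hY, hassoc⟩, rfl, ?_⟩
  ext1
  exact hf

/-- A commutative law descends to a commutative law. -/
theorem isComm_of_map (hi : Function.Injective i) (G' : FormalGroup K) [(G'.map i).IsComm] :
    G'.IsComm := by
  constructor
  apply map_mv_injective i hi
  have hcomm := FormalGroup.IsComm.comm (F := G'.map i)
  have this (g₁ g₂ : MvPowerSeries (Fin 2) K) : ![g₁.map i, g₂.map i] =
      fun j => (![g₁, g₂] j).map i := by
    ext1 j
    fin_cases j <;> simp
  have h2 : (G'.map i).toPowerSeries = MvPowerSeries.map i G'.toPowerSeries := rfl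
  rw [congrArg (fun F => F.toPowerSeries) (rfl : G'.map i = G'.map i), h2] at hcomm
  simp_rw [(MvPowerSeries.map_X i _).symm, this,
    ← MvPowerSeries.map_subst MvPowerSeries.HasSubst.X_X] at hcomm
  exact hcomm

/-- A homomorphism of laws is detected after an injective ring homomorphism. -/
theorem isFGHom_of_map (hi : Function.Injective i) {F G : FormalGroup K} {θ : PowerSeries K}
    (h : IsFGHom (F.map i) (G.map i) (PowerSeries.map i θ)) : IsFGHom F G θ := by
  obtain ⟨h0, h1⟩ := h
  have hc0 : PowerSeries.constantCoeff θ = 0 := by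
    apply hi
    rw [map_zero, ← h0, ← PowerSeries.coeff_zero_eq_constantCoeff_apply,
      ← PowerSeries.coeff_zero_eq_constantCoeff_apply, PowerSeries.coeff_map]
  refine ⟨hc0, ?_⟩
  apply map_mv_injective i hi
  have hF : PowerSeries.HasSubst F.toPowerSeries :=
    PowerSeries.HasSubst.of_constantCoeff_zero F.zero_constantCoeff
  have hX0 : PowerSeries.HasSubst (MvPowerSeries.X 0 : MvPowerSeries (Fin 2) K) :=
    PowerSeries.HasSubst.X 0
  have hX1 : PowerSeries.HasSubst (MvPowerSeries.X 1 : MvPowerSeries (Fin 2) K) :=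
    PowerSeries.HasSubst.X 1
  have e1 := PowerSeries.map_subst (h := i) hF θ
  have e2 := PowerSeries.map_subst (h := i) hX0 θ
  have e3 := PowerSeries.map_subst (h := i) hX1 θ
  have hS : MvPowerSeries.HasSubst ![PowerSeries.subst (MvPowerSeries.X 0 : MvPowerSeries (Fin 2) K) θ,
      PowerSeries.subst (MvPowerSeries.X 1 : MvPowerSeries (Fin 2) K) θ] := by
    refine MvPowerSeries.hasSubst_of_constantCoeff_zero ?_
    intro s
    fin_cases s
    · simpa using PowerSeries.constantCoeff_subst_eq_zero (by simp) θ hc0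
    · simpa using PowerSeries.constantCoeff_subst_eq_zero (by simp) θ hc0
  have e4 := MvPowerSeries.map_subst (h := i) hS (f := G.toPowerSeries)
  rw [e4, e1]
  have hv : (fun j => MvPowerSeries.map i (![PowerSeries.subst (MvPowerSeries.X 0 : MvPowerSeries (Fin 2) K) θ,
      PowerSeries.subst (MvPowerSeries.X 1 : MvPowerSeries (Fin 2) K) θ] j)) =
      ![PowerSeries.subst (MvPowerSeries.X 0 : MvPowerSeries (Fin 2) L) (PowerSeries.map i θ),
        PowerSeries.subst (MvPowerSeries.X 1 : MvPowerSeries (Fin 2) L) (PowerSeries.map i θ)] := by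
    ext1 j
    fin_cases j
    · simpa using e2
    · simpa using e3
  rw [hv]
  exact h1

end Reflect

end RhoAux

variable (p : ℕ) [Fact p.Prime] (h n : ℕ)
variable {C : Type} [NontriviallyNormedField C] [IsUltrametricDist C] [CompleteSpace C]
  [CharP C p] [IsAlgClosed C]

namespace RhoAux

omit [CompleteSpace C] in
/-- Roots of `x^P = c x + d` in `𝒪_C`. -/
theorem exists_root_integral {C : Type} [NontriviallyNormedField C] [IsUltrametricDist C]
    [IsAlgClosed C] (P : ℕ) (hP : 2 ≤ P) (c d : OC C) :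
    ∃ x : OC C, x ^ P = c * x + d := by
  have hq : (Polynomial.C ((c : C)) * Polynomial.X + Polynomial.C (d : C) :
      Polynomial C).degree < P := by
    refine lt_of_le_of_lt (Polynomial.degree_linear_le) ?_
    exact_mod_cast (by omega : 1 < P)
  have hdeg : ((Polynomial.X : Polynomial C) ^ P
      + (-(Polynomial.C ((c : C)) * Polynomial.X + Polynomial.C (d : C)))).degree = (P : WithBot ℕ) := by
    rw [Polynomial.degree_add_eq_left_of_degree_lt, Polynomial.degree_X_pow]
    rw [Polynomial.degree_X_pow, Polynomial.degree_neg]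
    exact hq
  obtain ⟨x, hx⟩ := IsAlgClosed.exists_root
    ((Polynomial.X : Polynomial C) ^ P + (-(Polynomial.C ((c : C)) * Polynomial.X + Polynomial.C (d : C))))
    (by rw [hdeg]; exact_mod_cast (by omega : P ≠ 0))
  simp only [Polynomial.IsRoot.def, Polynomial.eval_add, Polynomial.eval_pow, Polynomial.eval_X,
    Polynomial.eval_neg, Polynomial.eval_mul, Polynomial.eval_C] at hx
  have hxeq : x ^ P = c * x + d := by linear_combination hx
  have hcn : ‖(c : C)‖ ≤ 1 := c.2
  have hdn : ‖(d : C)‖ ≤ 1 := d.2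
  have hxn : ‖x‖ ≤ 1 := by
    by_contra hcon
    push Not at hcon
    have h1 : ‖x‖ ^ P = ‖(c : C) * x + d‖ := by rw [← norm_pow, hxeq]
    have h2 : ‖(c : C) * x + d‖ ≤ ‖x‖ := by
      refine (IsUltrametricDist.norm_add_le_max _ _).trans (max_le ?_ ?_)
      · rw [norm_mul]
        calc ‖(c : C)‖ * ‖x‖ ≤ 1 * ‖x‖ := by gcongr
          _ = ‖x‖ := one_mul _
      · exact hdn.trans hcon.le
    have h3 : ‖x‖ ^ 2 ≤ ‖x‖ ^ P := pow_le_pow_right₀ hcon.le hP
    nlinarith
  refine ⟨⟨x, hxn⟩, ?_⟩
  apply Subtype.ext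
  simpa using hxeq

end RhoAux

omit [CharP C p] [CompleteSpace C] in
/-- Solving `ρ ∘ ψ = ρ^(P)` (`ψ` any series with `ψ_1 ≠ 0`, over `𝒪_C`) for a series `ρ` over `𝒪_C`. Coefficient of `Y^k`:
`ρ_k ψ_1^k + (lower) = ρ_k^P`: `ρ_1` a root of `x^(P-1) = ψ_1`, and for `k ≥ 2`, `ρ_k` a root of the monic polynomial
`x^P - ψ_1^k x - R_k`, `R_k` integral, so `ρ_k` is integral. -/
theorem exists_root_series (P : ℕ) (hP : 2 ≤ P) (ψ : PowerSeries (OC C))
    (h0 : PowerSeries.constantCoeff ψ = 0) (h1 : PowerSeries.coeff 1 ψ ≠ 0) :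
    ∃ ρ : PowerSeries (OC C), PowerSeries.constantCoeff ρ = 0 ∧ PowerSeries.coeff 1 ρ ≠ 0 ∧
      scomp ρ ψ = PowerSeries.mk (fun j => PowerSeries.coeff j ρ ^ P) := by
  set ψ₁ := PowerSeries.coeff 1 ψ with hψ₁
  let Q : ℕ → (ℕ → OC C) → OC C → Prop := fun k a x =>
    (k = 0 → x = 0) ∧ (k = 1 → x ≠ 0 ∧ x ^ (P - 1) = ψ₁) ∧
      (2 ≤ k → x ^ P = ψ₁ ^ k * x +
        ∑ j ∈ Finset.range k, a j * PowerSeries.coeff k (ψ ^ j))
  have hstep : ∀ k a, ∃ x, Q k a x := by
    intro k a
    rcases Nat.lt_or_ge k 2 with hk | hk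
    · interval_cases k
      · exact ⟨0, fun _ => rfl, fun h => absurd h (by norm_num), fun h => absurd h (by norm_num)⟩
      · obtain ⟨x, hx⟩ := IsAlgClosed.exists_pow_nat_eq ((ψ₁ : OC C) : C) (n := P - 1) (by omega)
        have hxn : ‖x‖ ≤ 1 := by
          by_contra hcon
          push Not at hcon
          have h2 : ‖x‖ ^ (P - 1) = ‖((ψ₁ : OC C) : C)‖ := by rw [← norm_pow, hx]
          have h3 : ‖((ψ₁ : OC C) : C)‖ ≤ 1 := ψ₁.2
          have h4 : 1 < ‖x‖ ^ (P - 1) := one_lt_pow₀ hcon (by omega)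
          linarith
        refine ⟨⟨x, hxn⟩, fun h => absurd h (by norm_num), fun _ => ⟨?_, ?_⟩,
          fun h => absurd h (by norm_num)⟩
        · intro hx0
          have hx0' : x = 0 := congrArg Subtype.val hx0
          apply h1
          apply Subtype.ext
          rw [hx0', zero_pow (by omega)] at hx
          simpa using hx.symm
        · apply Subtype.ext
          simpa using hx
    · obtain ⟨x, hx⟩ := RhoAux.exists_root_integral P hP (ψ₁ ^ k)
        (∑ j ∈ Finset.range k, a j * PowerSeries.coeff k (ψ ^ j))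
      exact ⟨x, fun h => by omega, fun h => by omega, fun _ => hx⟩
  have hdep : ∀ k a b x, (∀ j, j < k → a j = b j) → Q k a x → Q k b x := by
    rintro k a b x hab ⟨h1', h2', h3'⟩
    refine ⟨h1', h2', fun hk => ?_⟩
    rw [h3' hk]
    congr 1
    refine Finset.sum_congr rfl fun j hj => ?_
    rw [hab j (Finset.mem_range.1 hj)]
  haveI : Inhabited (OC C) := ⟨0⟩
  obtain ⟨s, hs⟩ := RhoAux.exists_seq Q hstep hdep
  refine ⟨PowerSeries.mk s, ?_, ?_, ?_⟩
  · have := (hs 0).1 rfl
    simp [this]
  · have := ((hs 1).2.1 rfl).1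
    simpa using this
  · ext k
    rw [RhoAux.coeff_scomp_eq_sum _ _ h0, PowerSeries.coeff_mk, PowerSeries.coeff_mk,
      Finset.sum_range_succ, PowerSeries.coeff_mk, RhoAux.coeff_pow_self ψ h0 k]
    have hrange : ∑ j ∈ Finset.range k, PowerSeries.coeff j (PowerSeries.mk s) *
        PowerSeries.coeff k (ψ ^ j) = ∑ j ∈ Finset.range k, s j * PowerSeries.coeff k (ψ ^ j) := by
      refine Finset.sum_congr rfl fun j _ => ?_
      rw [PowerSeries.coeff_mk]
    rw [hrange]
    rcases Nat.lt_or_ge k 2 with hk | hk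
    · interval_cases k
      · have := (hs 0).1 rfl
        simp [this, zero_pow (by omega : P ≠ 0)]
      · have h2 := ((hs 1).2.1 rfl).2
        have h3 := (hs 0).1 rfl
        simp only [Finset.sum_range_one, h3, zero_mul, zero_add, pow_one]
        have h4 : s 1 ^ P = s 1 * s 1 ^ (P - 1) := by
          rw [← pow_succ']
          congr 1
          omega
        rw [h4, h2]
    · rw [(hs k).2.2 hk, ← hψ₁, mul_comm (s k), add_comm]

omit [CompleteSpace C] [IsAlgClosed C] in
/-- A law `G` over `C` with `[p]_G = X^P` has coefficients in `𝔽_P = {x^P = x}`: `[p]_G` is an endomorphism, so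
`G(X,Y)^P = G(X^P,Y^P)`, i.e. `G^(P)(X^P,Y^P) = G(X^P,Y^P)`. -/
theorem coeff_rational_of_pSeries (P : ℕ) (hP : ∃ e, 1 ≤ e ∧ P = p ^ e) (G : FormalGroup C) [G.IsComm]
    (hG : mulSeries G p = PowerSeries.X ^ P) (d : Fin 2 →₀ ℕ) :
    (MvPowerSeries.coeff d G.toPowerSeries) ^ P = MvPowerSeries.coeff d G.toPowerSeries := by
  obtain ⟨e, he, rfl⟩ := hP
  have hp : p ≠ 0 := (Fact.out : p.Prime).ne_zero
  have hPne : p ^ e ≠ 0 := pow_ne_zero _ hp
  haveI : ExpChar C p := ExpChar.prime Fact.out
  obtain ⟨-, hhom⟩ := isFGHom_mulSeries G p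
  rw [hG] at hhom
  have hF : PowerSeries.HasSubst G.toPowerSeries :=
    PowerSeries.HasSubst.of_constantCoeff_zero G.zero_constantCoeff
  have hX : ∀ s : Fin 2, PowerSeries.subst (MvPowerSeries.X s : MvPowerSeries (Fin 2) C)
      ((PowerSeries.X : PowerSeries C) ^ (p ^ e)) = MvPowerSeries.X s ^ (p ^ e) := by
    intro s
    rw [PowerSeries.subst_pow (PowerSeries.HasSubst.X s), PowerSeries.subst_X (PowerSeries.HasSubst.X s)]
  have hL : PowerSeries.subst G.toPowerSeries ((PowerSeries.X : PowerSeries C) ^ (p ^ e))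
      = G.toPowerSeries ^ (p ^ e) := by
    rw [PowerSeries.subst_pow hF, PowerSeries.subst_X hF]
  have hv : (![PowerSeries.subst (MvPowerSeries.X 0 : MvPowerSeries (Fin 2) C)
        ((PowerSeries.X : PowerSeries C) ^ (p ^ e)),
      PowerSeries.subst (MvPowerSeries.X 1 : MvPowerSeries (Fin 2) C)
        ((PowerSeries.X : PowerSeries C) ^ (p ^ e))]) = fun s => MvPowerSeries.X s ^ (p ^ e) := by
    ext1 s
    fin_cases s
    · exact hX 0
    · exact hX 1
  rw [hL, hv] at hhom
  have hexp : G.toPowerSeries.subst (fun s : Fin 2 => (MvPowerSeries.X s : MvPowerSeries (Fin 2) C) ^ (p ^ e))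
      = MvPowerSeries.expand (p ^ e) hPne G.toPowerSeries := by
    rw [MvPowerSeries.expand, MvPowerSeries.substAlgHom_apply]
  rw [hexp, ← MvPowerSeries.map_iterateFrobenius_expand p hp G.toPowerSeries e] at hhom
  have h2 := congrArg (MvPowerSeries.coeff ((p ^ e) • d)) hhom
  rw [MvPowerSeries.coeff_map, MvPowerSeries.coeff_expand_smul, iterateFrobenius_def] at h2
  exact h2


namespace RhoAux

variable {h}

/-- The subfield `{x : x^(p^h) = x}` of `C`. -/
abbrev ratField (p h : ℕ) [Fact p.Prime] (C : Type) [NontriviallyNormedField C] [CharP C p] :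
    Subfield C :=
  (iterateFrobenius C p h).eqLocusField (RingHom.id C)

theorem mem_ratField {x : C} : x ∈ ratField p h C ↔ x ^ (p ^ h) = x := by
  rw [RingHom.mem_eqLocusField, iterateFrobenius_def]
  rfl

theorem norm_le_one_of_pow (P : ℕ) (hP : 2 ≤ P) {x : C} (hx : x ^ P = x) : ‖x‖ ≤ 1 := by
  by_contra hcon
  push Not at hcon
  have h1 : ‖x‖ ^ P = ‖x‖ := by rw [← norm_pow, hx]
  have h3 : ‖x‖ ^ 2 ≤ ‖x‖ ^ P := pow_le_pow_right₀ hcon.le hP
  nlinarith

end RhoAux

/-- **`ρ`.** Take `ρ₀` from `exists_root_series` for `ψ`. `G = ρ₀ H ρ₀⁻¹` over `C` has `[p]_G = ρ₀ [p]_H ρ₀⁻¹ = ρ₀ ψ (X^P) ρ₀⁻¹ = ρ₀^(P)(X^P) ρ₀⁻¹ = X^P`.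
So `G` is defined over the subfield `K = {x^P = x}` of `C`; `lazard_unique` over `K` gives `ι : G → H₀` over `K`, and `ρ = ι ∘ ρ₀`
has coefficients in `𝒪_C`, is a hom. `H → H₀` over `𝒪_C` (`𝒪_C → C` is injective). -/
theorem exists_rho (hh : 1 ≤ h) (hn : h < n) (τ : Fin (n - h) → OC C)
    (hτ0 : τ ⟨0, by omega⟩ ≠ 0) :
    ∃ ρ : PowerSeries (OC C), IsFGHom (HS p h n τ) (H0C p h C) ρ ∧ PowerSeries.coeff 1 ρ ≠ 0 := by
  have hp2 : 2 ≤ p := (Fact.out : p.Prime).two_le
  set P := p ^ h with hPdef
  have hP2 : 2 ≤ P := by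
    calc 2 ≤ p := hp2
      _ = p ^ 1 := (pow_one p).symm
      _ ≤ p ^ h := Nat.pow_le_pow_right (by omega) hh
  have hP0 : P ≠ 0 := by omega
  haveI hcharO : CharP (OC C) p := charP_OC p
  -- `ρ₀`
  set ψ := psiS p h n τ with hψ
  have hψ0 : PowerSeries.constantCoeff ψ = 0 := constantCoeff_psiS p h n τ
  have hψ1 : PowerSeries.coeff 1 ψ ≠ 0 := by
    rw [hψ, coeff_one_psiS p h n hh hn τ]
    exact hτ0
  obtain ⟨ρ₀, hρ0, hρ1, hρeq⟩ := exists_root_series P hP2 ψ hψ0 hψ1
  -- over `C`
  let sub : OC C →+* C := (OC C).subtype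
  have hsub : Function.Injective sub := Subtype.val_injective
  let HC : FormalGroup C := (HS p h n τ).map sub
  let ρC : PowerSeries C := PowerSeries.map sub ρ₀
  let ψC : PowerSeries C := PowerSeries.map sub ψ
  have hconst_map : ∀ f : PowerSeries (OC C), PowerSeries.constantCoeff f = 0 →
      PowerSeries.constantCoeff (PowerSeries.map sub f) = 0 := by
    intro f hf
    rw [← PowerSeries.coeff_zero_eq_constantCoeff_apply, PowerSeries.coeff_map,
      PowerSeries.coeff_zero_eq_constantCoeff_apply, hf, map_zero]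
  have hρC0 : PowerSeries.constantCoeff ρC = 0 := hconst_map _ hρ0
  have hψC0 : PowerSeries.constantCoeff ψC = 0 := hconst_map _ hψ0
  have hρC1 : IsUnit (PowerSeries.coeff 1 ρC) := by
    rw [PowerSeries.coeff_map]
    refine IsUnit.mk0 _ ?_
    intro h0
    exact hρ1 (hsub (by rw [h0, map_zero]))
  let t : PowerSeries C := compInv ρC
  have ht0 : PowerSeries.constantCoeff t = 0 := constantCoeff_compInv ρC hρC0 hρC1
  have ht1 : IsUnit (PowerSeries.coeff 1 t) := isUnit_coeff_one_compInv ρC hρC0 hρC1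
  have hρt : scomp ρC t = PowerSeries.X := scomp_compInv ρC hρC0 hρC1
  have htρ : scomp t ρC = PowerSeries.X := compInv_scomp ρC hρC0 hρC1
  let G : FormalGroup C := conjLaw HC t ht0 ht1
  have hGt : IsFGHom G HC t := conjLaw_hom HC t ht0 ht1
  -- `ρC` is a homomorphism `HC → G`: it is the inverse of `t`
  have hρCinv : compInv t = ρC := by
    have h1 : scomp (compInv t) t = PowerSeries.X := compInv_scomp t ht0 ht1
    have h2 := scomp_assoc (compInv t) t ρC ht0 hρC0
    rw [h1, htρ] at h2
    have h3 : scomp (PowerSeries.X : PowerSeries C) ρC = ρC :=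
      PowerSeries.subst_X (PowerSeries.HasSubst.of_constantCoeff_zero' hρC0)
    have h4 : scomp (compInv t) (PowerSeries.X : PowerSeries C) = compInv t :=
      PowerSeries.X_subst _
    rw [h3, h4] at h2
    exact h2.symm
  have hρCG : IsFGHom HC G ρC := by
    have := fgHom_inv hGt ht1
    rwa [hρCinv] at this
  -- `[p]_G = X^P`
  have hpH : mulSeries HC p = scomp ψC (PowerSeries.X ^ P) := by
    have h1 := pSeries_HS p h n hh hn.le τ
    have hXP : PowerSeries.constantCoeff ((PowerSeries.X : PowerSeries (OC C)) ^ P) = 0 := by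
      simp [hP0]
    calc mulSeries HC p = PowerSeries.map sub (mulSeries (HS p h n τ) p) := mulSeries_map _ _ _
      _ = PowerSeries.map sub (scomp ψ (PowerSeries.X ^ P)) := by rw [h1]
      _ = scomp ψC (PowerSeries.map sub (PowerSeries.X ^ P)) := map_scomp sub _ _ hXP
      _ = scomp ψC (PowerSeries.X ^ P) := by simp
  have hρψ : scomp ρC ψC = PowerSeries.mk (fun j => PowerSeries.coeff j ρC ^ P) := by
    calc scomp ρC ψC = PowerSeries.map sub (scomp ρ₀ ψ) := (map_scomp sub _ _ hψ0).symm
      _ = _ := by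
        rw [hρeq]
        ext j
        simp [PowerSeries.coeff_map, ρC]
  have hXP0 : PowerSeries.constantCoeff ((PowerSeries.X : PowerSeries C) ^ P) = 0 := by
    simp [hP0]
  have hpG : mulSeries G p = PowerSeries.X ^ P := by
    have hE0 : PowerSeries.constantCoeff (mulSeries G p) = 0 := constantCoeff_mulSeries G p
    have h1 : scomp t (mulSeries G p) = scomp (mulSeries HC p) t := fgHom_comp_mulSeries hGt p
    have hfrob : scomp (PowerSeries.mk fun j => PowerSeries.coeff j ρC ^ P)
        (PowerSeries.X ^ P) = ρC ^ P := (RhoAux.pow_eq_scomp_frob p h ρC).symm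
    have hXρ : scomp ((PowerSeries.X : PowerSeries C) ^ P) ρC = ρC ^ P := by
      have hs := PowerSeries.HasSubst.of_constantCoeff_zero' hρC0
      show PowerSeries.subst ρC ((PowerSeries.X : PowerSeries C) ^ P) = ρC ^ P
      rw [PowerSeries.subst_pow hs, PowerSeries.subst_X hs]
    calc mulSeries G p = scomp (PowerSeries.X : PowerSeries C) (mulSeries G p) :=
          (PowerSeries.subst_X (PowerSeries.HasSubst.of_constantCoeff_zero' hE0)).symm
      _ = scomp (scomp ρC t) (mulSeries G p) := by rw [hρt]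
      _ = scomp ρC (scomp t (mulSeries G p)) := scomp_assoc _ _ _ ht0 hE0
      _ = scomp ρC (scomp (scomp ψC (PowerSeries.X ^ P)) t) := by rw [h1, hpH]
      _ = scomp ρC (scomp ψC (scomp (PowerSeries.X ^ P) t)) := by
          rw [scomp_assoc ψC _ t hXP0 ht0]
      _ = scomp (scomp ρC ψC) (scomp (PowerSeries.X ^ P) t) :=
          (scomp_assoc _ _ _ hψC0 (constantCoeff_scomp _ _ hXP0 ht0)).symm
      _ = scomp (scomp (PowerSeries.mk fun j => PowerSeries.coeff j ρC ^ P)
            (PowerSeries.X ^ P)) t := by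
          rw [hρψ, scomp_assoc _ _ t hXP0 ht0]
      _ = scomp (ρC ^ P) t := by rw [hfrob]
      _ = scomp (scomp (PowerSeries.X ^ P) ρC) t := by rw [hXρ]
      _ = scomp (PowerSeries.X ^ P) (scomp ρC t) := scomp_assoc _ _ _ hρC0 ht0
      _ = PowerSeries.X ^ P := by rw [hρt]; exact PowerSeries.X_subst _
  -- descent to `K`
  have hrat : ∀ d, (MvPowerSeries.coeff d G.toPowerSeries) ^ P = MvPowerSeries.coeff d G.toPowerSeries :=
    coeff_rational_of_pSeries p P ⟨h, hh, rfl⟩ G hpG
  let K : Subfield C := RhoAux.ratField p h C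
  have hKmem : ∀ x : K, (x : C) ^ P = x := fun x => (RhoAux.mem_ratField p).1 x.2
  let i : K →+* C := K.subtype
  have hi : Function.Injective i := Subtype.val_injective
  haveI hcharK : CharP K p := RingHom.charP i hi p
  let f' : MvPowerSeries (Fin 2) K := fun d =>
    ⟨MvPowerSeries.coeff d G.toPowerSeries, (RhoAux.mem_ratField p).2 (hrat d)⟩
  have hf' : MvPowerSeries.map i f' = G.toPowerSeries := by
    ext d
    rw [MvPowerSeries.coeff_map]
    rfl
  obtain ⟨G', hG'1, hG'2⟩ := RhoAux.exists_descend i hi G f' hf'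
  haveI hG'map : (G'.map i).IsComm := by rw [hG'2]; infer_instance
  haveI hG'comm : G'.IsComm := RhoAux.isComm_of_map i hi G'
  have hpG' : mulSeries G' p = PowerSeries.X ^ P := by
    apply PowerSeries.map_injective i hi
    rw [← mulSeries_map, hG'2, hpG]
    simp
  -- Honda's law over `K`
  let H0K : FormalGroup K := hzv p (eParam h : ℕ → K)
  have hpH0K : mulSeries H0K p = PowerSeries.X ^ P := hzv_eParam_pSeries p h hh
  obtain ⟨ιK, hιK, hιK1⟩ := lazard_unique p h hh (fun x => Subtype.ext (hKmem x)) G' H0K hpG' hpH0K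
  -- integrality of `K`
  have hKle : ∀ x : K, (x : C) ∈ OC C := fun x => RhoAux.norm_le_one_of_pow P hP2 (hKmem x)
  let j : K →+* OC C := RingHom.codRestrict i (OC C) hKle
  have hj : ∀ x, sub (j x) = i x := fun x => rfl
  have hsubj : sub.comp j = i := rfl
  let ιO : PowerSeries (OC C) := PowerSeries.map j ιK
  have hιO0 : PowerSeries.constantCoeff ιO = 0 := by
    rw [← PowerSeries.coeff_zero_eq_constantCoeff_apply, PowerSeries.coeff_map,
      PowerSeries.coeff_zero_eq_constantCoeff_apply, hιK.1, map_zero]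
  have hmapι : PowerSeries.map sub ιO = PowerSeries.map i ιK := by
    ext d
    simp [ιO, PowerSeries.coeff_map, hj]
  refine ⟨scomp ιO ρ₀, ?_, ?_⟩
  · apply RhoAux.isFGHom_of_map sub hsub
    have h1 : IsFGHom (G'.map i) (H0K.map i) (PowerSeries.map i ιK) := fgHom_map hιK i
    rw [hG'2] at h1
    have h2 : H0K.map i = (H0C p h C).map sub := by
      have e1 : H0K.map i = hzv p (fun l => i (eParam h l : K)) := hzv_map p i _
      have e2 : (H0C p h C).map sub = hzv p (fun l => sub (eParam h l : OC C)) := hzv_map p sub _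
      rw [e1, e2]
      congr 1
      funext l
      unfold eParam
      split_ifs <;> simp
    rw [h2] at h1
    have h3 := fgHom_comp h1 hρCG
    rw [map_scomp sub _ _ hρ0, hmapι]
    exact h3
  · rw [coeff_one_scomp _ _ hιO0 hρ0]
    have h1 : PowerSeries.coeff 1 ιO = 1 := by
      rw [PowerSeries.coeff_map, hιK1, map_one]
    rw [h1, one_mul]
    exact hρ1

end

end Crest.Agent.LT
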