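/-
S0351 package CHARP/FAMILY: the contradiction from a deep family of points with a vanishing Taylor series.
Assembly of CHART, RHO, GERM, FS, CL. See BLUEPRINT.md §CP6.
-/
import Crest.Agent.LT.CharP.Chart
import Crest.Agent.LT.CharP.Rho
import Crest.Agent.LT.CharP.Deep
import Crest.Agent.LT.Witt.CL

set_option autoImplicit false
set_option linter.unusedSectionVars false
set_option linter.unusedVariables false

open Crest.LubinTate

namespace Crest.Agent.LT

noncomputable section

namespace FamilyAux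

variable {C : Type} [NontriviallyNormedField C] [IsUltrametricDist C] [CompleteSpace C]

theorem evMv_at_zero {σ : Type} [Fintype σ] (g : MvPowerSeries σ (OC C)) :
    evMv g (fun _ => (0 : C)) = ((MvPowerSeries.constantCoeff g : OC C) : C) := by
  classical
  unfold evMv
  rw [tsum_eq_single 0]
  · simp [cf]
  · intro d hd
    obtain ⟨i, hi⟩ := Finsupp.ne_iff.mp hd
    have : d.prod (fun i e => (0 : C) ^ e) = 0 :=
      Finset.prod_eq_zero (Finsupp.mem_support_iff.mpr hi) (zero_pow hi)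
    rw [this, mul_zero]

theorem ev1_C_mul_X_pow (c : OC C) (e : ℕ) (x : C) :
    ev1 (PowerSeries.C c * PowerSeries.X ^ e : PowerSeries (OC C)) x = (c : C) * x ^ e := by
  unfold ev1
  rw [tsum_eq_single e]
  · simp
  · intro k hk
    simp [hk]

theorem ev1_X_pow (e : ℕ) (x : C) :
    ev1 (PowerSeries.X ^ e : PowerSeries (OC C)) x = x ^ e := by
  have := ev1_C_mul_X_pow (1 : OC C) e x
  simpa using this

/-- Congruence for jets. -/
theorem jet_congr {ι : Type*} {m : ℕ} {𝓕 : Filter ι} {A : ι → Fin m → C} {u v : ι → C} {c : C}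
    {ℓ : Fin m → C} (hu : Jet 𝓕 A u c ℓ) (huv : ∀ᶠ δ in 𝓕, v δ = u δ) : Jet 𝓕 A v c ℓ := by
  intro N
  obtain ⟨Q, h1, h2, K, hK⟩ := hu N
  refine ⟨Q, h1, h2, K, ?_⟩
  filter_upwards [hK, huv] with δ h3 h4
  rw [h4]
  exact h3

end FamilyAux

open FamilyAux

variable (p : ℕ) [Fact p.Prime] (h n : ℕ)
variable {C : Type} [NontriviallyNormedField C] [IsUltrametricDist C] [CompleteSpace C]
  [CharP C p] [IsAlgClosed C]

local notation "k" => GaloisField p n

/-- The roots of `x^q = x` in `𝒪_C` are the image of `kk`. -/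
theorem exists_kk_preimage (hn : 1 ≤ n) (kk : k →+* OC C) (β : OC C) (hβ : (β : C) ^ (p ^ n) = β) :
    ∃ β' : k, kk β' = β := by
  classical
  have hp : 1 < p := (Fact.out : p.Prime).one_lt
  have hq : 1 < p ^ n := Nat.one_lt_pow (by omega) hp
  let g : k →+* C := (OC C).subtype.comp kk
  have hg : Function.Injective g := g.injective
  have hcard : Nat.card k = p ^ n := GaloisField.card p n (by omega)
  let _ : Fintype k := Fintype.ofFinite k
  have hcard' : Fintype.card k = p ^ n := by rw [← Nat.card_eq_fintype_card, hcard]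
  let P : Polynomial C := Polynomial.X ^ (p ^ n) - Polynomial.X
  have hP0 : P ≠ 0 := FiniteField.X_pow_card_sub_X_ne_zero C hq
  have hdeg : P.natDegree = p ^ n := FiniteField.X_pow_card_sub_X_natDegree_eq C hq
  have hroot : ∀ y : C, y ^ (p ^ n) = y → y ∈ P.roots.toFinset := by
    intro y hy
    simp only [Multiset.mem_toFinset, Polynomial.mem_roots hP0, Polynomial.IsRoot, P,
      Polynomial.eval_sub, Polynomial.eval_pow, Polynomial.eval_X]
    exact sub_eq_zero.mpr hy
  have hsub : (Finset.univ.image g) ⊆ P.roots.toFinset := by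
    intro y hy
    obtain ⟨z, -, rfl⟩ := Finset.mem_image.mp hy
    apply hroot
    rw [← map_pow, ← hcard', FiniteField.pow_card]
  have hle : P.roots.toFinset.card ≤ (Finset.univ.image g).card := by
    rw [Finset.card_image_of_injective _ hg, Finset.card_univ, hcard']
    calc P.roots.toFinset.card ≤ Multiset.card P.roots := Multiset.toFinset_card_le _
      _ ≤ P.natDegree := Polynomial.card_roots' P
      _ = p ^ n := hdeg
  have heq := Finset.eq_of_subset_of_card_le hsub hle
  have hmem : (β : C) ∈ Finset.univ.image g := by rw [heq]; exact hroot _ hβ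
  obtain ⟨z, -, hz⟩ := Finset.mem_image.mp hmem
  exact ⟨z, Subtype.ext hz⟩

theorem deepFilter_eventually (q : EndZ p n → Prop) (hq : ∀ᶠ δ in EndZ.deepFilter p n, q δ) :
    ∃ t : ℕ, ∀ δ, EndZ.Deep p n t δ → q δ := by
  have hdir : Directed (· ≥ ·) (fun t : ℕ => Filter.principal {δ | EndZ.Deep p n t δ}) := by
    apply directed_of_isDirected_le
    intro t t' htt'
    simp only [ge_iff_le, Filter.le_principal_iff, Filter.mem_principal]
    intro δ hδ i hi
    refine hδ i (lt_of_lt_of_le hi ?_)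
    have hp : 1 ≤ p ^ n := Nat.one_le_pow _ _ (Fact.out : p.Prime).pos
    exact Nat.pow_le_pow_right hp htt'
  have := (Filter.mem_iInf_of_directed hdir _).mp hq
  obtain ⟨t, ht⟩ := this
  exact ⟨t, fun δ hδ => Filter.mem_principal.mp ht hδ⟩

/-- **The family contradiction.** `F` a chart family over `EndZ` with the deep filter, with `θ_δ ∘ π'_δ = π ∘ g(δ)` for deep `δ`, and `f̃ ≠ 0` vanishing at `A_δ` for deep `δ`. Then `False`.

Proof. `x` from `exists_lattice_basis`, `c_i = π(x_i^(1/q))`, `L = (κ_e(c_i))` invertible by `det_kappa_ne_zero`. `ρ` from `exists_rho`. `a_i(δ) = ρ(π(δ x_i))`: additive in `δ`, range `𝔸` is a subgroup of `H₀(𝔪_C)^m`,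
`a(p^t δ) = Frob^t a(δ)`, `‖a_i(δ)‖ ≤ max(r, ‖x_i‖) < 1`. For deep `δ`: `θ_δ(π'_δ x_i) = π(g(δ) x_i) = π(x_i +_Γ δ x_i) = π(δ x_i)` so by `chart` and `Jet.evMv` (`G = ρ`), `a_i` has a jet with constant term `0` and linear part `ρ_1 L_i`.
`transfer_lemma` gives `d, Q, P_N`. `germ_to_relation` with `𝔸` (use: for `t` large `p^t δ` is deep enough that the eventual bound holds, uniformly in `δ`): `F` rational, nonzero, `F = 0` on `𝔸`. `lemma_FS`: `Θ_i` rational endomorphisms of `H₀`, not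
all `0`, with `∑^{H₀} Θ_i(a_i(δ)) = 0`. Put `ϱ_i = Θ_i ∘ ρ`; for `δ = EndZ.token β l`, `δ x = β x^(p^l)`: hypothesis of `CL_relation` (every `β ∈ 𝒪_C` with `β^q = β` is `kk β'`: count roots). So `Θ_i ∘ ρ ∘ π = 0` and `Θ_i = 0` by `theta_eq_zero_of_comp`: contradiction. -/
theorem family_contradiction (hh : 1 ≤ h) (hn : h < n) (τ : Fin (n - h) → OC C)
    (hτ : ∀ j, ‖((τ j : OC C) : C)‖ < 1) (hτ0 : τ ⟨0, by omega⟩ ≠ 0) (r : ℝ)
    (kk : k →+* OC C) (F : ChartFamily p h n (EndZ.deepFilter p n) τ r)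
    (hb : ∀ᶠ δ in EndZ.deepFilter p n, ∀ y : LawPt (GamC p n C),
      homPt (F.θ δ) (F.hθ δ) ((F.S' δ).pi y) = F.S.pi (y + EndZ.act p n kk δ y))
    (f : MvPowerSeries (Fin (n - h)) (OC C)) (hf : f ≠ 0)
    (hvan : ∀ᶠ δ in EndZ.deepFilter p n, evMv f (F.A δ) = 0) : False := by
  classical
  have hn1 : 1 ≤ n := by omega
  have : CharP (OC C) p := charP_OC p
  have := EndZ.deepFilter_neBot p n
  let S := F.S
  obtain ⟨x, hxker, hxind, horth⟩ := exists_lattice_basis p h n hh hn τ hτ hτ0 r S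
  have hc : ∀ i, p • S.tower (x i) 1 = 0 := fun i => by
    have := S.pSmul_tower (x i) 0
    rw [S.tower_zero (x i) (hxker i)] at this
    exact this
  have hdet := det_kappa_ne_zero p h n hh hn τ hτ hτ0 (fun i => S.tower (x i) 1) hc hxind
  obtain ⟨ρ, hρ, hρ1⟩ := exists_rho p h n hh hn τ hτ0
  -- the group homomorphism `a`
  let aC : EndZ p n → Fin (n - h) → LawPt (H0C p h C) := fun δ i =>
    homPt ρ hρ (S.pi (EndZ.act p n kk δ (x i)))
  have aC_add : ∀ δ δ', aC (δ + δ') = aC δ + aC δ' := by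
    intro δ δ'
    funext i
    simp only [aC, map_add, AddMonoidHom.add_apply, Pi.add_apply]
  let a : EndZ p n →+ (Fin (n - h) → LawPt (H0C p h C)) := AddMonoidHom.mk' aC aC_add
  have a_apply : ∀ δ i, a δ i = homPt ρ hρ (S.pi (EndZ.act p n kk δ (x i))) := fun _ _ => rfl
  -- uniform bound
  obtain ⟨r', hr'0, hr'1, hr'⟩ := exists_radius (fun i => (x i).val) (fun i => (x i).norm_lt)
  let R : ℝ := max r r'
  have hR1 : R < 1 := max_lt S.r1 hr'1
  have hbound : ∀ δ i, ‖(a δ i).val‖ ≤ R := by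
    intro δ i
    rw [a_apply, homPt_val]
    refine (norm_ev1_le_of_constantCoeff ρ hρ.1 _ (LawPt.norm_lt _)).trans ?_
    have h1 := S.norm_pi_sub_le (EndZ.act p n kk δ (x i))
    have h2 : ‖(EndZ.act p n kk δ (x i)).val‖ ≤ r' := by
      rw [EndZ.val_act]
      refine (norm_ev1_le_of_constantCoeff _ ?_ _ (x i).norm_lt).trans (hr' i)
      rw [← PowerSeries.coeff_zero_eq_constantCoeff_apply, PowerSeries.coeff_map,
        PowerSeries.coeff_zero_eq_constantCoeff_apply, δ.2.1.1, map_zero]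
    have e : (S.pi (EndZ.act p n kk δ (x i))).val =
        ((S.pi (EndZ.act p n kk δ (x i))).val - (EndZ.act p n kk δ (x i)).val) +
          (EndZ.act p n kk δ (x i)).val := by ring
    rw [e]
    refine (IsUltrametricDist.norm_add_le_max _ _).trans (max_le_max h1 h2)
  -- Frobenius
  have hfrobpt : ∀ u : LawPt (H0C p h C), (p • u).val = u.val ^ (p ^ h) := by
    intro u
    rw [LawPt.val_nsmul, hzv_eParam_pSeries p h hh, FamilyAux.ev1_X_pow]
  have hfrob1 : ∀ δ, frobVec (p ^ h) (fun i => (a δ i).val) = fun i => (a (p • δ) i).val := by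
    intro δ
    funext i
    rw [map_nsmul, Pi.smul_apply, hfrobpt]
    rfl
  have hfrobit : ∀ (t : ℕ) (δ : EndZ p n), (frobVec (p ^ h))^[t] (fun i => (a δ i).val) =
      fun i => (a ((p ^ t) • δ) i).val := by
    intro t
    induction t with
    | zero => intro δ; simp
    | succ t ih =>
      intro δ
      rw [Function.iterate_succ_apply, hfrob1, ih, pow_succ, mul_smul]
  -- jets
  have hA : Filter.Tendsto F.A (EndZ.deepFilter p n) (nhds 0) := F.hA
  have hρ1' : ((PowerSeries.coeff 1 ρ : OC C) : C) ≠ 0 := fun h0 => hρ1 (Subtype.ext h0)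
  have hjet : ∀ i, Jet (EndZ.deepFilter p n) F.A (fun δ => (a δ i).val) 0
      (fun e => ((PowerSeries.coeff 1 ρ : OC C) : C) * ev1 (dPS p h n τ e) (S.tower (x i) 1).val) := by
    intro i
    have h1 := ChartFamily.chart hh hn hτ0 hτ F (x i) (hxker i)
    have h2 := Jet.evMv (σ := Unit) hA (ρ : MvPowerSeries Unit (OC C))
      (fun _ δ => (homPt (F.θ δ) (F.hθ δ) ((F.S' δ).pi (x i))).val) (fun _ => 0)
      (fun _ e => ev1 (dPS p h n τ e) (S.tower (x i) 1).val) (by simp) (fun _ => h1)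
    have e0 : evMv (ρ : MvPowerSeries Unit (OC C)) (fun _ => (0 : C)) = 0 := by
      rw [FamilyAux.evMv_at_zero]
      have : MvPowerSeries.constantCoeff (ρ : MvPowerSeries Unit (OC C)) = 0 := hρ.1
      rw [this]; rfl
    have e1 : evMv (mvDeriv () (ρ : MvPowerSeries Unit (OC C))) (fun _ => (0 : C)) =
        ((PowerSeries.coeff 1 ρ : OC C) : C) := by
      rw [FamilyAux.evMv_at_zero]
      congr 1
      rw [← MvPowerSeries.coeff_zero_eq_constantCoeff_apply]
      change ((((0 : Unit →₀ ℕ) () + 1 : ℕ) : OC C)) * MvPowerSeries.coeff (0 + Finsupp.single () 1) ρ = _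
      simp [PowerSeries.coeff]
    rw [e0] at h2
    have h3 : (fun k' : Fin (n - h) => ∑ s : Unit, evMv (mvDeriv s (ρ : MvPowerSeries Unit (OC C)))
        (fun _ => (0 : C)) * ev1 (dPS p h n τ k') (S.tower (x i) 1).val) =
        fun e => ((PowerSeries.coeff 1 ρ : OC C) : C) * ev1 (dPS p h n τ e) (S.tower (x i) 1).val := by
      funext e'
      simp only [Fintype.univ_unit, Finset.sum_singleton]
      rw [e1]
    rw [h3] at h2
    refine jet_congr h2 ?_
    filter_upwards [hb] with δ hδ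
    rw [a_apply, homPt_val]
    rw [hδ (x i), map_add, hxker i, zero_add, ev1_eq_evMv]
  -- the matrix
  let L : Matrix (Fin (n - h)) (Fin (n - h)) C := Matrix.of fun i e =>
    ((PowerSeries.coeff 1 ρ : OC C) : C) * ev1 (dPS p h n τ e) (S.tower (x i) 1).val
  have hL : IsUnit L.det := by
    have : L = ((PowerSeries.coeff 1 ρ : OC C) : C) •
        Matrix.of (fun (i e : Fin (n - h)) => ev1 (dPS p h n τ e) (S.tower (x i) 1).val) := by
      ext i e; simp [L]
    rw [this, Matrix.det_smul, isUnit_iff_ne_zero]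
    exact mul_ne_zero (pow_ne_zero _ hρ1') hdet
  obtain ⟨d, Q, hQ, hN⟩ := transfer_lemma (EndZ.deepFilter p n)
    (fun δ i => (a δ i).val) F.A hA L hL (fun N i => hjet i N) f hf hvan
  -- germ_to_relation
  obtain ⟨Frat, hFne, hFrat, hFvan, -⟩ := germ_to_relation p h hh
    {v : Fin (n - h) → C | ∃ δ, v = fun i => (a δ i).val} R hR1
    (by rintro v ⟨δ, rfl⟩ i; exact hbound δ i)
    (by rintro v ⟨δ, rfl⟩; exact ⟨p • δ, hfrob1 δ⟩)
    d Q hQ
    (by
      intro N hdN
      obtain ⟨P, hP1, hP2, K, hK⟩ := hN N hdN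
      obtain ⟨t, ht⟩ := deepFilter_eventually p n _ hK
      refine ⟨P, hP1, hP2, K, t, ?_⟩
      rintro v ⟨δ, rfl⟩
      rw [hfrobit]
      exact ht _ (EndZ.deep_smul p n hn1 t δ))
  -- lemma FS
  obtain ⟨Θ, hΘrat, hom, ⟨i₀, hi₀⟩, hrel⟩ := lemma_FS p h hh (n - h) a.range R hR1
    (by rintro v ⟨δ, rfl⟩ i; exact hbound δ i) Frat hFne hFrat
    (by rintro v ⟨δ, rfl⟩; exact hFvan _ ⟨δ, rfl⟩)
  -- the relation
  let ϱ : Fin (n - h) → PowerSeries (OC C) := fun i => scomp (Θ i) ρ
  have hϱ : ∀ i, IsFGHom (HS p h n τ) (H0C p h C) (ϱ i) := fun i => fgHom_comp (hom i) hρ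
  have hcomp : ∀ i (u : LawPt (HS p h n τ)), homPt (ϱ i) (hϱ i) u = homPt (Θ i) (hom i) (homPt ρ hρ u) := by
    intro i u
    apply LawPt.ext'
    rw [homPt_val, homPt_val, homPt_val]
    exact ev1_subst _ _ hρ.1 _ u.norm_lt
  have hx0 : ∀ i, x i ≠ 0 := by
    intro i hi
    have h1 : S.tower (x i) 1 = 0 := by
      have h2 : LawPt.root p (n * 1) (x i) = 0 := by
        apply LawPt.ext'
        rw [hi]
        have h3 := pRoot_pow p (n * 1) ((0 : LawPt (GamC p n C)).val)
        have h4 : (0 : LawPt (GamC p n C)).val = 0 := rfl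
        rw [h4] at h3 ⊢
        exact pow_eq_zero_iff (pow_ne_zero _ (Fact.out : p.Prime).ne_zero) |>.mp h3
      unfold PiSetup.tower
      rw [h2, map_zero]
    have h5 := hxind (Pi.single i 1) (by
      rw [Finset.sum_eq_single i]
      · simp [h1]
      · intro j _ hj
        simp [Pi.single_eq_of_ne hj]
      · simp) i
    simp only [Pi.single_eq_same] at h5
    exact (Fact.out : p.Prime).one_lt.ne' (Nat.dvd_one.mp h5)
  have hCL := CL_relation p h n hh hn τ hτ r S x hx0 horth ϱ hϱ (by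
    intro β hβ l hl
    obtain ⟨β', rfl⟩ := exists_kk_preimage p n hn1 kk β hβ
    have hl1 : 1 ≤ l := Nat.one_le_iff_ne_zero.mpr hl
    have hrel1 := hrel (a (EndZ.token p n hn1 β' l hl1)) ⟨_, rfl⟩
    rw [← hrel1]
    apply Finset.sum_congr rfl
    intro i _
    rw [hcomp, a_apply]
    congr 3
    apply LawPt.ext'
    rw [EndZ.val_act, EndZ.val_token, map_mul, PowerSeries.map_C, map_pow,
      PowerSeries.map_X, ev1_C_mul_X_pow]
    rfl)
  apply hi₀
  exact theta_eq_zero_of_comp p h n τ r S ρ (Θ i₀) hρ hρ1 (hom i₀) (fun y => by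
    rw [← hcomp]; exact hCL i₀ y)

end

end Crest.Agent.LT
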