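/-
S0351 package CHARP/CORE: the characteristic-`p` core. See BLUEPRINT.md §CP7.
-/
import Crest.Agent.LT.CharP.Family
import Crest.Agent.LT.ValuedPoint

set_option autoImplicit false

open Crest.LubinTate

namespace Crest.Agent.LT

noncomputable section

variable (p : ℕ) [Fact p.Prime] (n : ℕ)

local notation "k" => GaloisField p n
local notation "E" => LTRing p n
local notation "W" => WittVector p (GaloisField p n)

/-- Evaluation on a stratum: `Z : E₀ → 𝒪_C` killing `J_h`, `Z(𝔪) ⊂ 𝔪_C`, with `Z|_{W(k)} = kk ∘ (constantCoeff)`: `Z f = (stratumHom f mapped by kk)(Z u_{h+j})_j`. -/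
theorem eval_stratum {C : Type} [NontriviallyNormedField C] [IsUltrametricDist C] [CompleteSpace C]
    (h : ℕ) (hh : 1 ≤ h) (hn : h < n) (kk : k →+* OC C) (Z : E →+* OC C)
    (hZ : ∀ x ∈ IsLocalRing.maximalIdeal E, ‖((Z x : OC C) : C)‖ < 1)
    (hJ : ∀ x ∈ JJ p n h, Z x = 0)
    (hW : ∀ a : WittVector p k, Z (MvPowerSeries.C a) = kk (WittVector.constantCoeff a)) (f : E) :
    ((Z f : OC C) : C) = evMv (MvPowerSeries.map kk (stratumHom p n h f))
      (fun j => ((Z (uu p n (h + j)) : OC C) : C)) := by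
  classical
  set a : Fin (n - h) → C := fun j => ((Z (uu p n (h + j)) : OC C) : C) with ha_def
  have ha : ∀ i, ‖a i‖ < 1 := fun i => hZ _ (uu_mem_maximal p n _)
  -- radius
  obtain ⟨r, hr0, hr1, hr⟩ := exists_radius a ha
  let Z₂ : E →+* OC C :=
    (evHom a ha).comp ((MvPowerSeries.map kk).comp (stratumHom p n h))
  have hZ₂v : ∀ x, ((Z₂ x : OC C) : C) = evMv (MvPowerSeries.map kk (stratumHom p n h x)) a :=
    fun x => rfl
  have hZ₂ : ∀ x ∈ IsLocalRing.maximalIdeal E, ‖((Z₂ x : OC C) : C)‖ < 1 := by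
    intro x hx
    rw [hZ₂v]
    refine lt_of_le_of_lt (norm_evMv_le_of_constantCoeff _ ?_ a r hr1 hr0 hr) hr1
    have h0 : LTRing.residue p n x = 0 := by
      rw [← RingHom.mem_ker, ker_residue]
      exact hx
    have h1 := coeff_stratumHom p n h hh x 0
    have h2 : Finsupp.embDomain (stratEmb n h hh) (0 : Fin (n - h) →₀ ℕ) = 0 := by simp
    rw [h2] at h1
    have h3 : MvPowerSeries.constantCoeff (MvPowerSeries.map kk (stratumHom p n h x)) = 0 := by
      have : MvPowerSeries.constantCoeff (stratumHom p n h x) = 0 := by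
        rw [← MvPowerSeries.coeff_zero_eq_constantCoeff_apply, h1]
        simpa [LTRing.residue] using h0
      simp [this]
    exact h3
  have hC : Z.comp MvPowerSeries.C = Z₂.comp MvPowerSeries.C := by
    refine RingHom.ext fun w => Subtype.ext ?_
    simp only [RingHom.comp_apply]
    rw [hW, hZ₂v, stratumHom_C, MvPowerSeries.map_C, evMv_C a ha]
  have hX : ∀ i : Fin (n - 1), ((Z (MvPowerSeries.X i) : OC C) : C) =
      ((Z₂ (MvPowerSeries.X i) : OC C) : C) := by
    intro i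
    rw [← uu_eq_X p n i, hZ₂v]
    by_cases hi : (i : ℕ) + 1 < h
    · obtain ⟨m, rfl⟩ : ∃ m, h = m + 1 := ⟨h - 1, by omega⟩
      rw [hJ _ (uu_mem_JJ p n m _ (by omega) (by omega)),
        stratumHom_uu_of_lt p n (m + 1) hh _ hi, map_zero, evMv_zero a ha]
      simp
    · have hi2 := i.2
      have hj : (i : ℕ) + 1 - h < n - h := by omega
      have e : (i : ℕ) + 1 = h + ((⟨(i : ℕ) + 1 - h, hj⟩ : Fin (n - h)) : ℕ) := by
        simp only; omega
      rw [e, stratumHom_uu p n h hh, MvPowerSeries.map_X, evMv_X a ha]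
  have e1 := eval_of_ringHom p n Z hZ f
  have e2 := eval_of_ringHom p n Z₂ hZ₂ f
  rw [e1, hC, show (fun i : Fin (n - 1) => ((Z (MvPowerSeries.X i) : OC C) : C)) =
    (fun i : Fin (n - 1) => ((Z₂ (MvPowerSeries.X i) : OC C) : C)) from funext hX, ← e2, hZ₂v]

/-- Laws at a stratum point: `(HH).map Z = H(Z u_{h+j})`. -/
theorem HH_map_stratum {C : Type} [NontriviallyNormedField C] [IsUltrametricDist C]
    (h : ℕ) (hh : 1 ≤ h) (hn : h < n) (Z : E →+* OC C) (hJ : ∀ x ∈ JJ p n h, Z x = 0) :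
    (HH p n).map Z = HS p h n (fun j : Fin (n - h) => Z (uu p n (h + j))) := by
  unfold HH
  rw [hzv_map]
  congr 1
  funext i
  simp only [vE, vStr]
  by_cases h1 : h ≤ i + 1 ∧ i + 1 < n
  · rw [dif_pos h1, if_neg (by omega)]
    congr 2
    omega
  · rw [dif_neg h1]
    by_cases h2 : i + 1 = n
    · rw [if_pos h2, if_pos h2, map_one]
    · rw [if_neg h2, if_neg h2]
      by_cases h3 : i + 1 < h
      · obtain ⟨m, rfl⟩ : ∃ m, h = m + 1 := ⟨h - 1, by omega⟩
        exact hJ _ (uu_mem_JJ p n m (i + 1) (by omega) (by omega))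
      · rw [uu_of_not p n (i + 1) (by omega), map_zero]

namespace CoreAux

/-- A valued point of the prime `P`. -/
theorem exists_point (h : ℕ) (P : Ideal E) (hP : P.IsPrime) (hu : uu p n h ∉ P) :
    ∃ (C : Type) (_ : NontriviallyNormedField C) (_ : IsUltrametricDist C) (_ : CompleteSpace C)
      (_ : IsAlgClosed C) (Z : E →+* OC C),
      (∀ x ∈ P, Z x = 0) ∧ Z (uu p n h) ≠ 0 ∧
        ∀ x ∈ IsLocalRing.maximalIdeal E, ‖((Z x : OC C) : C)‖ < 1 := by
  have : IsDomain (E ⧸ P) := Ideal.Quotient.isDomain P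
  have : IsLocalRing (E ⧸ P) :=
    IsLocalRing.of_surjective' (Ideal.Quotient.mk P) Ideal.Quotient.mk_surjective
  have hw0 : (Ideal.Quotient.mk P (uu p n h)) ≠ 0 := by
    rw [Ne, Ideal.Quotient.eq_zero_iff_mem]
    exact hu
  have hm : ∀ x ∈ IsLocalRing.maximalIdeal E, Ideal.Quotient.mk P x ∈ IsLocalRing.maximalIdeal (E ⧸ P) := by
    intro x hx
    rw [IsLocalRing.mem_maximalIdeal, mem_nonunits_iff]
    intro hunit
    obtain ⟨y, hy⟩ := hunit.exists_right_inv
    obtain ⟨y, rfl⟩ := Ideal.Quotient.mk_surjective y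
    have h1 : (1 - x * y) ∈ P := by
      rw [← Ideal.Quotient.eq_zero_iff_mem, map_sub, map_mul, hy, map_one, sub_self]
    have hPle : P ≤ IsLocalRing.maximalIdeal E := IsLocalRing.le_maximalIdeal hP.ne_top
    have h2 : (1 - x * y) ∈ IsLocalRing.maximalIdeal E := hPle h1
    have h3 : x * y ∈ IsLocalRing.maximalIdeal E := Ideal.mul_mem_right _ _ hx
    have h4 : (1 : E) ∈ IsLocalRing.maximalIdeal E := by
      have := Ideal.add_mem _ h2 h3
      simpa using this
    exact (Ideal.ne_top_iff_one _).mp (IsLocalRing.maximalIdeal.isMaximal E).ne_top h4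
  obtain ⟨C, i1, i2, i3, i4, z, hz0, hz⟩ := exists_valued_point (E ⧸ P) _ hw0
    (hm _ (uu_mem_maximal p n h))
  refine ⟨C, i1, i2, i3, i4, z.comp (Ideal.Quotient.mk P), ?_, hz0, ?_⟩
  · intro x hx
    simp only [RingHom.comp_apply]
    rw [Ideal.Quotient.eq_zero_iff_mem.mpr hx, map_zero]
  · intro x hx
    exact hz _ (hm x hx)

variable {p n}

/-- A uniform radius on the maximal ideal. -/
theorem exists_radius_maximal {C : Type} [NontriviallyNormedField C] [IsUltrametricDist C]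
    [CompleteSpace C] (hn : 1 ≤ n) (Z : E →+* OC C)
    (hZ : ∀ x ∈ IsLocalRing.maximalIdeal E, ‖((Z x : OC C) : C)‖ < 1) :
    ∃ r : ℝ, 0 ≤ r ∧ r < 1 ∧ ∀ x ∈ IsLocalRing.maximalIdeal E, ‖((Z x : OC C) : C)‖ ≤ r := by
  cases n with
  | zero => omega
  | succ m =>
  have hJ := JJ_n p (m + 1) hn
  set S : Set (LTRing p (m + 1)) := {(p : LTRing p (m + 1))} ∪ (uu p (m + 1) '' Set.Icc 1 m) with hS
  have hJS : JJ p (m + 1) (m + 1) = Ideal.span S := rfl
  have hfin : S.Finite :=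
    (Set.finite_singleton _).union ((Set.finite_Icc 1 m).image _)
  have : Finite S := hfin.to_subtype
  have hSm : ∀ s ∈ S, s ∈ IsLocalRing.maximalIdeal (LTRing p (m + 1)) := by
    intro s hs
    rw [← hJ, hJS]
    exact Ideal.subset_span hs
  obtain ⟨r, hr0, hr1, hr⟩ := exists_radius (σ := S) (fun s => ((Z s : OC C) : C))
    (fun s => hZ _ (hSm _ s.2))
  refine ⟨r, hr0, hr1, ?_⟩
  intro x hx
  rw [← hJ, hJS] at hx
  induction hx using Submodule.span_induction with
  | mem x hx => exact hr ⟨x, hx⟩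
  | zero => simpa using hr0
  | add x y _ _ hx hy =>
    rw [map_add, Subring.coe_add]
    exact (IsUltrametricDist.norm_add_le_max _ _).trans (max_le hx hy)
  | smul a x _ hx =>
    rw [smul_eq_mul, map_mul, Subring.coe_mul, norm_mul]
    calc ‖((Z a : OC C) : C)‖ * ‖((Z x : OC C) : C)‖ ≤ 1 * ‖((Z x : OC C) : C)‖ :=
          mul_le_mul_of_nonneg_right (Z a).2 (norm_nonneg _)
      _ ≤ r := by simpa using hx

/-- The residue field embeds, compatibly. -/
theorem exists_kk {C : Type} [NontriviallyNormedField C] [IsUltrametricDist C]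
    (Z : E →+* OC C) (hp : Z (p : E) = 0) :
    ∃ kk : k →+* OC C, ∀ a : W, Z (MvPowerSeries.C a) = kk (WittVector.constantCoeff a) := by
  have hsurj : Function.Surjective (WittVector.constantCoeff : W →+* k) :=
    WittVector.constantCoeff_surjective p
  have hker : RingHom.ker (WittVector.constantCoeff : W →+* k) ≤
      RingHom.ker (Z.comp (MvPowerSeries.C)) := by
    rw [WittVector.ker_constantCoeff, Ideal.span_le]
    intro x hx
    rw [Set.mem_singleton_iff] at hx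
    subst hx
    simp only [SetLike.mem_coe, RingHom.mem_ker, RingHom.comp_apply, map_natCast]
    have := hp
    rwa [map_natCast] at this
  refine ⟨RingHom.liftOfSurjective _ hsurj ⟨Z.comp MvPowerSeries.C, hker⟩, fun a => ?_⟩
  exact (RingHom.liftOfSurjective_comp_apply _ hsurj ⟨Z.comp MvPowerSeries.C, hker⟩ a).symm

theorem pow_q_eq (hn : 1 ≤ n) (x : k) : x ^ (p ^ n) = x := by
  have hc : Nat.card k = p ^ n := GaloisField.card p n (by omega)
  have : Fintype k := Fintype.ofFinite k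
  have := FiniteField.pow_card x
  rwa [← Nat.card_eq_fintype_card, hc] at this

/-- `Z a` and `kk (residue a)` are close. -/
theorem norm_sub_residue_le {C : Type} [NontriviallyNormedField C] [IsUltrametricDist C]
    (Z : E →+* OC C) (kk : k →+* OC C)
    (hW : ∀ a : W, Z (MvPowerSeries.C a) = kk (WittVector.constantCoeff a)) (r : ℝ)
    (hr : ∀ x ∈ IsLocalRing.maximalIdeal E, ‖((Z x : OC C) : C)‖ ≤ r) (a : E) :
    ‖((Z a : OC C) : C) - ((kk (LTRing.residue p n a) : OC C) : C)‖ ≤ r := by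
  have h1 : LTRing.residue p n a =
      WittVector.constantCoeff (MvPowerSeries.constantCoeff a) := rfl
  have h2 : a - MvPowerSeries.C (MvPowerSeries.constantCoeff a) ∈ IsLocalRing.maximalIdeal E := by
    rw [← ker_residue, RingHom.mem_ker, map_sub, h1]
    have : LTRing.residue p n (MvPowerSeries.C (MvPowerSeries.constantCoeff a)) =
        WittVector.constantCoeff (MvPowerSeries.constantCoeff a) := by
      simp [LTRing.residue]
    rw [this, sub_self]
  have h3 := hr _ h2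
  rw [map_sub, hW, AddSubgroupClass.coe_sub, ← h1] at h3
  exact h3


section Assembly

variable {C : Type} [NontriviallyNormedField C] [IsUltrametricDist C] [CompleteSpace C]
  [CharP C p] [IsAlgClosed C]

theorem deep_mono {t t' : ℕ} (htt : t' ≤ t) (δ : EndZ p n) (hδ : EndZ.Deep p n t δ) :
    EndZ.Deep p n t' δ := by
  intro i hi
  refine hδ i (lt_of_lt_of_le hi ?_)
  have hp : 1 ≤ p ^ n := Nat.one_le_pow _ _ (Fact.out : p.Prime).pos
  exact Nat.pow_le_pow_right hp htt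

theorem assemble (h : ℕ) (hh : 1 ≤ h) (hn : h < n) (P : Ideal E)
    (hJ : JJ p n h ≤ P) (M : ℕ) (hst : DeepStable p n M P)
    (Z : E →+* OC C) (hZP : ∀ x ∈ P, Z x = 0) (hZu : Z (uu p n h) ≠ 0)
    (r : ℝ) (hr0 : 0 ≤ r) (hr1 : r < 1)
    (hr : ∀ x ∈ IsLocalRing.maximalIdeal E, ‖((Z x : OC C) : C)‖ ≤ r)
    (kk : k →+* OC C) (hW : ∀ a : W, Z (MvPowerSeries.C a) = kk (WittVector.constantCoeff a))
    (f : E) (hfP : f ∈ P) (hfJ : f ∉ JJ p n h) : False := by
  classical
  have hn1 : 1 ≤ n := by omega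
  have hpp : p.Prime := Fact.out
  haveI : CharP (OC C) p := charP_OC p
  set τ : Fin (n - h) → OC C := fun j => Z (uu p n (h + j)) with hτdef
  have hτr : ∀ j, ‖((τ j : OC C) : C)‖ ≤ r := fun j => hr _ (uu_mem_maximal p n _)
  have hτ1 : ∀ j, ‖((τ j : OC C) : C)‖ < 1 := fun j => (hτr j).trans_lt hr1
  have hτ0 : τ ⟨0, by omega⟩ ≠ 0 := by
    simpa [τ] using hZu
  have hJZ : ∀ x ∈ JJ p n h, Z x = 0 := fun x hx => hZP x (hJ hx)
  have hHτ : (HH p n).map Z = HS p h n τ := HH_map_stratum p n h hh hn Z hJZ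
  have hq2 : 1 < p ^ n := Nat.one_lt_pow (by omega) hpp.one_lt
  have hqt : ∀ t : ℕ, t ≤ (p ^ n) ^ t := fun t => (Nat.lt_pow_self hq2).le
  have hφm : ∀ φ : E →ₐ[W] E, (LTRing.residue p n).comp φ.toRingHom = LTRing.residue p n →
      ∀ x ∈ IsLocalRing.maximalIdeal E, φ.toRingHom x ∈ IsLocalRing.maximalIdeal E := by
    intro φ h1 x hx
    rw [← ker_residue, RingHom.mem_ker] at hx ⊢
    exact (RingHom.congr_fun h1 x).trans hx
  have hφP : ∀ φ : E →ₐ[W] E, Ideal.comap φ.toRingHom P = P →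
      ∀ x ∈ P, φ.toRingHom x ∈ P := by
    intro φ h4 x hx
    rw [← h4] at hx
    exact hx
  -- the family
  have key : ∀ δ : EndZ p n, ∃ (τ' : Fin (n - h) → OC C) (θ' : PowerSeries (OC C)),
      IsFGHom (HS p h n τ') (HS p h n τ) θ' ∧ (∀ j, ‖((τ' j : OC C) : C)‖ ≤ r) ∧
      (EndZ.Deep p n M δ → ∃ (φ : E →ₐ[W] E) (θ : PowerSeries E),
        (LTRing.residue p n).comp φ.toRingHom = LTRing.residue p n ∧
        IsFGHom ((HH p n).map φ.toRingHom) (HH p n) θ ∧
        PowerSeries.map (LTRing.residue p n) θ = EndZ.aut p n δ ∧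
        Ideal.comap φ.toRingHom P = P ∧
        (∀ j, τ' j = Z (φ.toRingHom (uu p n (h + j)))) ∧ θ' = PowerSeries.map Z θ) := by
    intro δ
    by_cases hδ : EndZ.Deep p n M δ
    · obtain ⟨φ, θ, h1, h2, h3, h4⟩ := hst (EndZ.aut p n δ) (EndZ.aut_isFGAut p n hn1 δ)
        (EndZ.aut_congX p n hn1 M M (hqt M) δ hδ)
      have hZφ : ∀ x ∈ JJ p n h, (Z.comp φ.toRingHom) x = 0 :=
        fun x hx => hZP _ (hφP φ h4 x (hJ hx))
      have e := HH_map_stratum p n h hh hn (Z.comp φ.toRingHom) hZφ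
      refine ⟨fun j => Z (φ.toRingHom (uu p n (h + j))), PowerSeries.map Z θ, ?_, ?_,
        fun _ => ⟨φ, θ, h1, h2, h3, h4, fun _ => rfl, rfl⟩⟩
      · have := fgHom_map h2 Z
        rw [map_map_law, e, hHτ] at this
        exact this
      · intro j
        exact hr _ (hφm φ h1 _ (uu_mem_maximal p n _))
    · exact ⟨τ, PowerSeries.X, fgHom_id _, hτr, fun h => absurd h hδ⟩
  choose τ' θ' hθ' hτ'r hdeep using key
  -- `PiSetup`s
  have kk_pow : ∀ x : k, ((kk x : OC C) : C) ^ (p ^ n) = ((kk x : OC C) : C) := by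
    intro x
    rw [← SubmonoidClass.coe_pow, ← map_pow, pow_q_eq hn1]
  have hG : mulSeries (GamC p n C) p = PowerSeries.X ^ (p ^ n) := hzv_eParam_pSeries p n hn1
  have hq : ∀ d, cf (GamC p n C).toPowerSeries d ^ (p ^ n) = cf (GamC p n C).toPowerSeries d := by
    intro d
    rw [← Gam0_map p n kk]
    exact kk_pow _
  have mkS : ∀ τ₁ : Fin (n - h) → OC C, (∀ j, ‖((τ₁ j : OC C) : C)‖ ≤ r) →
      PiSetup p n (GamC p n C) (HS p h n τ₁) r := fun τ₁ hτ₁ =>
    ⟨hG, hq, HS_close p h n hn.le τ₁ r hr0 hτ₁, hr0, hr1⟩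
  -- continuity
  have hF : PowerSeries.map (LTRing.residue p n) (mulSeries (HH p n) p) =
      PowerSeries.X ^ (p ^ n) := by
    rw [← mulSeries_map, HH_residue p n hn1, Gam0_pSeries p n hn1]
  have hI : htIdeal p (HH p n) n = IsLocalRing.maximalIdeal E := by
    rw [htIdeal_HH p n hn1 n le_rfl, JJ_n p n hn1]
  have hcoeffX : ∀ j : ℕ, Z (PowerSeries.coeff j (PowerSeries.X : PowerSeries E)) =
      PowerSeries.coeff j (PowerSeries.X : PowerSeries (OC C)) := by
    intro j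
    rw [PowerSeries.coeff_X, PowerSeries.coeff_X]
    split_ifs <;> simp
  have hcont : ∀ N K : ℕ, ∃ t : ℕ, ∀ δ, EndZ.Deep p n t δ →
      (∀ j, ‖((τ' δ j : OC C) : C) - ((τ j : OC C) : C)‖ ≤ r ^ N) ∧
      (∀ j, j < K → ‖((PowerSeries.coeff j (θ' δ) : OC C) : C) -
        ((PowerSeries.coeff j (PowerSeries.X : PowerSeries (OC C)) : OC C) : C)‖ ≤ r ^ N) := by
    intro N K
    obtain ⟨M', hM'⟩ := continuity p n (HH p n) hn1 hF hI N K
    refine ⟨max M M', fun δ hδ => ?_⟩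
    obtain ⟨φ, θ, h1, h2, h3, h4, h5, h6⟩ := hdeep δ (deep_mono (le_max_left _ _) δ hδ)
    have hc : CongX (EndZ.aut p n δ) M' := EndZ.aut_congX p n hn1 (max M M') M'
      ((le_max_right _ _).trans (hqt _)) δ hδ
    obtain ⟨h7, h8⟩ := hM' _ φ θ hc h1 h2 h3
    constructor
    · intro j
      have := norm_le_of_mem_maximal_pow p n Z r hr0 hr N _ (h7 (uu p n (h + j)))
      rw [map_sub, AddSubgroupClass.coe_sub] at this
      rw [h5 j]
      exact this
    · intro j hj
      have := norm_le_of_mem_maximal_pow p n Z r hr0 hr N _ (h8 j hj)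
      rw [map_sub, AddSubgroupClass.coe_sub, hcoeffX] at this
      rw [h6, PowerSeries.coeff_map]
      exact this
  have hev : ∀ t : ℕ, ∀ q : EndZ p n → Prop, (∀ δ, EndZ.Deep p n t δ → q δ) →
      ∀ᶠ δ in EndZ.deepFilter p n, q δ := fun t q hq =>
    Filter.mem_of_superset (EndZ.deep_mem_filter p n t) hq
  have hA : Filter.Tendsto (fun δ (j : Fin (n - h)) => ((τ' δ j : OC C) : C) - ((τ j : OC C) : C))
      (EndZ.deepFilter p n) (nhds 0) := by
    rw [tendsto_pi_nhds]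
    intro j
    rw [Pi.zero_apply, NormedAddCommGroup.tendsto_nhds_zero]
    intro ε hε
    obtain ⟨N, hN⟩ := exists_pow_lt_of_lt_one hε hr1
    obtain ⟨t, ht⟩ := hcont N 0
    exact hev t _ fun δ hδ => ((ht δ hδ).1 j).trans_lt hN
  have hθlim : ∀ j : ℕ, Filter.Tendsto (fun δ => ((PowerSeries.coeff j (θ' δ) : OC C) : C))
      (EndZ.deepFilter p n) (nhds (if j = 1 then 1 else 0)) := by
    intro j
    rw [Metric.tendsto_nhds]
    intro ε hε
    obtain ⟨N, hN⟩ := exists_pow_lt_of_lt_one hε hr1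
    obtain ⟨t, ht⟩ := hcont N (j + 1)
    refine hev t _ fun δ hδ => ?_
    have := (ht δ hδ).2 j (Nat.lt_succ_self j)
    rw [dist_eq_norm]
    have e : ((PowerSeries.coeff j (PowerSeries.X : PowerSeries (OC C)) : OC C) : C) =
        if j = 1 then 1 else 0 := by
      rw [PowerSeries.coeff_X]
      split_ifs <;> simp
    rw [e] at this
    exact this.trans_lt hN
  let F : ChartFamily p h n (EndZ.deepFilter p n) τ r :=
    { τ' := τ', θ := θ', S := mkS τ hτr, S' := fun δ => mkS (τ' δ) (hτ'r δ), hθ := hθ',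
      hA := hA, hθlim := hθlim }
  have hb : ∀ᶠ δ in EndZ.deepFilter p n, ∀ y : LawPt (GamC p n C),
      homPt (F.θ δ) (F.hθ δ) ((F.S' δ).pi y) = F.S.pi (y + EndZ.act p n kk δ y) := by
    refine hev M _ fun δ hδ y => ?_
    obtain ⟨φ, θ, h1, h2, h3, h4, h5, h6⟩ := hdeep δ hδ
    have hgh : IsFGHom (GamC p n C) (GamC p n C) (PowerSeries.map kk (EndZ.aut p n δ)) := by
      have := fgHom_map (EndZ.aut_isFGAut p n hn1 δ).1 kk
      rwa [Gam0_map] at this
    have hgq : ∀ j, ((PowerSeries.coeff j (PowerSeries.map kk (EndZ.aut p n δ)) : OC C) : C) ^ (p ^ n) =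
        ((PowerSeries.coeff j (PowerSeries.map kk (EndZ.aut p n δ)) : OC C) : C) := by
      intro j
      rw [PowerSeries.coeff_map]
      exact kk_pow _
    have hclose : ∀ j, ‖((PowerSeries.coeff j (F.θ δ) : OC C) : C) -
        ((PowerSeries.coeff j (PowerSeries.map kk (EndZ.aut p n δ)) : OC C) : C)‖ ≤ r := by
      intro j
      change ‖((PowerSeries.coeff j (θ' δ) : OC C) : C) - _‖ ≤ r
      rw [h6, ← h3, PowerSeries.coeff_map, PowerSeries.coeff_map, PowerSeries.coeff_map]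
      exact norm_sub_residue_le Z kk hW r hr _
    have := PiSetup.theta_pi F.S (F.S' δ) (F.θ δ) _ (F.hθ δ) hgh hgq hclose y
    rw [this]
    congr 1
    apply LawPt.ext'
    rw [homPt_val, EndZ.val_aut]
  -- the series
  have hfb : MvPowerSeries.map kk (stratumHom p n h f) ≠ 0 := by
    intro h0
    apply hfJ
    rw [← ker_stratumHom p n h hh hn.le, RingHom.mem_ker]
    ext d
    have := congrArg (MvPowerSeries.coeff d) h0
    rw [MvPowerSeries.coeff_map, map_zero] at this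
    rw [map_zero]
    exact kk.injective (by rw [this, map_zero])
  set c : Fin (n - h) → C := fun j => ((τ j : OC C) : C) with hc
  have hf' := taylorAt_ne_zero _ hfb c hτ1
  refine family_contradiction p h n hh hn τ hτ1 hτ0 r kk F hb _ hf' ?_
  refine hev M _ fun δ hδ => ?_
  obtain ⟨φ, θ, h1, h2, h3, h4, h5, h6⟩ := hdeep δ hδ
  have hAδ : ∀ j, ‖F.A δ j‖ < 1 := by
    intro j
    change ‖((τ' δ j : OC C) : C) - ((τ j : OC C) : C)‖ < 1
    rw [sub_eq_add_neg]
    refine lt_of_le_of_lt (IsUltrametricDist.norm_add_le_max _ _) ?_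
    rw [norm_neg]
    exact max_lt ((hτ'r δ j).trans_lt hr1) (hτ1 j)
  rw [evMv_taylorAt _ c hτ1 _ hAδ]
  have e : c + F.A δ = fun j : Fin (n - h) => ((Z (φ.toRingHom (uu p n (h + j))) : OC C) : C) := by
    funext j
    rw [← h5 j]
    simp [c, ChartFamily.A, F]
  have hZ' : ∀ x ∈ IsLocalRing.maximalIdeal E, ‖(((Z.comp φ.toRingHom) x : OC C) : C)‖ < 1 :=
    fun x hx => (hr _ (hφm φ h1 x hx)).trans_lt hr1
  have hJ' : ∀ x ∈ JJ p n h, (Z.comp φ.toRingHom) x = 0 :=
    fun x hx => hZP _ (hφP φ h4 x (hJ hx))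
  have hW' : ∀ a : W, (Z.comp φ.toRingHom) (MvPowerSeries.C a) = kk (WittVector.constantCoeff a) := by
    intro a
    rw [← hW a]
    simp only [RingHom.comp_apply]
    congr 1
    exact φ.commutes a
  have e2 := eval_stratum p n h hh hn kk (Z.comp φ.toRingHom) hZ' hJ' hW' f
  have e3 : (Z.comp φ.toRingHom) f = 0 := hZP _ (hφP φ h4 f hfP)
  rw [e]
  refine e2.symm.trans ?_
  rw [e3]
  rfl

end Assembly

end CoreAux

/-- **Core in characteristic `p`.** `1 ≤ h < n`, `P` prime, `J_h ≤ P`, `u_h ∉ P`, `P` deep-stable. Then `P = J_h`.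

Proof. If not, take `f ∈ P \ J_h`. `exists_valued_point` for `E₀/P`, `w = u_h`: `C`, `z`. `C` has characteristic `p` since `p ∈ J_h ⊂ P`. `r = max ‖z(gens of 𝔪)‖ < 1`, so `‖z x‖ ≤ r` for `x ∈ 𝔪`.
`kk β = z(C([β]))`. `τ_j = z(u_{h+j})`, `τ_0 ≠ 0`. For a `t₀`-deep `δ` (`q^(t₀) ≥ M`): `DeepStable` at `g(δ)` gives `φ_δ, θ_δ`; `Z'_δ = z ∘ φ_δ` kills `P ⊃ J_h`; `τ'_δ = Z'_δ(u_{h+j})`, `θ'_δ` = image of `θ_δ`, a hom. `H(τ'_δ) → H(τ)`
(`HH_map_stratum`). For non-deep `δ` put `τ'_δ = τ`, `θ'_δ = X`. `continuity` (with `htIdeal_HH`): `A_δ → 0`, `θ'_δ → X` coefficientwise. `theta_pi`: `θ'_δ ∘ π'_δ = π ∘ g(δ)` (`θ_δ` reduces to `g(δ)`, so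
coefficients of `θ'_δ` and of `g(δ)` mapped by `kk` differ by `z(𝔪)`). `f̄ = map kk (stratumHom f) ≠ 0` (`ker_stratumHom`, `kk` injective), `f̃ = taylorAt f̄ τ ≠ 0`; `f̃(A_δ) = f̄(τ'_δ) = Z'_δ(f) = z(φ_δ f) = 0`, as `φ_δ f ∈ P`. `family_contradiction`. -/
theorem coreCharP (h : ℕ) (hh : 1 ≤ h) (hn : h < n) (P : Ideal E) (hP : P.IsPrime)
    (hJ : JJ p n h ≤ P) (hu : uu p n h ∉ P) (M : ℕ) (hst : DeepStable p n M P) : P = JJ p n h := by
  by_contra hne
  have hlt : ¬ P ≤ JJ p n h := fun hle => hne (le_antisymm hle hJ)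
  obtain ⟨f, hfP, hfJ⟩ := SetLike.not_le_iff_exists.mp hlt
  obtain ⟨C, i1, i2, i3, i4, Z, hZP, hZu, hZm⟩ := CoreAux.exists_point p n h P hP hu
  have hn1 : 1 ≤ n := by omega
  obtain ⟨r, hr0, hr1, hr⟩ := CoreAux.exists_radius_maximal hn1 Z hZm
  have hpJ : (p : E) ∈ JJ p n h := by
    obtain ⟨m, rfl⟩ : ∃ m, h = m + 1 := ⟨h - 1, by omega⟩
    exact natCast_p_mem_JJ p n m
  have hZp : Z (p : E) = 0 := hZP _ (hJ hpJ)
  obtain ⟨kk, hW⟩ := CoreAux.exists_kk Z hZp
  have hcp : CharP C p := by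
    rw [CharP.charP_iff_prime_eq_zero (Fact.out : p.Prime)]
    have h0 : ((Z (p : E) : OC C) : C) = 0 := by rw [hZp]; rfl
    rw [map_natCast] at h0
    have e : (((p : OC C) : OC C) : C) = (p : C) := map_natCast (OC C).subtype p
    rw [← e]
    exact h0
  exact CoreAux.assemble h hh hn P hJ M hst Z hZP hZu r hr0 hr1 hr kk hW f hfP hfJ

end

end Crest.Agent.LT
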